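import Crest.Agent.R165.B3.Sum

/-! # R165/B3: smooth cut-off, commutator, local Morrey bound -/

set_option autoImplicit false
noncomputable section
open Classical

namespace Crest.Agent.R165.B3

/-- shifted smooth cut-off: `η y = χ r (y - x)` (`exists_cutoff`; for the Laplacian take `β = α + 2`) -/
theorem exists_cut : ∃ C : ℝ, 0 ≤ C ∧ ∀ (x : Site) (r : ℕ), 1 ≤ r → ∃ η : Site → ℝ, (∀ y, 0 ≤ η y ∧ η y ≤ 1) ∧
    (∀ y, supd y x ≤ r → η y = 1) ∧ (∀ y, 2 * r < supd y x → η y = 0) ∧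
    (∀ y α, |η (y + dv α) - η y| ≤ C / r) ∧ ∀ y, |lap η y| ≤ C / (r : ℝ) ^ 2 := by
  obtain ⟨χ, C, h⟩ := exists_cutoff
  have hC : 0 ≤ C := by simpa using (abs_nonneg _).trans ((h 1 le_rfl).2.2.2.2.1 0 0)
  refine ⟨2 * C, by positivity, fun x r hr => ?_⟩
  obtain ⟨h1, h2, h3, -, h4, h5⟩ := h r hr
  refine ⟨fun y => χ r (y - x), fun y => h1 _, fun y hy => h2 _ ?_, fun y hy => h3 _ ?_, fun y α => ?_, fun y => ?_⟩
  · rwa [mem_box, R165.supd_sub]
  · rwa [mem_box, R165.supd_sub, not_le]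
  · simp only [add_sub_right_comm]
    exact (h4 _ α).trans (div_le_div_of_nonneg_right (by linarith) (Nat.cast_nonneg r))
  · have e : ∀ α : Fin 4, y - x + dv α + dv (α + 2) = y - x := fun α => by rw [dv_add_two, add_neg_cancel_right]
    have h6 := h5 (y - x) 0 (0 + 2)
    have h7 := h5 (y - x) 1 (1 + 2)
    rw [e] at h6 h7
    simp only [lap, Fin.sum_univ_four, add_sub_right_comm]
    rw [mul_div_assoc]
    rw [show (0 + 2 : Fin 4) = 2 from rfl, abs_le] at h6
    rw [show (1 + 2 : Fin 4) = 3 from rfl, abs_le] at h7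
    exact abs_le.2 ⟨by linarith, by linarith⟩

theorem lap_mul (η D : Site → ℝ) (y : Site) : lap (fun y => η y * D y) y =
    η y * lap D y + ∑ α : Fin 4, (η (y + dv α) - η y) * (D (y + dv α) - D y) + D y * lap η y := by
  simp only [lap, Finset.mul_sum, ← Finset.sum_add_distrib]
  exact Finset.sum_congr rfl fun α _ => by ring

/-- the commutator terms of a cut-off: `cut` is supported in the frame and bounds
`|lap (η D) - η lap D|` (`exists_cut`, `lap_mul`, `poincare_frame` is NOT used here) -/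
theorem cut_comm : ∃ C : ℝ, 0 ≤ C ∧ ∀ (x : Site) (r : ℕ), 1 ≤ r → ∃ η : Site → ℝ, (∀ y, 0 ≤ η y ∧ η y ≤ 1) ∧
    (∀ y, supd y x ≤ r → η y = 1) ∧ (∀ y, 2 * r < supd y x → η y = 0) ∧ ∀ (D : Site → ℝ) (y : Site),
      |lap (fun y => η y * D y) y - η y * lap D y| ≤
        if y ∈ frame x (r - 1) (2 * r + 1) then C / r * grd D y + C / (r : ℝ) ^ 2 * |D y| else 0 := by
  obtain ⟨C, hC, h⟩ := exists_cut
  refine ⟨C, hC, fun x r hr => ?_⟩
  obtain ⟨η, h1, h2, h3, h4, h5⟩ := h x r hr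
  refine ⟨η, h1, h2, h3, fun D y => ?_⟩
  rw [lap_mul, add_assoc, add_sub_cancel_left]
  split_ifs with hy
  · refine (abs_add_le _ _).trans (add_le_add ((Finset.abs_sum_le_sum_abs _ _).trans ?_) ?_)
    · rw [grd, Finset.mul_sum]
      refine Finset.sum_le_sum fun α _ => ?_
      rw [abs_mul]
      exact mul_le_mul_of_nonneg_right (h4 y α) (abs_nonneg _)
    · rw [abs_mul, mul_comm]
      exact mul_le_mul_of_nonneg_right (h5 y) (abs_nonneg _)
  · have e : ∀ α, η (y + dv α) = η y := fun α => by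
      have a1 := supd_tri (y + dv α) y x
      have a2 := supd_tri y (y + dv α) x
      rw [supd_comm y (y + dv α)] at a2
      rw [supd_dv] at a1 a2
      rw [mem_frame, not_and_or] at hy
      rcases hy with hy | hy
      · rw [h2 _ (by omega), h2 _ (by omega)]
      · rw [h3 _ (by omega), h3 _ (by omega)]
    simp [lap, e]

/-- `poincare_frame` on `frame x (r-1) (2r+1)`, with `grd` on the right -/
theorem poin_frame : ∃ C : ℝ, 0 ≤ C ∧ ∀ (D : Site → ℝ) (x : Site) (r : ℕ), 2 ≤ r → ∃ c : ℝ,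
    ∑ y ∈ frame x (r - 1) (2 * r + 1), |D y - c| ≤ C * r * ∑ y ∈ frame x (r - 1) (2 * r + 1), grd D y := by
  obtain ⟨C, h⟩ := poincare_frame
  refine ⟨3 * |C|, by positivity, fun D x r hr => (h D x (r - 1) (2 * r + 1) (by omega) (by omega)).imp fun c hc => ?_⟩
  have h1 : (2 : ℝ) ≤ r := by exact_mod_cast hr
  refine hc.trans (mul_le_mul ?_ (Finset.sum_le_sum fun y _ => Finset.sum_le_sum fun α _ => ?_)
    (Finset.sum_nonneg fun _ _ => Finset.sum_nonneg fun _ _ => ?_) (by positivity))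
  · push_cast
    nlinarith [le_abs_self C, abs_nonneg C]
  · split_ifs
    exacts [le_rfl, abs_nonneg _]
  · split_ifs
    exacts [abs_nonneg _, le_rfl]

/-- local version: `u = η (H - c)` (`cut_comm`, `poin_frame`), `grad_L1`; `lap u` vanishes outside `box x (2r+1)`,
`u = H - c` on `box x r` -/
theorem mor_local : ∃ C : ℝ, 0 ≤ C ∧ ∀ (H : Site → ℝ) (x : Site) (r : ℕ) (m : ℝ), 2 ≤ r →
    ∑ y ∈ box x (2 * r), |lap H y| ≤ m → ∑ y ∈ frame x (r - 1) (2 * r + 1), grd H y ≤ r * m →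
    Mor H (box x r) (C * m) := by
  obtain ⟨C₀, h₀⟩ := grad_L1
  obtain ⟨C₁, hC₁, h₁⟩ := cut_comm
  obtain ⟨C₂, hC₂, h₂⟩ := poin_frame
  refine ⟨|C₀| * (1 + C₁ + C₁ * C₂), by positivity, fun H x r m hr hl hg p R hR hp => ?_⟩
  obtain ⟨η, h1, h2, h3, h4⟩ := h₁ x r (by omega)
  obtain ⟨c, hc⟩ := h₂ H x r hr
  have hr0 : (0 : ℝ) < r := Nat.cast_pos.2 (by omega)
  have h5 : ∀ y, |lap (fun y => η y * (H y - c)) y| ≤ (if y ∈ box x (2 * r) then |lap H y| else 0) +
      if y ∈ frame x (r - 1) (2 * r + 1) then C₁ / r * grd H y + C₁ / (r : ℝ) ^ 2 * |H y - c| else 0 := fun y => by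
    have h6 := h4 (fun y => H y - c) y
    have e1 : lap (fun y => H y - c) y = lap H y := by simp [lap]
    have e2 : grd (fun y => H y - c) y = grd H y := by simp [grd]
    rw [e1, e2] at h6
    refine (abs_sub_abs_le_abs_sub _ _).trans h6 |> sub_le_iff_le_add'.1 |>.trans (add_le_add_left ?_ _)
    split_ifs with hy
    · rw [abs_mul, abs_of_nonneg (h1 y).1]
      exact mul_le_of_le_one_left (abs_nonneg _) (h1 y).2
    · rw [h3 y (by rwa [mem_box, not_le] at hy), zero_mul, abs_zero]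
  have h6 : ∑ᶠ y, |lap (fun y => η y * (H y - c)) y| ≤ (1 + C₁ + C₁ * C₂) * m := by
    rw [finsum_eq_sum_of_support_subset (s := box x (2 * r + 1)) _ fun y hy => by
      by_contra hn
      rw [mem_box'] at hn
      have := h5 y
      rw [if_neg (by rw [mem_box]; omega), if_neg (by rw [mem_frame]; omega), add_zero] at this
      exact hy (this.antisymm (abs_nonneg _))]
    refine (Finset.sum_le_sum fun y _ => h5 y).trans ?_
    rw [Finset.sum_add_distrib, Finset.sum_ite_mem, Finset.sum_ite_mem, Finset.inter_eq_right.2 (R165.box_mono x (by omega)),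
      Finset.inter_eq_right.2 (by exact Finset.sdiff_subset), Finset.sum_add_distrib, ← Finset.mul_sum, ← Finset.mul_sum]
    have a1 := mul_le_mul_of_nonneg_left hg (div_nonneg hC₁ hr0.le)
    have a2 := mul_le_mul_of_nonneg_left (hc.trans (mul_le_mul_of_nonneg_left hg (by positivity)))
      (div_nonneg hC₁ (sq_nonneg (r : ℝ)))
    have e1 : C₁ / r * (r * m) = C₁ * m := by field_simp
    have e2 : C₁ / (r : ℝ) ^ 2 * (C₂ * r * (r * m)) = C₁ * C₂ * m := by field_simp
    linarith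
  have h7 := h₀ (fun y => η y * (H y - c)) ((box x (2 * r)).finite_toSet.subset fun y hy => by
    by_contra hn
    rw [mem_box', not_le] at hn
    exact hy (by simp only [h3 y hn, zero_mul])) p R hR
  have h8 : ∀ y ∈ box p (R + 1), η y = 1 := fun y hy => h2 y (mem_box'.1 (hp hy))
  calc ∑ y ∈ box p R, grd H y = _ := Finset.sum_congr rfl fun y hy => Finset.sum_congr rfl fun α _ => by
        rw [h8 _ (add_dv_mem_box hy α), h8 _ (R165.box_mono p (Nat.le_succ R) hy), one_mul, one_mul, sub_sub_sub_cancel_right]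
    _ ≤ _ := h7
    _ ≤ |C₀| * R * ((1 + C₁ + C₁ * C₂) * m) := mul_le_mul (mul_le_mul_of_nonneg_right (le_abs_self _) (Nat.cast_nonneg _)) h6
        (finsum_nonneg fun _ => abs_nonneg _) (by positivity)
    _ = _ := by ring

end Crest.Agent.R165.B3
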