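import Crest.Agent.R165.B3.Site
import Crest.Agent.R165.B3.Cut

/-! # R165/B3: Morrey bound from an `L²` bound on a frame -/

set_option autoImplicit false
noncomputable section
open Classical

namespace Crest.Agent.R165.B3

/-- `r = 3l/2`, `mor_local`. `Σ_{box x (3l+1)} lapN ≤ C G / l` by `mass_le` (`r := 3l`, `R := 4l - 1`) and `sum_grd_le`;
`lap_le` + `inc_le` + `lapN_ge'` + `sum_shift_le` bound `Σ_{box x 3l} |lap Hw|`; `sum_grd_le` on `frame x (r-1) (2r+1)` -/
theorem mor_of_frame : ∃ C : ℝ, 0 ≤ C ∧ ∀ (E : Set Edge) (S : Finset Site) (x : Site) (l : ℕ) (s : Fn)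
    (Hw Hb : Site → ℝ) (G : ℝ), 10 ≤ l → SolOn (wOf E S) (box x (4 * l)) s → IsH (wOf E S) s (box x (4 * l)) Hw Hb →
    ∑ y ∈ frame x l (4 * l), ∑ α : Fin 4, s (y, α) ^ 2 ≤ G → Mor Hw (box x (3 * l / 2)) (C * G / l) := by
  obtain ⟨C, hC, hloc⟩ := mor_local
  refine ⟨C * 44, by positivity, fun E S x l s Hw Hb G hl hs hH hG => ?_⟩
  have hl' : (10 : ℝ) ≤ l := by exact_mod_cast hl
  have hG0 : 0 ≤ G := le_trans (by positivity) hG
  have hW : ∀ y, supd y x + 1 ≤ 4 * l → WInc (wOf E S) s Hw y := fun y hy => winc_of_sol hH hs (box_mono' hy)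
  have hP : ∀ y, supd y x + 1 ≤ 4 * l → SolOn (wOf E S) {y} s := fun y hy => SolOn.pt hs (mem_box'.2 (by omega))
  have h0 : ∀ y, supd y x + 1 ≤ 4 * l → 0 ≤ lapN E Hw y := fun y hy => lapN_nonneg (hP y hy) (hW y hy)
  have hf : ∀ y, supd y x + 1 ≤ 4 * l → frz E s y ≤ 2 * lapN E Hw y := fun y hy => by
    have h1 := lapN_ge' (hP y hy) (hW y hy)
    have h2 := frz_nonneg E s y
    have h3 := tc_sq_le
    nlinarith
  have hg : ∀ a b : ℕ, l ≤ a → b + 1 ≤ 4 * l → ∑ y ∈ frame x (a + 1) b, grd Hw y ≤ 2 * G := by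
    intro a b ha hb
    refine (sum_grd_le (E := E) (S := S) (s := s) (B := frame x l (4 * l))
      (fun y hy => hW y (by have := (mem_frame.1 hy).2; omega)) fun y hy z hz => ?_).trans (by linarith)
    obtain ⟨h1, h2⟩ := mem_frame.1 hy
    have h3 := mem_box.1 hz
    have h4 := supd_tri z y x
    have h5 := supd_tri y z x
    rw [supd_comm y z] at h5
    exact mem_frame.2 ⟨by omega, by omega⟩
  have hM : ∑ y ∈ box x (3 * l + 1), lapN E Hw y ≤ 4 * G / l := by
    have h1 := mass_le E Hw x (r := 3 * l) (R := 4 * l - 1) (by omega)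
      fun y hy => h0 y (by have := mem_box.1 hy; omega)
    have h2 := hg (3 * l - 1) (4 * l - 1) (by omega) (by omega)
    rw [show 3 * l - 1 + 1 = 3 * l by omega] at h2
    have h3 : ((4 * l - 1 : ℕ) : ℝ) - ((3 * l : ℕ) + 1) = l - 2 := by
      rw [Nat.cast_sub (by omega)]
      push_cast
      ring
    rw [h3] at h1
    refine h1.trans ((mul_le_mul_of_nonneg_left h2 (one_div_nonneg.2 (by linarith))).trans ?_)
    rw [one_div_mul_eq_div, div_le_div_iff₀ (by linarith) (by linarith)]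
    nlinarith
  have hsh : ∀ a : Site, (∀ y, supd (y + a) y ≤ 1) →
      ∑ y ∈ box x (2 * (3 * l / 2)), lapN E Hw (y + a) ≤ 4 * G / l := fun a ha =>
    (sum_shift_le (lapN E Hw) (fun y hy => h0 y (by have := mem_box.1 hy; omega)) a fun y hy => mem_box.2 (by
      have := mem_box.1 hy
      have := supd_tri (y + a) y x
      have := ha y
      omega)).trans hM
  rw [mul_assoc, mul_div_assoc]
  refine hloc Hw x (3 * l / 2) _ (by omega) ?_ ?_
  · have h1 : ∀ y ∈ box x (2 * (3 * l / 2)), |lap Hw y| ≤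
        3 * lapN E Hw (y + 0) + 2 * ∑ α : Fin 4, lapN E Hw (y + dv α) := by
      intro y hy
      have hy' := mem_box.1 hy
      have h2 := lap_le (E := E) (s := s) (H := Hw) (x := y) fun α _ => inc_le (hW y (by omega)) α
      rw [abs_of_nonneg (h0 y (by omega))] at h2
      have h3 := hf y (by omega)
      have h4 : ∑ α : Fin 4, frz E s (y + dv α) ≤ ∑ α : Fin 4, 2 * lapN E Hw (y + dv α) :=
        Finset.sum_le_sum fun α _ => hf _ (by
          have := supd_tri (y + dv α) y x
          have := supd_dv y α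
          omega)
      rw [← Finset.mul_sum] at h4
      rw [add_zero]
      linarith
    refine (Finset.sum_le_sum h1).trans ?_
    rw [Finset.sum_add_distrib, ← Finset.mul_sum, ← Finset.mul_sum, Finset.sum_comm, Fin.sum_univ_four]
    have a0 := hsh 0 fun y => by rw [add_zero, supd_self]; omega
    have a1 := fun α => hsh (dv α) fun y => (supd_dv y α).le
    have e : 44 * G / l = 11 * (4 * G / l) := by ring
    linarith [a1 0, a1 1, a1 2, a1 3]
  · have h2 := hg (3 * l / 2 - 2) (2 * (3 * l / 2) + 1) (by omega) (by omega)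
    rw [show 3 * l / 2 - 2 + 1 = 3 * l / 2 - 1 by omega] at h2
    have h3 : (l : ℝ) ≤ (3 * l / 2 : ℕ) := by exact_mod_cast (by omega : l ≤ 3 * l / 2)
    refine h2.trans (le_trans ?_ (mul_le_mul_of_nonneg_right h3 (by positivity)))
    rw [mul_div_cancel₀ _ (by positivity)]
    linarith

end Crest.Agent.R165.B3
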