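import Crest.Agent.R165.B3.Core
import Crest.Agent.R165.B3.MorF

/-! # R165/B3: a priori bounds -/

set_option autoImplicit false
noncomputable section
open Classical

namespace Crest.Agent.R165.B3

/-- `exists_H_box`, `mor_of_frame`, `core` with `d = dB S (l / 4) y` (`exists_dB`), `dB_scale` (`N = 8`) -/
theorem apriori_L2 : ∃ (C : ℝ) (K : ℕ), 0 ≤ C ∧ 1 ≤ K ∧ ∀ (E : Set Edge) (ρ : ℝ) (S : Finset Site) (x : Site) (l : ℕ)
    (s : Fn) (G : ℝ), Reg E ρ → K ≤ l → (K * l : ℝ) ≤ ρ → SolOn (wOf E S) (box x (4 * l)) s →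
    ∑ y ∈ frame x l (4 * l), ∑ α : Fin 4, s (y, α) ^ 2 ≤ G →
    ∀ y ∈ box x l, ∀ α, s (y, α) ^ 2 * dB S l y ≤ C * G / l := by
  obtain ⟨C₁, K, hC₁, hK, h1⟩ := core
  obtain ⟨C₂, hC₂, h2⟩ := mor_of_frame
  refine ⟨8 * C₁ * C₂, max K 10, by positivity, le_max_of_le_left hK, fun E ρ S x l s G hR hl hρ hs hG y hy α => ?_⟩
  have hl' : 10 ≤ l := (le_max_right _ _).trans hl
  obtain ⟨Hw, Hb, hH⟩ := exists_H_box _ s x _ hs
  obtain ⟨d, e, d1, d2, d3⟩ := exists_dB S (l / 4) y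
  have hy' := mem_box.1 hy
  have b1 : (↑(box y (d + 1)) : Set Site) ⊆ ↑(box x (4 * l)) := box_mono' (by omega)
  have h3 := h1 E ρ S y d s Hw Hb _ hR (d2 (by omega)) (le_trans (by
      exact_mod_cast Nat.mul_le_mul (le_max_left K 10) (show d ≤ l by omega)) hρ) d3 (SolOn.mono hs b1) (IsH.mono hH b1)
    (Mor.mono (h2 E S x l s Hw Hb G hl' hs hH hG) (box_mono' (by omega)) le_rfl) α
  have h4 := dB_scale S (l := l) (l' := l / 4) (N := 8) (by omega) (by omega) y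
  rw [e] at h4
  calc s (y, α) ^ 2 * dB S l y ≤ s (y, α) ^ 2 * (((8 : ℕ) : ℝ) * d) := mul_le_mul_of_nonneg_left h4 (sq_nonneg _)
    _ = 8 * (s (y, α) ^ 2 * d) := by push_cast; ring
    _ ≤ 8 * (C₁ * (C₂ * G / l)) := by gcongr
    _ = _ := by ring

theorem apr_fin {S : Finset Site} {x : Site} {l : ℕ} {s : Fn} {C A M : ℝ} (hC : 0 ≤ C) (hA : 0 ≤ A) (hl : 1 ≤ l)
    (h1 : ∀ y ∈ box x l, ∀ α, s (y, α) ^ 2 * dB S l y ≤ C * (A * l ^ 2 * M ^ 2) / l)
    (h2 : WB S (frame x l (4 * l)) l M s) : WB S (box x (2 * l)) l ((C * A + 1) * M) s := fun y hy α => by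
  have h0 : (0 : ℝ) < l := by exact_mod_cast hl
  have h3 : 0 ≤ C * A := by positivity
  have h4 : 0 ≤ M ^ 2 * l := by positivity
  have hy' := mem_box'.1 hy
  rw [show ((C * A + 1) * M) ^ 2 * l = (C * A + 1) ^ 2 * (M ^ 2 * l) by ring]
  by_cases h : supd y x ≤ l
  · refine (h1 y (mem_box.2 h) α).trans ?_
    rw [show C * (A * l ^ 2 * M ^ 2) / l = C * A * (M ^ 2 * l) by field_simp]
    exact mul_le_mul_of_nonneg_right (by nlinarith) h4
  · refine (h2 y (Finset.mem_coe.2 (mem_frame.2 ⟨by omega, by omega⟩)) α).trans ?_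
    exact le_mul_of_one_le_left h4 (by nlinarith)

theorem apr_card (x : Site) {l : ℕ} (hl : 1 ≤ l) : ((frame x l (4 * l)).card : ℝ) ≤ 81 * l ^ 2 := by
  have h : (frame x l (4 * l)).card ≤ (9 * l) ^ 2 :=
    ((Finset.card_le_card Finset.sdiff_subset).trans_eq (card_box x _)).trans (Nat.pow_le_pow_left (by omega) 2)
  calc ((frame x l (4 * l)).card : ℝ) ≤ ((9 * l) ^ 2 : ℕ) := by exact_mod_cast h
    _ = _ := by push_cast; ring

/-- `apriori_L2` with `G = 4 (8l+1)² M²` on `box x l`, the hypothesis (`dB_le`) on the frame -/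
theorem apriori_sup' : ∃ (C : ℝ) (K : ℕ), ∀ (E : Set Edge) (ρ : ℝ) (S : Finset Site) (x : Site) (l : ℕ) (s : Fn) (M : ℝ),
    Reg E ρ → K ≤ l → (K * l : ℝ) ≤ ρ → SolOn (wOf E S) (box x (4 * l)) s → SB (frame x l (4 * l)) M s →
    WB S (box x (2 * l)) l (C * M) s := by
  obtain ⟨C, K, hC, hK, h⟩ := apriori_L2
  refine ⟨C * 324 + 1, K, fun E ρ S x l s M hR hl hρ hs hM => ?_⟩
  have h1 : ∀ y ∈ frame x l (4 * l), ∀ α, s (y, α) ^ 2 ≤ M ^ 2 := fun y hy α =>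
    sq_le_sq' (abs_le.1 (hM y hy α)).1 (abs_le.1 (hM y hy α)).2
  refine apr_fin hC (by norm_num) (hK.trans hl) (h E ρ S x l s _ hR hl hρ hs ?_) fun y hy α =>
    mul_le_mul (h1 y hy α) (dB_le S l y) (zero_le_one.trans (one_le_dB S (hK.trans hl) y)) (sq_nonneg _)
  refine (Finset.sum_le_card_nsmul _ _ (4 * M ^ 2) fun y hy =>
    (Finset.sum_le_card_nsmul _ _ _ fun α _ => h1 y hy α).trans_eq (by simp)).trans ?_
  rw [nsmul_eq_mul]
  exact (mul_le_mul_of_nonneg_right (apr_card x (hK.trans hl)) (by positivity)).trans_eq (by ring)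

/-- `apriori_L2` with `G = 4 M² l Σ 1 / dB`, `sum_inv_dB` (`k = l`) -/
theorem apriori_wb' (n : ℕ) : ∃ (C : ℝ) (K : ℕ), ∀ (E : Set Edge) (ρ : ℝ) (S : Finset Site) (x : Site) (l : ℕ) (s : Fn)
    (M : ℝ), Reg E ρ → S.card ≤ n → K ≤ l → (K * l : ℝ) ≤ ρ → SolOn (wOf E S) (box x (4 * l)) s →
    WB S (frame x l (4 * l)) l M s → WB S (box x (2 * l)) l (C * M) s := by
  obtain ⟨C, K, hC, hK, h⟩ := apriori_L2
  refine ⟨C * (4 * (81 + n * 97)) + 1, K, fun E ρ S x l s M hR hn hl hρ hs hM => ?_⟩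
  have hl1 := hK.trans hl
  have h0 : (1 : ℝ) ≤ l := by exact_mod_cast hl1
  refine apr_fin hC (by positivity) hl1 (h E ρ S x l s _ hR hl hρ hs ?_) hM
  have h1 : ∀ y ∈ frame x l (4 * l), ∑ α : Fin 4, s (y, α) ^ 2 ≤ 4 * M ^ 2 * l * (1 / dB S l y) := fun y hy => by
    have h2 := one_le_dB S hl1 y
    refine (Finset.sum_le_card_nsmul _ _ (M ^ 2 * l / dB S l y) fun α _ =>
      (le_div_iff₀ (by linarith)).2 (hM y hy α)).trans_eq ?_
    simp only [Finset.card_univ, Fintype.card_fin, nsmul_eq_mul]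
    push_cast
    ring
  have h2 := apr_card x hl1
  have h3 : ((frame x l (4 * l)).card : ℝ) / l ≤ 81 * l := (div_le_iff₀ (by linarith)).2 (by linarith)
  have h4 : ((frame x l (4 * l)).card : ℝ) / (l + 1) ≤ 81 * l := (div_le_iff₀ (by linarith)).2 (by nlinarith)
  have h5 : (S.card : ℝ) * (8 * ((l : ℝ) + 1) + (frame x l (4 * l)).card / ((l : ℝ) + 1)) ≤ n * (97 * l) :=
    mul_le_mul (by exact_mod_cast hn) (by linarith) (by positivity) (by positivity)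
  refine (Finset.sum_le_sum h1).trans ?_
  rw [← Finset.mul_sum]
  exact (mul_le_mul_of_nonneg_left ((sum_inv_dB _ S hl1 l).trans (add_le_add h3 h5)) (by positivity)).trans_eq (by ring)

end Crest.Agent.R165.B3
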