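import Crest.Agent.R165.B3.Flat

/-! # R165/B3: sites near the boundary or near the spins -/

set_option autoImplicit false
noncomputable section
open Classical

namespace Crest.Agent.R165.B3

/-- sites that are neither all-frozen nor `8k`-deep in the bulk -/
def badSet (E : Set Edge) (S : Finset Site) (x : Site) (L k : ℕ) : Finset Site :=
  (box x L).filter fun y => (∃ α, edgeOf y α ∈ E) ∧ ¬ (Crit E (box y (8 * k)) ∧ ∀ v ∈ S, v ∉ box y (8 * k + 2))

/-- `flat_count` with `8k`, and `badSet ⊆ flat set ∪ ⋃_{v ∈ S} box v (8k+2)`, `(16k+5)² ≤ 21² k² ≤ 3 k L` -/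
theorem bad_card : ∃ C : ℝ, 0 ≤ C ∧ ∀ (E : Set Edge) (ρ : ℝ) (S : Finset Site) (x : Site) (L k : ℕ), Reg E ρ → 1 ≤ k →
    160 * k ≤ L → (L : ℝ) ^ 2 ≤ k * ρ → ((badSet E S x L k).card : ℝ) ≤ C * (S.card + 1) * k * L := by
  obtain ⟨C, hC, H⟩ := flat_count
  refine ⟨8 * C + 3, by linarith, fun E ρ S x L k hE hk hL hρ => ?_⟩
  have hk' : (1 : ℝ) ≤ k := by exact_mod_cast hk
  have hL' : 160 * (k : ℝ) ≤ L := by exact_mod_cast hL
  have h1 := H E ρ x L (8 * k) hE (by omega) (by omega) (by push_cast; nlinarith [sq_nonneg (L : ℝ)])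
  have h2 : badSet E S x L k ⊆ ((box x L).filter fun y => (∃ α, edgeOf y α ∈ E) ∧ ¬ Crit E (box y (8 * k))) ∪
      S.biUnion fun v => box v (8 * k + 2) := fun y hy => by
    obtain ⟨h0, h3, h4⟩ := Finset.mem_filter.1 hy
    by_cases h5 : Crit E (box y (8 * k))
    · refine Finset.mem_union_right _ (by_contra fun hn => h4 ⟨h5, fun v hv h6 => hn ?_⟩)
      exact Finset.mem_biUnion.2 ⟨v, hv, mem_box.2 (by rw [supd_comm]; exact mem_box.1 h6)⟩
    · exact Finset.mem_union_left _ (Finset.mem_filter.2 ⟨h0, h3, h5⟩)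
  have h3 := (Finset.card_le_card h2).trans ((Finset.card_union_le _ _).trans (Nat.add_le_add_left
    (Finset.card_biUnion_le_card_mul S _ ((2 * (8 * k + 2) + 1) ^ 2) fun v _ => (card_box v _).le) _))
  have h4 := (Nat.cast_le (α := ℝ)).2 h3
  push_cast at h1 h4
  have h5 : (2 * (8 * (k : ℝ) + 2) + 1) ^ 2 ≤ 3 * (k * L) := by nlinarith
  have h6 := mul_le_mul_of_nonneg_left h5 (Nat.cast_nonneg S.card)
  have h7 : 0 ≤ (k : ℝ) * L := by positivity
  have h8 : 0 ≤ C * (S.card * (k * L)) := by positivity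
  linarith

/-- `sum_inv_dB` with `k' = L / N` -/
theorem bad_sum (n : ℕ) : ∃ C : ℝ, 0 ≤ C ∧ ∀ (E : Set Edge) (ρ : ℝ) (S : Finset Site) (x : Site) (L k N : ℕ), Reg E ρ →
    S.card ≤ n → 1 ≤ k → 13 ≤ N → N ^ 2 * k ≤ L → (L : ℝ) ^ 2 ≤ k * ρ →
    ∑ y ∈ badSet E S x L k, 1 / dB S L y ≤ C * L / N := by
  obtain ⟨C, hC, H⟩ := bad_card
  refine ⟨C * (n + 1) + n * (16 + C * (n + 1)), by positivity, fun E ρ S x L k N hE hS hk hN hL hρ => ?_⟩
  have h0 : 169 * k ≤ N ^ 2 * k := Nat.mul_le_mul_right _ (by nlinarith)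
  have h0' : N ≤ L := by nlinarith
  have hN' : (13 : ℝ) ≤ N := by exact_mod_cast hN
  have hL' : (N : ℝ) ^ 2 * k ≤ L := by exact_mod_cast hL
  have hNL : (N : ℝ) ≤ L := by exact_mod_cast h0'
  have hS' : (S.card : ℝ) ≤ n := by exact_mod_cast hS
  obtain ⟨t, ht⟩ : ∃ t : ℝ, t = L / N := ⟨_, rfl⟩
  have ht1 : 1 ≤ t := by rw [ht, le_div_iff₀ (by linarith)]; linarith
  have hLt : (L : ℝ) = t * N := by rw [ht]; field_simp
  have hkt : (k : ℝ) * N ≤ t := le_of_mul_le_mul_right (by rw [← hLt]; linarith) (by linarith : (0 : ℝ) < N)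
  have h1 : ((badSet E S x L k).card : ℝ) ≤ C * (n + 1) * (t * t) := by
    refine (H E ρ S x L k hE hk (by omega) hρ).trans ?_
    rw [mul_assoc, hLt]
    exact mul_le_mul (by gcongr) (by nlinarith) (by positivity) (by positivity)
  have h2 : ((L / N : ℕ) : ℝ) ≤ t := ht ▸ Nat.cast_div_le
  have h3 : t ≤ ((L / N : ℕ) : ℝ) + 1 := by
    rw [ht, div_le_iff₀ (by linarith)]
    exact_mod_cast (by rw [mul_comm]; exact (Nat.lt_mul_div_succ L (by omega)).le : L ≤ (L / N + 1) * N)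
  have h4 : ∀ d : ℝ, t ≤ d → ((badSet E S x L k).card : ℝ) / d ≤ C * (n + 1) * t := fun d hd => by
    rw [div_le_iff₀ (by linarith), mul_assoc]
    exact h1.trans (by gcongr)
  refine (sum_inv_dB _ S (by omega) (L / N)).trans ?_
  have h5 := h4 L (by rw [hLt]; exact le_mul_of_one_le_right (by linarith) (by linarith))
  have h6 := h4 _ h3
  rw [mul_div_assoc, ← ht, add_mul, mul_assoc (n : ℝ)]
  generalize ((L / N : ℕ) : ℝ) = d at *
  have h7 : 0 < d + 1 := by linarith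
  exact add_le_add h5 (mul_le_mul hS' (by rw [add_mul]; linarith)
    (add_nonneg (by linarith) (div_nonneg (Nat.cast_nonneg _) h7.le)) (Nat.cast_nonneg _))

end Crest.Agent.R165.B3
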