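import Crest.Agent.R165.B3.Sum

/-! # R165/B3: Caccioppoli inequality -/

set_option autoImplicit false
noncomputable section
open Classical

namespace Crest.Agent.R165.B3

theorem cacc_energy (u : Site → ℝ) (x : Site) (R : ℕ) (δ : ℝ) (hR : 1 ≤ R) (h0 : ∀ y ∈ box x (2 * R), 0 ≤ lap u y)
    (h1 : ∀ y ∈ box x (2 * R + 1), |u y| ≤ δ) :
    ∑ y ∈ box x R, ∑ α : Fin 4, (u (y + dv α) - u y) ^ 2 ≤ 784 * δ ^ 2 := by
  obtain ⟨η, -, e1, e0, el⟩ := exists_lip x (show R + 1 < 2 * R + 1 by omega)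
  have hR' : (1 : ℝ) ≤ R := by exact_mod_cast hR
  have eR : ((2 * R + 1 : ℕ) : ℝ) - (R + 1 : ℕ) = R := by push_cast; ring
  rw [eR] at el
  have hs := sum_parts Set.univ (fun y => η y ^ 2 * (u y + δ)) u (box x (2 * R + 1)) fun y hy => box_mono (by
    by_contra hn
    exact hy (by simp [e0 y (by omega)]))
  have hl : 0 ≤ ∑ y ∈ box x (2 * R + 1), η y ^ 2 * (u y + δ) * lapN Set.univ u y := by
    refine Finset.sum_nonneg fun y hy => ?_
    by_cases h : supd y x ≤ 2 * R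
    · rw [lapN_crit fun _ => Set.mem_univ _]
      have := (abs_le.1 (h1 y hy)).1
      exact mul_nonneg (mul_nonneg (sq_nonneg _) (by linarith)) (h0 y (mem_box.2 h))
    · simp [e0 y (by omega)]
  simp only [Set.mem_univ, if_true] at hs
  have ht : ∀ y ∈ box x (2 * R + 1), ∀ α : Fin 4,
      (η (y + dv α) * (u (y + dv α) + δ) - η y * (u y + δ)) ^ 2 - 4 * δ ^ 2 / R ^ 2 ≤
        (η (y + dv α) ^ 2 * (u (y + dv α) + δ) - η y ^ 2 * (u y + δ)) * (u (y + dv α) - u y) := by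
    intro y hy α
    by_cases h : supd (y + dv α) x ≤ 2 * R + 1
    · have a1 := abs_le.1 (h1 y hy)
      have a2 := abs_le.1 (h1 _ (mem_box.2 h))
      have a3 : (η (y + dv α) - η y) ^ 2 ≤ 1 / R ^ 2 := by
        rw [← sq_abs, ← one_pow 2, ← div_pow]
        exact pow_le_pow_left₀ (abs_nonneg _) (el y α) 2
      have a4 : (u y + δ) * (u (y + dv α) + δ) ≤ 4 * δ ^ 2 := by nlinarith
      have a5 := mul_le_mul a4 a3 (sq_nonneg _) (by positivity)
      rw [mul_one_div] at a5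
      nlinarith
    · have a1 := supd_tri (y + dv α) y x
      rw [supd_dv] at a1
      rw [e0 y (by omega), e0 (y + dv α) (by omega)]
      have : 0 ≤ 4 * δ ^ 2 / R ^ 2 := by positivity
      simpa using this
  have h2 := Finset.sum_le_sum fun y hy => Finset.sum_le_sum fun α (_ : α ∈ Finset.univ) => ht y hy α
  simp only [Finset.sum_sub_distrib, Finset.sum_const, Finset.card_univ, Fintype.card_fin, card_box, nsmul_eq_mul] at h2
  have h3 : ∑ y ∈ box x R, ∑ α : Fin 4, (u (y + dv α) - u y) ^ 2 ≤ ∑ y ∈ box x (2 * R + 1), ∑ α : Fin 4,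
      (η (y + dv α) * (u (y + dv α) + δ) - η y * (u y + δ)) ^ 2 := by
    refine le_trans (le_of_eq (Finset.sum_congr rfl fun y hy => Finset.sum_congr rfl fun α _ => ?_))
      (Finset.sum_le_sum_of_subset_of_nonneg (box_mono (by rw [supd_self]; omega)) fun _ _ _ => by positivity)
    have a1 := supd_tri (y + dv α) y x
    have a2 := mem_box.1 hy
    rw [supd_dv] at a1
    rw [e1 y (by omega), e1 (y + dv α) (by omega)]
    ring
  have h4 : (((2 * (2 * R + 1) + 1) ^ 2 : ℕ) : ℝ) * ((4 : ℕ) * (4 * δ ^ 2 / R ^ 2)) ≤ 784 * δ ^ 2 := by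
    push_cast
    rw [← mul_div_assoc, ← mul_div_assoc, div_le_iff₀ (by positivity)]
    have : (2 * (2 * (R : ℝ) + 1) + 1) ^ 2 ≤ 49 * R ^ 2 := by nlinarith
    nlinarith [mul_le_mul_of_nonneg_right this (sq_nonneg δ)]
  linarith

/-- **Caccioppoli**: `v = u + δ ∈ [0, 2δ]`, `η` from `exists_lip x (R+1 < 2R+1)`;
`0 ≤ Σ η² v lap v = -½ Σ ∇(η² v) ∇v` (`sum_parts` with `E = univ`, `lapN_crit`) and
`∇(η² v) ∇v = (∇(η v))² - v v' (∇η)²`; then `|∇u| ≤ (δ / R + R / δ * (∇u)²) / 2` (treat `δ = 0` apart) -/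
theorem caccioppoli : ∃ C : ℝ, 0 ≤ C ∧ ∀ (u : Site → ℝ) (x : Site) (R : ℕ) (δ : ℝ), 1 ≤ R →
    (∀ y ∈ box x (2 * R), 0 ≤ lap u y) → (∀ y ∈ box x (2 * R + 1), |u y| ≤ δ) →
    ∑ y ∈ box x R, grd u y ≤ C * R * δ := by
  refine ⟨168, by norm_num, fun u x R δ hR h0 h1 => ?_⟩
  have hδ : 0 ≤ δ := (abs_nonneg _).trans (h1 x (mem_box.2 (by rw [supd_self]; omega)))
  have hR' : (1 : ℝ) ≤ R := by exact_mod_cast hR
  have h2 := cacc_energy u x R δ hR h0 h1
  have h3 := sq_sum_le_card_mul_sum_sq (s := box x R ×ˢ (Finset.univ : Finset (Fin 4)))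
    (f := fun p => |u (p.1 + dv p.2) - u p.1|)
  simp only [Finset.sum_product, sq_abs, Finset.card_product, card_box, Finset.card_univ, Fintype.card_fin] at h3
  push_cast at h3
  refine le_of_sq_le_sq (h3.trans ?_) (by positivity)
  have h4 : (2 * (R : ℝ) + 1) ^ 2 * 4 ≤ 36 * R ^ 2 := by nlinarith
  calc _ ≤ 36 * R ^ 2 * (784 * δ ^ 2) := mul_le_mul h4 h2 (by positivity) (by positivity)
    _ = _ := by ring

end Crest.Agent.R165.B3
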