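import Crest.Agent.R165.B3.Int
import Crest.Agent.R165.B3.Cacc

/-! # R165/B3: squares from the oscillation of `Hw` -/

set_option autoImplicit false
noncomputable section
open Classical

namespace Crest.Agent.R165.B3

/-- `D ≤ 20`: `pt_bound` + `grd_le_of_abs`. `D > 20`: `crit_of_far`, `caccioppoli` at radius `R + 1` with `R = D / 4`
(`lap Hw = lapN ≥ 0`: `lapN_crit`, `lapN_nonneg`), `int_grad` -/
theorem sq_of_osc : ∃ C : ℝ, 0 ≤ C ∧ ∀ (E : Set Edge) (S : Finset Site) (s : Fn) (Hw Hb : Site → ℝ) (x : Site) (D : ℕ)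
    (δ : ℝ), (∀ b, FrozenB E b → D ≤ supd b x) → (∀ v ∈ S, v ∉ box x D) → SolOn (wOf E S) (box x (D + 1)) s →
    IsH (wOf E S) s (box x (D + 1)) Hw Hb → (∀ y ∈ box x (D + 1), |Hw y| ≤ δ) →
    ∀ α, s (x, α) ^ 2 ≤ C * δ / (D + 1) := by
  obtain ⟨C1, hC1, h1⟩ := pt_bound
  obtain ⟨C2, hC2, h2⟩ := caccioppoli
  obtain ⟨C3, hC3, h3⟩ := int_grad
  refine ⟨168 * C1 + 16 * (C3 * C2), by positivity, fun E S s Hw Hb x D δ hE hS hs hH hδ α => ?_⟩
  have hx : x ∈ box x (D + 1) := mem_box.2 (by rw [supd_self]; omega)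
  have hδ0 : 0 ≤ δ := (abs_nonneg _).trans (hδ x hx)
  have hD : (0 : ℝ) < D + 1 := by positivity
  have hw : ∀ y, supd y x ≤ D → WInc (wOf E S) s Hw y := fun y hy => winc_of_sol hH hs (box_mono' (by omega))
  rw [le_div_iff₀ hD]
  by_cases hD20 : D ≤ 20
  · have a1 := h1 E S s Hw x (SolOn.pt hs hx) (hw x (by rw [supd_self]; omega)) α
    have a2 : grd Hw x ≤ 8 * δ := grd_le_of_abs fun y hy => hδ y (box_mono (by rw [supd_self]; omega) hy)
    have a3 : (D : ℝ) + 1 ≤ 21 := by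
      have : (D : ℝ) ≤ 20 := by exact_mod_cast hD20
      linarith
    have a4 : s (x, α) ^ 2 ≤ C1 * (8 * δ) := a1.trans (mul_le_mul_of_nonneg_left a2 hC1)
    have a5 : 0 ≤ C3 * C2 * δ := by positivity
    calc s (x, α) ^ 2 * (D + 1) ≤ C1 * (8 * δ) * 21 := mul_le_mul a4 a3 hD.le (by positivity)
      _ ≤ _ := by nlinarith
  · obtain ⟨R, hR1, hR2⟩ : ∃ R : ℕ, 4 * R ≤ D ∧ D < 4 * R + 4 := ⟨D / 4, by omega, by omega⟩
    have hc : Crit E (box x (D - 2)) := crit_of_far fun b hb => by have := hE b hb; omega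
    have b1 := h2 Hw x (R + 1) δ (by omega) (fun y hy => by
      have hy' := mem_box.1 hy
      rw [← lapN_crit (E := E) (hc y (mem_box'.2 (by omega)))]
      exact lapN_nonneg (SolOn.pt hs (mem_box'.2 (by omega))) (hw y (by omega)))
      fun y hy => hδ y (box_mono (by rw [supd_self]; omega) hy)
    have b2 := h3 E S s Hw Hb x R _ (by omega) (Crit.mono hc (box_mono' (by rw [supd_self]; omega)))
      (fun v hv h => hS v hv (box_mono (by rw [supd_self]; omega) h))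
      (SolOn.mono hs (box_mono' (by rw [supd_self]; omega))) (IsH.mono hH (box_mono' (by rw [supd_self]; omega))) b1 α
    have c1 : (1 : ℝ) ≤ R := by exact_mod_cast (by omega : 1 ≤ R)
    have c2 : (D : ℝ) + 1 ≤ 4 * R + 4 := by exact_mod_cast (by omega : D + 1 ≤ 4 * R + 4)
    rw [le_div_iff₀ (by positivity)] at b2
    push_cast at b2
    have c3 : 0 ≤ C3 * C2 * δ := by positivity
    have c4 : 0 ≤ C1 * δ := by positivity
    have c5 : s (x, α) ^ 2 * R ≤ 2 * (C3 * C2 * δ) := by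
      refine le_of_mul_le_mul_right ?_ (by positivity : (0 : ℝ) < R)
      nlinarith [mul_le_mul_of_nonneg_left c1 c3]
    nlinarith [mul_le_mul_of_nonneg_left (show (D : ℝ) + 1 ≤ 8 * R by linarith) (sq_nonneg (s (x, α)))]

end Crest.Agent.R165.B3
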