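import Crest.Agent.R165.B3.BarH
import Crest.Agent.R165.B3.Osc

/-! # R165/B3: the barrier theorem -/

set_option autoImplicit false
noncomputable section
open Classical

namespace Crest.Agent.R165.B3

/-- first part: `exists_frozen_dist E x (r / 2)`; on `box x (D + 1)` one has `|Hw| ≤ C δ (D + 1) / r` (`bar_H`, or `D = r / 2`);
`sq_of_osc`. Second part: `bar_H`. -/
theorem barrier' : ∃ (C : ℝ) (K : ℕ), 0 ≤ C ∧ 1 ≤ K ∧ ∀ (E : Set Edge) (ρ : ℝ) (S : Finset Site) (b : Site) (r : ℕ) (s : Fn)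
    (Hw Hb : Site → ℝ) (δ : ℝ), Reg E ρ → K ≤ r → (r : ℝ) ≤ ρ → (∀ v ∈ S, v ∉ box b (4 * r)) →
    SolOn (wOf E S) (box b (4 * r)) s → IsH (wOf E S) s (box b (4 * r)) Hw Hb →
    (∀ b' ∈ box b (3 * r), FrozenB E b' → Hb b' = 0) → (∀ x ∈ box b (3 * r), |Hw x| ≤ δ) →
    (∀ x ∈ box b r, ∀ α, s (x, α) ^ 2 ≤ C * δ / r) ∧
    ∀ x ∈ box b r, ∀ b' ∈ box b r, FrozenB E b' → |Hw x| ≤ C * δ * (supd x b' + 1) / r := by
  obtain ⟨C₁, K, hC₁, H⟩ := bar_H
  obtain ⟨C₂, hC₂, O⟩ := sq_of_osc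
  refine ⟨C₁ + C₂ * (2 + 2 * C₁), K + 1, by positivity, by omega, fun E ρ S b r s Hw Hb δ hE hK hρ hS hs hH h0 hδ => ?_⟩
  have hδ0 : 0 ≤ δ := (abs_nonneg _).trans (hδ b (self_mem_box _ _))
  have hr0 : (0 : ℝ) < r := by exact_mod_cast (by omega : 0 < r)
  have H' := H E ρ S b r s Hw Hb δ hE (by omega) hρ hS hs hH h0 hδ
  refine ⟨fun x hx α => ?_, fun x hx b' _ hb' => ?_⟩
  · rw [mem_box] at hx
    obtain ⟨D, hD, hfar, hcase⟩ := exists_frozen_dist E x (r / 2)
    have t0 : 0 ≤ δ * ((D : ℝ) + 1) / r := by positivity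
    have key := O E S s Hw Hb x D ((2 + 2 * C₁) * (δ * ((D : ℝ) + 1) / r)) hfar
      (fun v hv h => hS v hv (box_mono (by omega) h)) (SolOn.mono hs (box_mono' (by omega)))
      (IsH.mono hH (box_mono' (by omega))) (fun y hy => ?_) α
    · refine key.trans ?_
      have e : C₂ * ((2 + 2 * C₁) * (δ * ((D : ℝ) + 1) / r)) / (D + 1) = C₂ * (2 + 2 * C₁) * δ / r := by
        field_simp
      rw [e]
      gcongr
      linarith
    · have p := mul_nonneg hC₁ t0
      rw [mem_box] at hy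
      have tri := supd_tri y x b
      rcases hcase with h | ⟨b', hb', hd⟩
      · have h1 := hδ y (mem_box.2 (by omega))
        have h2 : δ ≤ 2 * (δ * ((D : ℝ) + 1) / r) := by
          have : (r : ℝ) ≤ 2 * (D + 1) := by exact_mod_cast (by omega : r ≤ 2 * (D + 1))
          rw [← mul_div_assoc, le_div_iff₀ hr0]
          nlinarith
        linarith
      · have h1 := H' y (mem_box.2 (by omega)) b' hb'
        have h2 : (supd b' y : ℝ) + 1 ≤ 2 * (D + 1) := by
          have := supd_tri b' x y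
          rw [supd_comm x y] at this
          exact_mod_cast (by omega : supd b' y + 1 ≤ 2 * (D + 1))
        have h3 : C₁ * δ * ((supd b' y : ℝ) + 1) / r ≤ C₁ * δ * (2 * (D + 1)) / r := by gcongr
        have e : C₁ * δ * (2 * ((D : ℝ) + 1)) / r = 2 * (C₁ * (δ * ((D : ℝ) + 1) / r)) := by ring
        linarith
  · refine (H' x (box_mono (by rw [supd_self]; omega) hx) b' hb').trans ?_
    rw [supd_comm]
    gcongr
    exact le_add_of_nonneg_right (by positivity)

end Crest.Agent.R165.B3
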