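import Crest.Agent.R165.B3.Phi

/-! # R165/B3: lower barrier -/

set_option autoImplicit false
noncomputable section
open Classical

namespace Crest.Agent.R165.B3

/-- `max_principle` for `-Hb - 4/3 δ phi c ρ₁`, `ρ₁ = a - 3`, on `W` = non-frozen sites with `dist ≤ 2a` (for such `b` the edge
`(b - (1,1), 0)` is in `E`, so `dist > a - 3/2`, and `> a - 5/2` for its neighbours) -/
theorem bar_low : ∃ C : ℝ, 0 ≤ C ∧ ∀ (E : Set Edge) (Hb : Site → ℝ) (c : ℂ) (a δ : ℝ),
    10 ≤ a → 0 ≤ δ → (∀ e : Edge, dist (toC e.1) c ≤ a → e ∉ E) →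
    (∀ b, dist (toC b) c ≤ 2 * a + 1 → (FrozenB E b → Hb b = 0) ∧ -δ ≤ Hb b ∧ (¬ FrozenB E b → lap Hb b ≤ 0)) →
    ∀ b, ¬ FrozenB E b → dist (toC b) c ≤ 2 * a → -Hb b ≤ C * δ * (dist (toC b) c - a + 4) / a := by
  refine ⟨4, by norm_num, fun E Hb c a δ ha hδ hext hin x hx hd => ?_⟩
  set ρ := a - 3 with hρ
  have hρ0 : 0 < ρ := by linarith
  have far : ∀ b, ¬ FrozenB E b → a - 3 / 2 < dist (toC b) c := fun b hb => by
    have h1 : ((b - (1, 1), 0) : Edge) ∈ E := by_contra fun h => hb ⟨_, h, Or.inr (by simp [edgeB1])⟩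
    have h2 : a < dist (toC (b - (1, 1))) c := not_le.1 fun h => hext (b - (1, 1), 0) h h1
    have h3 := dist_toC_le (b - (1, 1)) b
    have h4 : supd (b - (1, 1)) b = 1 := by simp [supd]
    rw [h4, Nat.cast_one] at h3
    linarith [dist_triangle (toC (b - (1, 1))) (toC b) c]
  set W := (finite_ball c (2 * a)).toFinset.filter fun y => ¬ FrozenB E y with hW
  have mW : ∀ y, y ∈ W ↔ dist (toC y) c ≤ 2 * a ∧ ¬ FrozenB E y := fun y => by
    simp only [hW, Finset.mem_filter, Set.Finite.mem_toFinset, Set.mem_ofPred_eq]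
  have key := max_principle W (fun z => -Hb z - 4 / 3 * δ * phi c ρ z) 0 (fun y hy => ?_) (fun y hy β hn => ?_) x
    ((mW x).2 ⟨hd, hx⟩)
  · have h2 := far x hx
    have h1 := phi_le (c := c) (y := x) hρ0 (by linarith)
    have h4 : 4 / 3 * (2 * (dist (toC x) c - ρ) / ρ) ≤ 4 * (dist (toC x) c - a + 4) / a := by
      rw [← mul_div_assoc, div_le_div_iff₀ hρ0 (by linarith)]
      nlinarith
    have h5 := mul_le_mul_of_nonneg_left h4 hδ
    have h6 := mul_le_mul_of_nonneg_left h1 hδ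
    have e : 4 * δ * (dist (toC x) c - a + 4) / a = δ * (4 * (dist (toC x) c - a + 4) / a) := by ring
    linarith
  · obtain ⟨hy1, hy2⟩ := (mW y).1 hy
    have h1 := (hin y (by linarith)).2.2 hy2
    have h3 := phi_super c ρ (y := y) (by linarith [far y hy2])
    rw [lap_sub, lap_neg, lap_const_mul]
    nlinarith
  · obtain ⟨hy1, hy2⟩ := (mW y).1 hy
    have t1 := dist_triangle (toC (y + dv β)) (toC y) c
    have t2 := dist_triangle (toC y) (toC (y + dv β)) c
    rw [dist_comm (toC y) (toC (y + dv β))] at t2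
    rw [dist_toC_dv] at t1 t2
    obtain ⟨h1, h2, -⟩ := hin (y + dv β) (by linarith)
    by_cases hf : FrozenB E (y + dv β)
    · have := phi_nonneg (c := c) (y := y + dv β) hρ0 (by linarith [far y hy2])
      rw [h1 hf]
      nlinarith
    · have h3 : 2 * a < dist (toC (y + dv β)) c := not_le.1 fun h => hn ((mW _).2 ⟨h, hf⟩)
      have h4 := phi_far (c := c) (y := y + dv β) hρ0 (by linarith)
      nlinarith

end Crest.Agent.R165.B3
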