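import Crest.Agent.R165.B3.Inc

/-! # R165/B3: lattice geometry under `Reg` -/

set_option autoImplicit false
noncomputable section
open Classical

namespace Crest.Agent.R165.B3

/-- a king move towards `x` -/
theorem geo_king (b x : Site) (h : 1 ≤ supd b x) : ∃ b₁ : Site, supd b₁ b ≤ 1 ∧ supd b₁ x < supd b x := by
  refine ⟨(b.1 + Int.sign (x.1 - b.1), b.2 + Int.sign (x.2 - b.2)), ?_, ?_⟩
  all_goals
    unfold supd at *
    rcases lt_trichotomy (x.1 - b.1) 0 with h1 | h1 | h1 <;> rcases lt_trichotomy (x.2 - b.2) 0 with h2 | h2 | h2 <;>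
      simp only [Int.sign_eq_neg_one_of_neg, Int.sign_eq_one_of_pos, Int.sign_zero, h1, h2] <;> omega

/-- take a frozen `b` minimising `supd · x`. If `supd b x ≤ 1` use the edge `edgeOf x α` (`supd_edgeOf`); otherwise a king
move gives `b₁` closer to `x`, not frozen, so the edge `(b₁ - (1,1), 0)` (its `edgeB1` is `b₁`) is in `E` -/
theorem bdry_near {E : Set Edge} {x b' : Site} {α : Fin 4} (hx : edgeOf x α ∈ E) (hb : FrozenB E b') :
    ∃ b, BdryB E b ∧ supd b x ≤ supd b' x := by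
  have hex : ∃ n, ∃ b, FrozenB E b ∧ supd b x = n := ⟨_, b', hb, rfl⟩
  obtain ⟨b, hbF, hbn⟩ := Nat.find_spec hex
  have hmin : ∀ b₁, FrozenB E b₁ → supd b x ≤ supd b₁ x := fun b₁ h₁ => by
    rw [hbn]; exact Nat.find_min' hex ⟨b₁, h₁, rfl⟩
  refine ⟨b, ⟨hbF, ?_⟩, hmin b' hb⟩
  by_cases h1 : supd b x ≤ 1
  · refine ⟨edgeOf x α, hx, ?_⟩
    have h2 := supd_tri (edgeOf x α).1 x b
    have h3 := (supd_edgeOf x α).1
    rw [supd_comm x b] at h2
    omega
  · obtain ⟨b₁, h₁, h₂⟩ := geo_king b x (by omega)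
    have hnf : ¬ FrozenB E b₁ := fun h => by
      have := hmin b₁ h
      omega
    refine ⟨(b₁ - (1, 1), 0), ?_, ?_⟩
    · by_contra hne
      exact hnf ⟨(b₁ - (1, 1), 0), hne, Or.inr (by simp [edgeB1])⟩
    · have h3 : supd (b₁ - (1, 1)) b₁ ≤ 1 := by
        unfold supd
        simp
      have h4 := supd_tri (b₁ - (1, 1)) b₁ b
      show supd (b₁ - (1, 1)) b ≤ 2
      omega

/-- distance to the frozen black sites, capped at `R` -/
theorem exists_frozen_dist (E : Set Edge) (x : Site) (R : ℕ) : ∃ D : ℕ, D ≤ R ∧ (∀ b, FrozenB E b → D ≤ supd b x) ∧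
    (D = R ∨ ∃ b, FrozenB E b ∧ supd b x = D) := by
  have hex : ∃ n, n = R ∨ ∃ b, FrozenB E b ∧ supd b x = n := ⟨R, Or.inl rfl⟩
  exact ⟨Nat.find hex, Nat.find_min' hex (Or.inl rfl),
    fun b hb => Nat.find_min' hex (Or.inr ⟨b, hb, rfl⟩), Nat.find_spec hex⟩

/-- shrink the exterior ball: `c₀ = b` if `dist b c ≤ ρ - a`, else the point of the segment `[c, b]` at distance `ρ - a` from `c` -/
theorem small_ball {E : Set Edge} {ρ a : ℝ} (hE : Reg E ρ) {b : Site} (hb : BdryB E b) (ha : 0 ≤ a) (haρ : a ≤ ρ) :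
    ∃ c : ℂ, dist (toC b) c ≤ a + 5 ∧ ∀ e : Edge, dist (toC e.1) c ≤ a → e ∉ E := by
  obtain ⟨c, hc, hc'⟩ := hE.ext b hb
  obtain ⟨y, hy, hy'⟩ := exists_dist_le_le (x := toC b) (z := c) (δ := a + 5) (ε := ρ - a) (by linarith) (by linarith)
    (by linarith)
  refine ⟨y, hy, fun e he => hc' e ?_⟩
  have := dist_triangle (toC e.1) y c
  linarith

/-- `small_ball` with `a = 2k + 3`, `exists_round` -/
theorem ext_box {E : Set Edge} {ρ : ℝ} (hE : Reg E ρ) {b : Site} (hb : BdryB E b) {k : ℕ} (hk : 2 * (k : ℝ) + 3 ≤ ρ) :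
    ∃ q : Site, supd q b ≤ 2 * k + 9 ∧ ∀ y ∈ box q k, ∀ α, edgeOf y α ∉ E := by
  have hk0 : (0 : ℝ) ≤ k := Nat.cast_nonneg k
  obtain ⟨c, hc, hc'⟩ := small_ball hE hb (a := 2 * (k : ℝ) + 3) (by linarith) hk
  obtain ⟨q, hq⟩ := exists_round c
  refine ⟨q, ?_, fun y hy α => hc' _ ?_⟩
  · have h1 := supd_le_dist q b
    have h2 := dist_triangle_right (toC q) (toC b) c
    have h3 : (supd q b : ℝ) ≤ ((2 * k + 9 : ℕ) : ℝ) := by
      push_cast
      linarith
    exact_mod_cast h3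
  · have h1 := mem_box.1 hy
    have h2 := (supd_edgeOf y α).1
    have h3 := supd_tri (edgeOf y α).1 y q
    have h4 : (supd (edgeOf y α).1 q : ℝ) ≤ (k : ℝ) + 1 := by
      have : supd (edgeOf y α).1 q ≤ k + 1 := by omega
      exact_mod_cast this
    have h5 := dist_toC_le (edgeOf y α).1 q
    have h6 := dist_triangle (toC (edgeOf y α).1) (toC q) c
    linarith

/-- the two centres are far apart: otherwise a lattice point near the midpoint lies in both balls (`exists_round`) -/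
theorem centres_far {E : Set Edge} {ρ : ℝ} {c c' : ℂ} (h : ∀ e : Edge, dist (toC e.1) c ≤ ρ → e ∉ E)
    (h' : ∀ e : Edge, dist (toC e.1) c' ≤ ρ → e ∈ E) : 2 * ρ - 2 ≤ dist c c' := by
  by_contra hlt
  push Not at hlt
  have h0 := dist_nonneg (x := c) (y := c')
  obtain ⟨y, hy, hy'⟩ := exists_dist_le_le (x := c) (z := c') (δ := ρ - 1) (ε := ρ - 1) (by linarith) (by linarith)
    (by linarith)
  obtain ⟨q, hq⟩ := exists_round y
  have h1 := dist_triangle (toC q) y c
  have h2 := dist_triangle (toC q) y c'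
  rw [dist_comm c y] at hy
  exact h (q, 0) (by show dist (toC q) c ≤ ρ; linarith) (h' (q, 0) (by show dist (toC q) c' ≤ ρ; linarith))

end Crest.Agent.R165.B3
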