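import Crest.Agent.R165.B3.Site

/-! # R165/B3: `Hw` at frozen sites, `Hb` versus `Hw`, anchored Poincaré, sub-mean value for positive parts, normalisation -/

set_option autoImplicit false
noncomputable section
open Classical

namespace Crest.Agent.R165.B3

/-- all-frozen site: `frozen_zero`, `cP_frozen`, `frozen_cB` -/
theorem Hw_frozen {E : Set Edge} {S : Finset Site} {s : Fn} {W : Set Site} {Hw Hb : Site → ℝ} {x : Site}
    (hH : IsH (wOf E S) s W Hw Hb) (hx : x ∈ W) (hs : SolOn (wOf E S) {x} s) (h : ∀ α, edgeOf x α ∉ E)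
    (h0 : Hb x = 0) : Hw x = 0 := by
  have h1 := hH x hx 2
  rw [cB_two, cP_frozen S s (h 2), frozen_zero hs h 2, h0] at h1
  simpa using h1

/-- `Hb y = Hw y - cP y 2 ^ 2` (`cB_two`), `cP_sq_le`, `pt_bound` at `y` and at `y + dv 2` -/
theorem Hb_ge : ∃ C : ℝ, 0 ≤ C ∧ ∀ (E : Set Edge) (S : Finset Site) (s : Fn) (Hw Hb : Site → ℝ) (y : Site) (m : ℝ),
    SolOn (wOf E S) (box y 2) s → IsH (wOf E S) s (box y 2) Hw Hb → (∀ y' ∈ box y 1, grd Hw y' ≤ m) →
    Hb y ≤ Hw y ∧ Hw y - C * m ≤ Hb y := by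
  obtain ⟨C, hC0, hC⟩ := pt_bound
  refine ⟨4 * C, by positivity, fun E S s Hw Hb y m hs hH hm => ?_⟩
  have hy : y ∈ (↑(box y 2) : Set Site) := mem_box'.2 (by rw [supd_self]; omega)
  have hy2 : y + dv 2 ∈ (↑(box y 2) : Set Site) := mem_box'.2 (by rw [supd_dv]; omega)
  have h1 := hH y hy 2
  rw [cB_two] at h1
  have h2 := cP_sq_le E S s y 2
  have h3 := hC E S s Hw y (SolOn.pt hs hy) (winc_of_sol hH hs (box_mono' (by rw [supd_self]; omega))) 2
  have h4 := hC E S s Hw (y + dv 2) (SolOn.pt hs hy2)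
    (winc_of_sol hH hs (box_mono' (by rw [supd_dv]))) (2 + 2)
  have h5 := hm y (mem_box.2 (by rw [supd_self]; omega))
  have h6 := hm (y + dv 2) (mem_box.2 (by rw [supd_dv]))
  have h7 := mul_le_mul_of_nonneg_left h5 hC0
  have h8 := mul_le_mul_of_nonneg_left h6 hC0
  constructor
  · nlinarith [sq_nonneg (cP (wOf E S) s y 2)]
  · nlinarith

/-- `poincare_box` + a sub-box where `u = 0`: `|c| (2r+1)² ≤ Σ |u - c|` -/
theorem poin_anchor : ∃ C : ℝ, 0 ≤ C ∧ ∀ (u : Site → ℝ) (b q : Site) (r : ℕ), 1 ≤ r → box q r ⊆ box b (6 * r) →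
    (∀ y ∈ box q r, u y = 0) → ∑ y ∈ box b (6 * r), |u y| ≤ C * r * ∑ y ∈ box b (6 * r), grd u y := by
  obtain ⟨C, hC⟩ := poincare_box
  refine ⟨37 * 7 * |C|, by positivity, fun u b q r hr hq h0 => ?_⟩
  obtain ⟨c, hc⟩ := hC u b (6 * r)
  set G : ℝ := ∑ y ∈ box b (6 * r), grd u y with hG
  set P : ℝ := ∑ y ∈ box b (6 * r), |u y - c| with hP
  have hG' : (∑ y ∈ box b (6 * r), ∑ α : Fin 4,
      if y + dv α ∈ box b (6 * r) then |u (y + dv α) - u y| else 0) ≤ G := by
    refine Finset.sum_le_sum fun y _ => Finset.sum_le_sum fun α _ => ?_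
    split_ifs
    · exact le_rfl
    · exact abs_nonneg _
  have hG0' : 0 ≤ (∑ y ∈ box b (6 * r), ∑ α : Fin 4,
      if y + dv α ∈ box b (6 * r) then |u (y + dv α) - u y| else 0) :=
    Finset.sum_nonneg fun _ _ => Finset.sum_nonneg fun _ _ => by split_ifs <;> positivity
  have hr' : (1 : ℝ) ≤ r := by exact_mod_cast hr
  have hP1 : P ≤ |C| * (7 * r) * G := by
    refine hc.trans ?_
    calc C * (((6 * r : ℕ) : ℝ) + 1) * _ ≤ |C| * (7 * r) * _ := by
          refine mul_le_mul_of_nonneg_right ?_ hG0'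
          push_cast
          calc C * (6 * (r : ℝ) + 1) ≤ |C| * (6 * (r : ℝ) + 1) :=
                mul_le_mul_of_nonneg_right (le_abs_self C) (by positivity)
            _ ≤ |C| * (7 * r) := mul_le_mul_of_nonneg_left (by linarith) (abs_nonneg C)
      _ ≤ |C| * (7 * r) * G := mul_le_mul_of_nonneg_left hG' (by positivity)
  have hc1 : (2 * (r : ℝ) + 1) ^ 2 * |c| ≤ P := by
    have e : ∑ y ∈ box q r, |u y - c| = (2 * (r : ℝ) + 1) ^ 2 * |c| := by
      rw [Finset.sum_congr rfl (fun y hy => by rw [h0 y hy, zero_sub, abs_neg] : ∀ y ∈ box q r, |u y - c| = |c|),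
        Finset.sum_const, card_box, nsmul_eq_mul]
      push_cast
      ring
    rw [← e]
    exact Finset.sum_le_sum_of_subset_of_nonneg hq fun _ _ _ => abs_nonneg _
  have h2 : ∑ y ∈ box b (6 * r), |u y| ≤ P + (2 * (6 * (r : ℝ)) + 1) ^ 2 * |c| := by
    have e : ∑ y ∈ box b (6 * r), |c| = (2 * (6 * (r : ℝ)) + 1) ^ 2 * |c| := by
      rw [Finset.sum_const, card_box, nsmul_eq_mul]
      push_cast
      ring
    rw [← e, hP, ← Finset.sum_add_distrib]
    refine Finset.sum_le_sum fun y _ => ?_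
    have := abs_add_le (u y - c) c
    rwa [sub_add_cancel] at this
  have h3 : (2 * (6 * (r : ℝ)) + 1) ^ 2 * |c| ≤ 36 * ((2 * (r : ℝ) + 1) ^ 2 * |c|) := by
    rw [← mul_assoc 36]
    refine mul_le_mul_of_nonneg_right ?_ (abs_nonneg c)
    nlinarith
  calc ∑ y ∈ box b (6 * r), |u y| ≤ 37 * P := by linarith
    _ ≤ 37 * (|C| * (7 * r) * G) := by linarith
    _ = 37 * 7 * |C| * r * G := by ring

/-- `submean` for the positive part `max (u - c) 0` -/
theorem submean_pos : ∃ C : ℝ, 0 ≤ C ∧ ∀ (u : Site → ℝ) (x : Site) (R : ℕ) (c : ℝ), 1 ≤ R → 0 ≤ c →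
    (∀ y ∈ box x R, c < u y → 0 ≤ lap u y) → u x ≤ c + C / (R : ℝ) ^ 2 * ∑ y ∈ box x (R + 1), |u y| := by
  obtain ⟨C, hC⟩ := submean
  refine ⟨|C|, abs_nonneg C, fun u x R c hR hc h => ?_⟩
  have h1 := hC (fun y => max (u y - c) 0) x R hR (fun y hy => ?_) (fun y => le_max_right _ _)
  · have h2 : u x - c ≤ max (u x - c) 0 := le_max_left _ _
    have h3 : ∑ y ∈ box x (R + 1), max (u y - c) 0 ≤ ∑ y ∈ box x (R + 1), |u y| :=
      Finset.sum_le_sum fun y _ => max_le (by linarith [le_abs_self (u y)]) (abs_nonneg _)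
    have h4 : 0 ≤ ∑ y ∈ box x (R + 1), max (u y - c) 0 := Finset.sum_nonneg fun y _ => le_max_right _ _
    have h5 : C / (R : ℝ) ^ 2 * ∑ y ∈ box x (R + 1), max (u y - c) 0 ≤
        |C| / (R : ℝ) ^ 2 * ∑ y ∈ box x (R + 1), |u y| :=
      mul_le_mul (div_le_div_of_nonneg_right (le_abs_self C) (by positivity)) h3 h4 (by positivity)
    linarith
  · by_cases hy' : c < u y
    · refine (h y hy hy').trans ?_
      unfold lap
      refine Finset.sum_le_sum fun α _ => ?_
      have h6 : max (u y - c) 0 = u y - c := max_eq_left (by linarith)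
      have h7 : u (y + dv α) - c ≤ max (u (y + dv α) - c) 0 := le_max_left _ _
      simp only [h6]
      linarith
    · unfold lap
      refine Finset.sum_nonneg fun α _ => ?_
      have h6 : max (u y - c) 0 = 0 := max_eq_right (by linarith)
      simp only [h6, sub_zero]
      exact le_max_right _ _

/-- `Reg.loc`, `hb_chain`, `cc_of_sol` -/
theorem hb_const {E : Set Edge} {ρ : ℝ} {S : Finset Site} {s : Fn} {Hw Hb : Site → ℝ} (hE : Reg E ρ) {b : Site}
    (hb : FrozenB E b) {r : ℕ} (hr : (r : ℝ) ≤ ρ / 100) (hs : SolOn (wOf E S) (box b (10 * r + 11)) s)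
    (hH : IsH (wOf E S) s (box b (10 * r + 11)) Hw Hb) : ∀ b' ∈ box b r, FrozenB E b' → Hb b' = Hb b := by
  intro b' hb' hf
  have h1 : supd b b' ≤ r := by rw [supd_comm]; exact mem_box.1 hb'
  have hch := hE.loc b b' r hb hf h1 hr
  refine (hb_chain hH (fun z hz => ?_) hch).symm
  have hz' : z - (1, 1) ∈ (↑(box b (10 * r + 11)) : Set Site) := by
    rw [mem_box'] at hz ⊢
    unfold supd at hz ⊢
    simp only [Prod.fst_sub, Prod.snd_sub]
    omega
  exact ⟨hz', cc_of_sol (SolOn.pt hs hz')⟩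

end Crest.Agent.R165.B3
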