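import Crest.Agent.R165.B3.BarUp
import Crest.Agent.R165.B3.BarLow
import Crest.Agent.R165.B3.Geo
import Crest.Agent.R165.B3.HbGe

/-! # R165/B3: `H` is of the order of the distance to the boundary -/

set_option autoImplicit false
noncomputable section
open Classical

namespace Crest.Agent.R165.B3

/-- If `50 * supd b' x > r` use `|Hw| ≤ δ`. All-frozen `x`: `Hw_frozen`. Otherwise `bdry_near`, `small_ball` with `a = r / 20`
(real), `dist x c ≤ 3/2 supd + a + 5 ≤ 2a`; the ball of radius `2a + 1` lies in `box b (3r - 3)`. Upper bound `bar_up`; lower bound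
`Hw x ≥ Hb x` (`Hb_ge`), `Hb x = 0` or `bar_low` (`lapB_le`, `Hb_ge` + `grd_le_of_abs` for `-Cδ ≤ Hb`). `K = 1000`. -/
theorem bar_H : ∃ (C : ℝ) (K : ℕ), 0 ≤ C ∧ ∀ (E : Set Edge) (ρ : ℝ) (S : Finset Site) (b : Site) (r : ℕ) (s : Fn)
    (Hw Hb : Site → ℝ) (δ : ℝ), Reg E ρ → K ≤ r → (r : ℝ) ≤ ρ → (∀ v ∈ S, v ∉ box b (4 * r)) →
    SolOn (wOf E S) (box b (4 * r)) s → IsH (wOf E S) s (box b (4 * r)) Hw Hb →
    (∀ b' ∈ box b (3 * r), FrozenB E b' → Hb b' = 0) → (∀ x ∈ box b (3 * r), |Hw x| ≤ δ) →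
    ∀ x ∈ box b (2 * r), ∀ b', FrozenB E b' → |Hw x| ≤ C * δ * (supd b' x + 1) / r := by
  obtain ⟨C₁, hC₁, up⟩ := bar_up
  obtain ⟨C₃, hC₃, low⟩ := bar_low
  obtain ⟨C₂, hC₂, ge⟩ := Hb_ge
  refine ⟨50 + 180 * C₁ + 180 * (C₃ * (1 + 8 * C₂)), 1000, by positivity,
    fun E ρ S b r s Hw Hb δ hE hK hρ hS hs hH h0 hδ x hx b' hb' => ?_⟩
  have hδ0 : 0 ≤ δ := (abs_nonneg _).trans (hδ b (self_mem_box _ _))
  have hr : (1000 : ℝ) ≤ r := by exact_mod_cast hK
  have hr0 : (0 : ℝ) < r := by linarith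
  set d := supd b' x with hd
  set t : ℝ := δ * ((d : ℝ) + 1) / r with ht
  have t0 : 0 ≤ t := by positivity
  have goal : (50 + 180 * C₁ + 180 * (C₃ * (1 + 8 * C₂))) * δ * ((d : ℝ) + 1) / r =
      50 * t + 180 * (C₁ * t) + 180 * (C₃ * (1 + 8 * C₂) * t) := by rw [ht]; ring
  have p1 : 0 ≤ C₁ * t := by positivity
  have p2 : 0 ≤ C₃ * (1 + 8 * C₂) * t := by positivity
  rw [goal]
  rw [mem_box] at hx
  by_cases hd1 : r < 50 * d
  · have h1 := hδ x (mem_box.2 (by omega))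
    have h2 : δ ≤ 50 * t := by
      have : (r : ℝ) ≤ 50 * d := by exact_mod_cast hd1.le
      rw [ht, ← mul_div_assoc, le_div_iff₀ hr0]
      nlinarith
    linarith
  have hx4 : x ∈ (↑(box b (4 * r)) : Set Site) := mem_box'.2 (by omega)
  by_cases hall : ∀ α, edgeOf x α ∉ E
  · have h1 : Hb x = 0 := h0 x (mem_box.2 (by omega)) (by simpa only [cB_two] using frozen_cB (hall 2))
    rw [Hw_frozen hH hx4 (SolOn.pt hs hx4) hall h1, abs_zero]
    positivity
  obtain ⟨α, hα⟩ : ∃ α, edgeOf x α ∈ E := by simpa using hall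
  obtain ⟨b₀, hb₀, hb₀d⟩ := bdry_near hα hb'
  obtain ⟨c, hc, hext⟩ := small_ball (a := r / 20) hE hb₀ (by positivity) (by linarith)
  have hdr : (50 : ℝ) * d ≤ r := by exact_mod_cast not_lt.1 hd1
  have hxc : dist (toC x) c ≤ 3 / 2 * d + r / 20 + 5 := by
    have h1 := dist_toC_le b₀ x
    have h2 : (supd b₀ x : ℝ) ≤ d := by exact_mod_cast hb₀d
    have h3 := dist_triangle (toC x) (toC b₀) c
    rw [dist_comm (toC x) (toC b₀)] at h3
    linarith
  have hx2 : dist (toC x) c ≤ 2 * (r / 20) := by linarith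
  have ball : ∀ y, dist (toC y) c ≤ 2 * (r / 20) + 1 → supd y b + 3 ≤ 3 * r := fun y hy => by
    have h1 := supd_le_dist y x
    have h2 := dist_triangle (toC y) c (toC x)
    rw [dist_comm c] at h2
    have h3 : (5 : ℝ) * supd y x ≤ r + 5 := by linarith
    have h4 : 5 * supd y x ≤ r + 5 := by exact_mod_cast h3
    have := supd_tri y x b
    omega
  have fin : ∀ A : ℝ, 0 ≤ A → A * δ * (dist (toC x) c - r / 20 + 4) / (r / 20) ≤ 180 * (A * t) := fun A hA => by
    have h1 : dist (toC x) c - r / 20 + 4 ≤ 9 * ((d : ℝ) + 1) := by linarith [Nat.cast_nonneg (α := ℝ) d]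
    calc _ ≤ A * δ * (9 * ((d : ℝ) + 1)) / (r / 20) := by gcongr
      _ = _ := by rw [ht]; field_simp; ring
  have geb : ∀ y, supd y b + 3 ≤ 3 * r → Hb y ≤ Hw y ∧ Hw y - C₂ * (8 * δ) ≤ Hb y := fun y hy =>
    ge E S s Hw Hb y _ (SolOn.mono hs (box_mono' (by omega))) (IsH.mono hH (box_mono' (by omega))) fun y' hy' =>
      grd_le_of_abs fun z hz => hδ z (by
        rw [mem_box] at *
        have := supd_tri z y' y
        have := supd_tri z y b
        omega)
  have U := (up E S s Hw c (r / 20) δ (by linarith) hδ0 hext (fun y hy => ?_) x α hα hx2).trans (fin _ hC₁)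
  · rw [abs_le]
    refine ⟨?_, by linarith⟩
    have h1 := (geb x (by omega)).1
    by_cases hf : FrozenB E x
    · rw [h0 x (mem_box.2 (by omega)) hf] at h1
      linarith
    · have L := low E Hb c (r / 20) ((1 + 8 * C₂) * δ) (by linarith) (by positivity) hext (fun y hy => ?_) x hf hx2
      · rw [← mul_assoc] at L
        linarith [fin (C₃ * (1 + 8 * C₂)) (by positivity)]
      · have hy' := ball y hy
        refine ⟨h0 y (mem_box.2 (by omega)), ?_, fun hn => lapB_le (IsH.mono hH (box_mono' (by omega)))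
          (SolOn.mono hs (box_mono' (by omega))) hn fun h => hS y h (mem_box.2 (by omega))⟩
        linarith [(geb y hy').2, (abs_le.1 (hδ y (mem_box.2 (by omega)))).1]
  · have hy' := ball y hy
    have hy4 : y ∈ (↑(box b (4 * r)) : Set Site) := mem_box'.2 (by omega)
    refine ⟨SolOn.pt hs hy4, winc_of_sol hH hs (box_mono' (by omega)), (abs_le.1 (hδ y (mem_box.2 (by omega)))).2,
      fun β hβ => ?_⟩
    have h1 := hH y hy4 β
    rw [cP_frozen S s hβ, h0 (cB y β) (mem_box.2 ?_) (frozen_cB hβ), sub_zero] at h1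
    · exact h1
    · have := supd_cB y β
      have := supd_tri (cB y β) y b
      omega

end Crest.Agent.R165.B3
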