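import Crest.Agent.R165.B3.Phi

/-! # R165/B3: upper barrier -/

set_option autoImplicit false
noncomputable section
open Classical

namespace Crest.Agent.R165.B3

theorem barUp_dist {E : Set Edge} {c : ℂ} {a : ℝ} (h : ∀ e : Edge, dist (toC e.1) c ≤ a → e ∉ E) {y : Site} {α : Fin 4}
    (hy : edgeOf y α ∈ E) : a - 1 < dist (toC y) c := by
  have h1 : a < dist (toC (edgeOf y α).1) c := not_le.1 fun hh => h _ hh hy
  have h2 : (edgeOf y α).1 = y ∨ (edgeOf y α).1 = y + dv α := by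
    fin_cases α <;> simp [edgeOf, dv, sub_eq_add_neg]
  rcases h2 with h2 | h2 <;> rw [h2] at h1
  · linarith
  · linarith [dist_triangle (toC (y + dv α)) (toC y) c, dist_toC_dv y α]

/-- `maxN` for `Hw - U`, `U = δ (22 / ρ₁ + 4/3 * phi c ρ₁)`, `ρ₁ = a - 2`, on `W` = sites with a critical edge and
`dist ≤ 2a` (such sites have `dist > a - 1`). At a site with a frozen edge: `lapN Hw ≥ (1 - tc²) frz ≥ (1 - tc²) Hw`
(`lapN_ge'`), `lapN U ≤ 32 δ / (3 ρ₁) ≤ (1 - tc²) U` (`phi_grad`, `tc_sq_le`). Exits have `dist ∈ (2a, 2a+1]`, `U ≥ δ`. -/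
theorem bar_up : ∃ C : ℝ, 0 ≤ C ∧ ∀ (E : Set Edge) (S : Finset Site) (s : Fn) (Hw : Site → ℝ) (c : ℂ) (a δ : ℝ),
    10 ≤ a → 0 ≤ δ → (∀ e : Edge, dist (toC e.1) c ≤ a → e ∉ E) →
    (∀ y, dist (toC y) c ≤ 2 * a + 1 → SolOn (wOf E S) {y} s ∧ WInc (wOf E S) s Hw y ∧ Hw y ≤ δ ∧
      ∀ α, edgeOf y α ∉ E → Hw y = s (y, α) ^ 2) →
    ∀ x α, edgeOf x α ∈ E → dist (toC x) c ≤ 2 * a → Hw x ≤ C * δ * (dist (toC x) c - a + 4) / a := by
  refine ⟨20, by norm_num, fun E S s Hw c a δ ha hδ hext hin x α hx hd => ?_⟩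
  set ρ := a - 2 with hρ
  have hρ0 : 0 < ρ := by linarith
  set U : Site → ℝ := fun y => δ * (22 / ρ + 4 / 3 * phi c ρ y) with hU
  have far : ∀ y β, edgeOf y β ∈ E → ρ ≤ dist (toC y) c := fun y β h => by linarith [barUp_dist hext h]
  set W := (finite_ball c (2 * a)).toFinset.filter fun y => ∃ β, edgeOf y β ∈ E with hW
  have mW : ∀ y, y ∈ W ↔ dist (toC y) c ≤ 2 * a ∧ ∃ β, edgeOf y β ∈ E := fun y => by
    simp only [hW, Finset.mem_filter, Set.Finite.mem_toFinset, Set.mem_ofPred_eq]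
  have lsub : ∀ y, lapN E (fun z => Hw z - U z) y = lapN E Hw y - lapN E U y := fun y => by
    simp only [lapN, ← Finset.sum_sub_distrib]
    refine Finset.sum_congr rfl fun β _ => ?_
    split_ifs <;> ring
  have key := maxN E W (fun z => Hw z - U z) (fun y hy hpos => ?_) (fun y hy β hβ hn => ?_) x ((mW x).2 ⟨hd, α, hx⟩)
  · have h1 := phi_le hρ0 (far x α hx)
    have h2 := barUp_dist hext hx
    have h3 : U x ≤ δ * (11 * (dist (toC x) c - a + 4) / ρ) := by
      refine mul_le_mul_of_nonneg_left ?_ hδ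
      have : 22 / ρ + 4 / 3 * (2 * (dist (toC x) c - ρ) / ρ) ≤ 11 * (dist (toC x) c - a + 4) / ρ := by
        rw [← mul_div_assoc, ← add_div]
        gcongr
        linarith
      linarith
    have h4 : 11 * (dist (toC x) c - a + 4) / ρ ≤ 20 * (dist (toC x) c - a + 4) / a := by
      rw [div_le_div_iff₀ hρ0 (by linarith)]
      nlinarith
    have h5 := mul_le_mul_of_nonneg_left h4 hδ
    have e : 20 * δ * (dist (toC x) c - a + 4) / a = δ * (20 * (dist (toC x) c - a + 4) / a) := by ring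
    linarith
  · obtain ⟨hy1, β₀, hβ₀⟩ := (mW y).1 hy
    obtain ⟨hs, hw, -, hfr⟩ := hin y (by linarith)
    rw [lsub]
    by_cases hall : ∀ β, edgeOf y β ∈ E
    · refine Or.inl ⟨hall, ?_⟩
      have h1 := lapN_nonneg hs hw
      have h2 : lapN E U y = δ * (4 / 3 * lap (phi c ρ) y) := by
        rw [lapN_crit hall]
        simp only [hU, lap_eq]
        ring
      have h3 := phi_super c ρ (y := y) (by linarith [far y β₀ hβ₀])
      nlinarith
    · right
      obtain ⟨β, hβ⟩ := not_forall.1 hall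
      have h1 := lapN_ge' hs hw
      have h2 : Hw y ≤ frz E s y := by
        rw [hfr β hβ, frz]
        refine le_trans (le_of_eq (if_neg hβ).symm) (Finset.single_le_sum (f := fun γ =>
          if edgeOf y γ ∈ E then 0 else s (y, γ) ^ 2) (fun γ _ => ?_) (Finset.mem_univ β))
        split_ifs <;> positivity
      have h3 : lapN E U y ≤ 4 * (δ * (4 / 3 * (2 / ρ))) := by
        refine (Finset.sum_le_card_nsmul _ _ (δ * (4 / 3 * (2 / ρ))) fun γ _ => ?_).trans (by simp)
        split_ifs with hγ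
        · have := (abs_le.1 (phi_grad hρ0 (far y γ hγ) (far (y + dv γ) (γ + 2) (by rwa [edgeOf_add])))).2
          calc U (y + dv γ) - U y = δ * (4 / 3 * (phi c ρ (y + dv γ) - phi c ρ y)) := by simp only [hU]; ring
            _ ≤ _ := by gcongr
        · positivity
      have h4 : δ * (22 / ρ) ≤ U y := by
        have := phi_nonneg hρ0 (far y β₀ hβ₀)
        exact mul_le_mul_of_nonneg_left (by linarith) hδ
      have h5 : 0 ≤ δ * (1 / ρ) := by positivity
      have h6 := frz_nonneg E s y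
      have h7 := mul_le_mul_of_nonneg_right tc_sq_le h6
      have e1 : δ * (22 / ρ) = 22 * (δ * (1 / ρ)) := by ring
      have e2 : 4 * (δ * (4 / 3 * (2 / ρ))) = 32 / 3 * (δ * (1 / ρ)) := by ring
      linarith
  · obtain ⟨hy1, -⟩ := (mW y).1 hy
    have h1 : 2 * a < dist (toC (y + dv β)) c := not_le.1 fun h => hn ((mW _).2 ⟨h, β + 2, by rwa [edgeOf_add]⟩)
    have h2 := (hin (y + dv β) (by linarith [dist_triangle (toC (y + dv β)) (toC y) c, dist_toC_dv y β])).2.2.1
    have h3 := phi_far (c := c) (y := y + dv β) hρ0 (by linarith)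
    have h4 : δ * 1 ≤ U (y + dv β) := by
      have : 0 ≤ 22 / ρ := by positivity
      exact mul_le_mul_of_nonneg_left (by linarith) hδ
    linarith

end Crest.Agent.R165.B3
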