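import Crest.Agent.R165.B.Pot

/-! # R165/B3: boxes, `supd`, distances, half-edge involution (elementary API) -/

set_option autoImplicit false
noncomputable section
open Classical

namespace Crest.Agent.R165.B3

/-- unfold `box`, `supd`; `Finset.mem_product`, `Finset.mem_Icc`, `omega` -/
theorem mem_box {x y : Site} {R : ℕ} : y ∈ box x R ↔ supd y x ≤ R := by
  exact mem_box_supd

theorem mem_box' {x y : Site} {R : ℕ} : y ∈ (↑(box x R) : Set Site) ↔ supd y x ≤ R := by
  rw [Finset.mem_coe]; exact mem_box_supd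

theorem mem_frame {x y : Site} {r R : ℕ} : y ∈ frame x r R ↔ r < supd y x ∧ supd y x ≤ R := by
  rw [frame, Finset.mem_sdiff, mem_box, mem_box]; omega

theorem supd_comm (x y : Site) : supd x y = supd y x := by
  unfold supd; omega

theorem supd_self (x : Site) : supd x x = 0 := by
  simp [supd]

theorem supd_eq_zero {x y : Site} : supd x y = 0 ↔ x = y := by
  constructor
  · intro h
    unfold supd at h
    exact Prod.ext (by omega) (by omega)
  · rintro rfl; exact supd_self _

theorem supd_tri (x y z : Site) : supd x z ≤ supd x y + supd y z := by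
  unfold supd; omega

theorem supd_dv (x : Site) (α : Fin 4) : supd (x + dv α) x = 1 := by
  exact R165.supd_dv x α

theorem supd_uv (x : Site) (j : Fin 2) : supd (x + uv j) x = 1 := by
  obtain ⟨a, b⟩ := x
  fin_cases j <;> simp [uv, supd]

theorem supd_cB (x : Site) (α : Fin 4) : supd (cB x α) x ≤ 1 := by
  obtain ⟨a, b⟩ := x
  induction α using b1_fin4 <;> simp [cB, supd]

theorem supd_edgeOf (x : Site) (α : Fin 4) :
    supd (edgeOf x α).1 x ≤ 1 ∧ supd ((edgeOf x α).1 + uv (edgeOf x α).2) x ≤ 1 := by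
  obtain ⟨a, b⟩ := x
  induction α using b1_fin4 <;> simp [edgeOf_0, edgeOf_1, edgeOf_2, edgeOf_3, uv, supd]

theorem supd_edgeB (e : Edge) : supd (edgeB0 e) e.1 ≤ 1 ∧ supd (edgeB1 e) e.1 ≤ 1 := by
  obtain ⟨⟨a, b⟩, j⟩ := e
  fin_cases j <;> simp [edgeB0, edgeB1, supd]

theorem supd_sub (x y z : Site) : supd (x - z) (y - z) = supd x y := by
  simp [supd]

theorem cB_two (x : Site) : cB x 2 = x := by
  obtain ⟨a, b⟩ := x
  exact cB_2 a b

theorem card_box (x : Site) (R : ℕ) : (box x R).card = (2 * R + 1) ^ 2 := by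
  exact R165.card_box x R

theorem box_mono {p x : Site} {r R : ℕ} (h : supd p x + r ≤ R) : box p r ⊆ box x R := by
  intro y hy
  rw [mem_box] at *
  have := supd_tri y p x
  omega

theorem box_mono' {p x : Site} {r R : ℕ} (h : supd p x + r ≤ R) : (↑(box p r) : Set Site) ⊆ ↑(box x R) := by
  exact Finset.coe_subset.2 (box_mono h)

/-- every finite set of sites lies in a box around any centre -/
theorem exists_box (A : Set Site) (hA : A.Finite) (x : Site) : ∃ R : ℕ, ∀ y ∈ A, supd y x ≤ R := by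
  obtain ⟨R, hR⟩ := (hA.image fun y => supd y x).bddAbove
  exact ⟨R, fun y hy => hR ⟨y, hy, rfl⟩⟩

theorem dist_toC_le (x y : Site) : dist (toC x) (toC y) ≤ 3 / 2 * (supd x y : ℝ) := by
  rw [dist_eq_norm]
  have h1 : |((x.1 : ℝ) - y.1)| ≤ (supd x y : ℝ) := by
    have : |x.1 - y.1| ≤ (supd x y : ℤ) := by unfold supd; rw [abs_le]; omega
    exact_mod_cast this
  have h2 : |((x.2 : ℝ) - y.2)| ≤ (supd x y : ℝ) := by
    have : |x.2 - y.2| ≤ (supd x y : ℤ) := by unfold supd; rw [abs_le]; omega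
    exact_mod_cast this
  have h0 : (0 : ℝ) ≤ supd x y := Nat.cast_nonneg _
  refine abs_le_of_sq_le_sq' ?_ (by positivity) |>.2
  rw [Complex.sq_norm, Complex.normSq_apply]
  simp only [toC, Complex.sub_re, Complex.sub_im]
  rw [abs_le] at h1 h2
  nlinarith

theorem supd_le_dist (x y : Site) : (supd x y : ℝ) ≤ dist (toC x) (toC y) := by
  rw [dist_eq_norm]
  have h1 := Complex.abs_re_le_norm (toC x - toC y)
  have h2 := Complex.abs_im_le_norm (toC x - toC y)
  simp only [toC, Complex.sub_re, Complex.sub_im] at h1 h2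
  simp only [toC, supd, Nat.cast_max, Nat.cast_natAbs, Int.cast_abs, Int.cast_sub]
  exact max_le h1 h2

theorem dist_toC_dv (x : Site) (α : Fin 4) : dist (toC (x + dv α)) (toC x) = 1 := by
  have h1 := supd_le_dist (x + dv α) x
  rw [dist_eq_norm]
  obtain ⟨a, b⟩ := x
  induction α using b1_fin4 <;>
    simp [toC, dv, Complex.norm_def, Complex.normSq_apply]

/-- rounding both coordinates -/
theorem exists_round (c : ℂ) : ∃ q : Site, dist (toC q) c ≤ 1 := by
  refine ⟨(round c.re, round c.im), ?_⟩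
  rw [dist_eq_norm]
  refine (Complex.norm_le_abs_re_add_abs_im _).trans ?_
  simp only [toC, Complex.sub_re, Complex.sub_im]
  have h1 := abs_sub_round c.re
  have h2 := abs_sub_round c.im
  rw [abs_sub_comm] at h1 h2
  linarith

theorem dv_add_two (α : Fin 4) : dv (α + 2) = -dv α := by
  exact R165.dv_add_two α

theorem edgeOf_add (x : Site) (α : Fin 4) : edgeOf (x + dv α) (α + 2) = edgeOf x α := by
  exact edgeOf_opp x α

theorem opp_sq (s : Fn) (x : Site) (α : Fin 4) : opp s x α ^ 2 = s (x + dv α, α + 2) ^ 2 := by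
  obtain ⟨a, b⟩ := x
  induction α using b1_fin4
  · rw [opp_0, add_dv_0]; rfl
  · rw [opp_1, add_dv_1]; rfl
  · rw [opp_2, add_dv_2, neg_sq]; rfl
  · rw [opp_3, add_dv_3, neg_sq]; rfl

theorem edgeOf_he (e : Edge) : edgeOf e.1 ⟨e.2, by omega⟩ = e ∧ e.1 + dv ⟨e.2, by omega⟩ = e.1 + uv e.2 := by
  obtain ⟨⟨a, b⟩, j⟩ := e
  fin_cases j <;> exact ⟨rfl, rfl⟩

end Crest.Agent.R165.B3
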