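import Crest.Agent.R165.B3.HbGe
import Crest.Agent.R165.B3.Geo

/-! # R165/B3: sup bound for `Hw` near the boundary from a Morrey bound -/

set_option autoImplicit false
noncomputable section
open Classical

namespace Crest.Agent.R165.B3

/-- `ext_box` (`k = r`), `Hw_frozen`, `poin_anchor`: `Σ_{box b 6r} |Hw| ≤ C r² m`. Upper bound: `submean_pos` for `Hw` with
`c = C m` (at a site with a frozen edge `Hw = s² ≤ C m` by `pt_bound`, `Mor.pt`; at critical sites `lapN_crit`, `lapN_nonneg`).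
Lower bound: `submean_pos` for `-Hb` with `c = 0` (`lapB_le`), `Hb_ge`. -/
theorem osc_bound : ∃ C : ℝ, 0 ≤ C ∧ ∀ (E : Set Edge) (ρ : ℝ) (S : Finset Site) (b : Site) (r : ℕ) (s : Fn)
    (Hw Hb : Site → ℝ) (m : ℝ), Reg E ρ → BdryB E b → 10 ≤ r → 3 * (r : ℝ) ≤ ρ → (∀ v ∈ S, v ∉ box b (8 * r)) →
    SolOn (wOf E S) (box b (8 * r)) s → IsH (wOf E S) s (box b (8 * r)) Hw Hb →
    (∀ b' ∈ box b (7 * r), FrozenB E b' → Hb b' = 0) → Mor Hw (box b (8 * r)) m →
    ∀ y ∈ box b (3 * r), |Hw y| ≤ C * m := by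
  obtain ⟨C1, hC1, h1⟩ := poin_anchor
  obtain ⟨C2, hC2, h2⟩ := submean_pos
  obtain ⟨C3, hC3, h3⟩ := pt_bound
  obtain ⟨C4, hC4, h4⟩ := Hb_ge
  refine ⟨C3 + C2 * (6 * C1 + 9 * C4), by positivity, fun E ρ S b r s Hw Hb m hE hb hr hρ hS hs hH h0 hM x hx => ?_⟩
  rw [mem_box] at hx
  have hsub : ∀ (y : Site) (k : ℕ), supd y b + k ≤ 8 * r → (↑(box y k) : Set Site) ⊆ ↑(box b (8 * r)) :=
    fun y k h => box_mono' h
  have hmem : ∀ y : Site, supd y b ≤ 8 * r → y ∈ (↑(box b (8 * r)) : Set Site) := fun y h => mem_box'.2 h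
  have hg : ∀ y : Site, supd y b ≤ 7 * r → grd Hw y ≤ m := fun y h => hM.pt (hsub y 2 (by omega))
  have hm : 0 ≤ m := (grd_nonneg Hw b).trans (hg b (by rw [supd_self]; omega))
  have hr' : (10 : ℝ) ≤ r := by exact_mod_cast hr
  obtain ⟨q, hq, hq'⟩ := ext_box hE hb (k := r) (by linarith)
  have hsum : ∑ y ∈ box b (6 * r), |Hw y| ≤ 6 * C1 * r ^ 2 * m := by
    refine (h1 Hw b q r (by omega) (box_mono (by omega)) fun y hy => ?_).trans ?_
    · have a1 := supd_tri y q b
      have a2 := mem_box.1 hy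
      refine Hw_frozen hH (hmem y (by omega)) (SolOn.pt hs (hmem y (by omega))) (hq' y hy) (h0 y (mem_box.2 (by omega)) ?_)
      have := frozen_cB (hq' y hy 2)
      rwa [cB_two] at this
    · have := hM b (6 * r) (by omega) (hsub b _ (by rw [supd_self]; omega))
      calc C1 * r * ∑ y ∈ box b (6 * r), grd Hw y ≤ C1 * r * (((6 * r : ℕ) : ℝ) * m) := by gcongr
        _ = _ := by push_cast; ring
  have hsum' : ∑ y ∈ box x (r + 1), |Hw y| ≤ 6 * C1 * r ^ 2 * m :=
    (Finset.sum_le_sum_of_subset_of_nonneg (box_mono (by omega)) fun _ _ _ => abs_nonneg _).trans hsum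
  have hnear : ∀ y ∈ box x (r + 1), supd y b ≤ 5 * r := fun y hy => by
    have a1 := supd_tri y x b
    have a2 := mem_box.1 hy
    omega
  have hnear' : ∀ y ∈ box x r, supd y b ≤ 5 * r := fun y hy =>
    hnear y (box_mono (by rw [supd_self]; omega) hy)
  have hHb : ∀ y, supd y b ≤ 5 * r → Hb y ≤ Hw y ∧ Hw y - C4 * m ≤ Hb y := fun y hy =>
    h4 E S s Hw Hb y m (SolOn.mono hs (hsub y 2 (by omega))) (IsH.mono hH (hsub y 2 (by omega))) fun y' hy' => hg y' (by
      have a1 := supd_tri y' y b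
      have a2 := mem_box.1 hy'
      omega)
  have hr0 : (0 : ℝ) < (r : ℝ) ^ 2 := by positivity
  have up : Hw x ≤ C3 * m + C2 * (6 * C1) * m := by
    refine (h2 Hw x r (C3 * m) (by omega) (by positivity) fun y hy hc => ?_).trans ?_
    · have a1 := hnear' y hy
      have a2 := SolOn.pt hs (hmem y (by omega))
      have a3 := winc_of_sol hH hs (hsub y 1 (by omega))
      by_cases hy' : ∀ α, edgeOf y α ∈ E
      · rw [← lapN_crit hy']
        exact lapN_nonneg a2 a3
      · push Not at hy'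
        obtain ⟨α, hα⟩ := hy'
        have a4 := hH y (hmem y (by omega)) α
        have a5 := supd_tri (cB y α) y b
        have a6 := supd_cB y α
        rw [cP_frozen S s hα, h0 _ (mem_box.2 (by omega)) (frozen_cB hα), sub_zero] at a4
        have a7 := (h3 E S s Hw y a2 a3 α).trans (mul_le_mul_of_nonneg_left (hg y (by omega)) hC3)
        linarith
    · have : C2 / (r : ℝ) ^ 2 * ∑ y ∈ box x (r + 1), |Hw y| ≤ C2 / (r : ℝ) ^ 2 * (6 * C1 * r ^ 2 * m) := by gcongr
      refine (add_le_add le_rfl this).trans (le_of_eq ?_)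
      field_simp
  have low : -Hb x ≤ C2 * (6 * C1 + 9 * C4) * m := by
    refine (h2 (fun y => -Hb y) x r 0 (by omega) le_rfl fun y hy hc => ?_).trans ?_
    · have a1 := hnear' y hy
      have a2 := lapB_le (IsH.mono hH (hsub y 1 (by omega))) (SolOn.mono hs (hsub y 1 (by omega)))
        (fun hf => by simp [h0 y (mem_box.2 (by omega)) hf] at hc)
        (fun hv => hS y hv (mem_box.2 (by omega)))
      have a3 : lap (fun y => -Hb y) y = -∑ α : Fin 4, (Hb (y + dv α) - Hb y) := by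
        rw [lap, ← Finset.sum_neg_distrib]
        exact Finset.sum_congr rfl fun _ _ => by ring
      rw [a3]
      linarith
    · have a1 : ∑ y ∈ box x (r + 1), |-Hb y| ≤ ∑ y ∈ box x (r + 1), (|Hw y| + C4 * m) :=
        Finset.sum_le_sum fun y hy => by
          obtain ⟨b1, b2⟩ := hHb y (hnear y hy)
          have b3 := le_abs_self (Hw y)
          have b4 := neg_abs_le (Hw y)
          have b5 : 0 ≤ C4 * m := by positivity
          rw [abs_neg, abs_le]
          constructor <;> linarith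
      rw [Finset.sum_add_distrib, Finset.sum_const, card_box, nsmul_eq_mul] at a1
      have a2 : (((2 * (r + 1) + 1) ^ 2 : ℕ) : ℝ) ≤ 9 * r ^ 2 := by push_cast; nlinarith
      have a3 : (((2 * (r + 1) + 1) ^ 2 : ℕ) : ℝ) * (C4 * m) ≤ 9 * r ^ 2 * (C4 * m) := by gcongr
      have a4 : C2 / (r : ℝ) ^ 2 * ∑ y ∈ box x (r + 1), |-Hb y| ≤
          C2 / (r : ℝ) ^ 2 * (6 * C1 * r ^ 2 * m + 9 * r ^ 2 * (C4 * m)) := by gcongr; linarith
      refine (add_le_add le_rfl a4).trans (le_of_eq ?_)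
      field_simp
      ring
  have a1 := (hHb x (by omega)).1
  have a2 : 0 ≤ C3 * m := by positivity
  have a3 : 0 ≤ C2 * (9 * C4) * m := by positivity
  rw [abs_le]
  constructor <;> nlinarith

end Crest.Agent.R165.B3
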