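import Crest.Agent.R165.B3.Bar
import Crest.Agent.R165.B3.OscB

/-! # R165/B3: from a Morrey bound on `∇Hw` to the pointwise bound up to the boundary -/

set_option autoImplicit false
noncomputable section
open Classical

namespace Crest.Agent.R165.B3

/-- **core estimate**. `r = d / 100`. `r < K₀`: `pt_bound`, `Mor.pt`. All-frozen `y`: `frozen_zero`. No frozen site in `box y r`:
`crit_of_far`, `int_grad` with `R = r - 4`. Otherwise `bdry_near` gives `b`, `box b (70 r + 11) ⊆ box y (d - 2)`; subtract `Hb b`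
(`hb_const` with `7r`, `IsH.sub_const`, `Mor.congr`), `osc_bound`, `barrier'`. -/
theorem core : ∃ (C : ℝ) (K : ℕ), 0 ≤ C ∧ 1 ≤ K ∧ ∀ (E : Set Edge) (ρ : ℝ) (S : Finset Site) (y : Site) (d : ℕ) (s : Fn)
    (Hw Hb : Site → ℝ) (m : ℝ), Reg E ρ → 1 ≤ d → (K * d : ℝ) ≤ ρ → (∀ v ∈ S, d ≤ supd y v + 1) →
    SolOn (wOf E S) (box y (d + 1)) s → IsH (wOf E S) s (box y (d + 1)) Hw Hb → Mor Hw (box y (d + 1)) m →
    ∀ α, s (y, α) ^ 2 * d ≤ C * m := by
  obtain ⟨C₁, hC₁, h₁⟩ := pt_bound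
  obtain ⟨C₂, hC₂, h₂⟩ := int_grad
  obtain ⟨C₃, hC₃, h₃⟩ := osc_bound
  obtain ⟨C₄, K₄, hC₄, -, h₄⟩ := barrier'
  refine ⟨C₁ * (100 * (K₄ + 10 : ℕ) + 100) + 400 * C₂ + 200 * (C₄ * C₃), 7, by positivity, by norm_num,
    fun E ρ S y d s Hw Hb m hE hd hρ hS hs hH hM α => ?_⟩
  have hb2 : (↑(box y 2) : Set Site) ⊆ ↑(box y (d + 1)) := box_mono' (by rw [supd_self]; omega)
  have hb1 : (↑(box y 1) : Set Site) ⊆ ↑(box y (d + 1)) := box_mono' (by rw [supd_self]; omega)
  have hy : y ∈ (↑(box y (d + 1)) : Set Site) := mem_box'.2 (by rw [supd_self]; omega)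
  have hg : grd Hw y ≤ m := Mor.pt hM hb2
  have hm : 0 ≤ m := le_trans (grd_nonneg _ _) hg
  have t1 : 0 ≤ C₁ * (100 * ((K₄ + 10 : ℕ) : ℝ) + 100) * m := by positivity
  have t2 : 0 ≤ 400 * C₂ * m := by positivity
  have t3 : 0 ≤ 200 * (C₄ * C₃) * m := by positivity
  have hd0 : (0 : ℝ) ≤ d := Nat.cast_nonneg d
  obtain ⟨r, hr⟩ : ∃ r, r = d / 100 := ⟨_, rfl⟩
  by_cases hsm : r < K₄ + 10
  · have a1 := h₁ E S s Hw y (SolOn.pt hs hy) (winc_of_sol hH hs hb1) α
    have a2 : (d : ℝ) ≤ 100 * ((K₄ + 10 : ℕ) : ℝ) + 100 := by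
      have : d ≤ 100 * (K₄ + 10) + 100 := by omega
      exact_mod_cast this
    have a3 : s (y, α) ^ 2 ≤ C₁ * m := a1.trans (mul_le_mul_of_nonneg_left hg hC₁)
    have a4 := mul_le_mul a3 a2 hd0 (by positivity)
    linarith
  by_cases hall : ∀ β, edgeOf y β ∉ E
  · rw [frozen_zero (SolOn.pt hs hy) hall α]
    linarith
  push Not at hall
  obtain ⟨β, hβ⟩ := hall
  by_cases hfar : ∀ b, FrozenB E b → r + 1 ≤ supd b y
  · obtain ⟨R, hR⟩ : ∃ R, r = R + 4 := ⟨r - 4, by omega⟩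
    have hc : Crit E (box y (R + 2)) := crit_of_far fun b hb => by have := hfar b hb; omega
    have hsub : (↑(box y (R + 2)) : Set Site) ⊆ ↑(box y (d + 1)) := box_mono' (by rw [supd_self]; omega)
    have a1 := h₂ E S s Hw Hb y R (((R + 1 : ℕ) : ℝ) * m) (by omega) hc
      (fun v hv hv' => by
        have := hS v hv
        rw [mem_box, supd_comm] at hv'
        omega) (SolOn.mono hs hsub) (IsH.mono hH hsub) (hM y (R + 1) (by omega) hsub) α
    have hR6 : (6 : ℝ) ≤ R := by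
      have : 6 ≤ R := by omega
      exact_mod_cast this
    have hdR : (d : ℝ) ≤ 200 * R := by
      have : d ≤ 200 * R := by omega
      exact_mod_cast this
    have a2 : C₂ * (((R + 1 : ℕ) : ℝ) * m) / (R : ℝ) ^ 2 * (200 * R) ≤ 400 * C₂ * m := by
      rw [div_mul_eq_mul_div, div_le_iff₀ (by positivity)]
      push_cast
      have : 0 ≤ C₂ * m * R := by positivity
      nlinarith
    have a4 := mul_le_mul a1 hdR hd0 (by positivity)
    linarith
  push Not at hfar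
  obtain ⟨b', hb', hb'y⟩ := hfar
  obtain ⟨b, hb, hby⟩ := bdry_near hβ hb'
  have hbr : supd b y ≤ r := by omega
  have hrd : (100 * r : ℝ) ≤ d := by
    have : 100 * r ≤ d := by omega
    exact_mod_cast this
  have hr0 : (10 : ℝ) ≤ r := by
    have : 10 ≤ r := by omega
    exact_mod_cast this
  push_cast at hρ
  have hsub : ∀ k, k ≤ 70 * r + 11 → (↑(box b k) : Set Site) ⊆ ↑(box y (d + 1)) := fun k hk => box_mono' (by omega)
  have hSb : ∀ k, k ≤ 8 * r → ∀ v ∈ S, v ∉ box b k := fun k hk v hv hv' => by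
    have h1 := hS v hv
    have h2 := supd_tri y b v
    rw [mem_box, supd_comm] at hv'
    rw [supd_comm y b] at h2
    omega
  have hc := hb_const (S := S) (s := s) (Hw := Hw) (Hb := Hb) hE hb.1 (r := 7 * r) (by push_cast; linarith)
    (SolOn.mono hs (hsub _ (by omega))) (IsH.mono hH (hsub _ (by omega)))
  have hH' := IsH.sub_const hH (Hb b)
  have hM' : Mor (fun z => Hw z - Hb b) (box y (d + 1)) m := Mor.congr hM (Hb b) fun _ _ => rfl
  have h0 : ∀ b' ∈ box b (7 * r), FrozenB E b' → (fun z => Hb z - Hb b) b' = 0 := fun b' h1 h2 => by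
    simp only [hc b' h1 h2, sub_self]
  have a1 := h₃ E ρ S b r s _ _ m hE hb (by omega) (by linarith) (hSb _ le_rfl) (SolOn.mono hs (hsub _ (by omega)))
    (IsH.mono hH' (hsub _ (by omega))) h0 (Mor.mono hM' (hsub _ (by omega)) le_rfl)
  have a2 := (h₄ E ρ S b r s _ _ (C₃ * m) hE (by omega) (by linarith) (hSb _ (by omega))
    (SolOn.mono hs (hsub _ (by omega))) (IsH.mono hH' (hsub _ (by omega)))
    (fun b' h1 => h0 b' (box_mono (by rw [supd_self]; omega) h1)) a1).1 y (mem_box.2 (by rw [supd_comm]; exact hbr)) α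
  have hdr : (d : ℝ) ≤ 200 * r := by
    have : d ≤ 200 * r := by omega
    exact_mod_cast this
  have a3 : C₄ * (C₃ * m) / (r : ℝ) * (200 * r) = 200 * (C₄ * C₃) * m := by
    field_simp
  have a4 := mul_le_mul a2 hdr hd0 (by positivity)
  linarith

end Crest.Agent.R165.B3
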