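import Crest.Agent.R165.B3.Cut

/-! # R165/B3: global Morrey bound from the mass of the Laplacian -/

set_option autoImplicit false
noncomputable section
open Classical

namespace Crest.Agent.R165.B3

/-- global version: on a big box `B` (containing the support of `H`, the ends of the edges of `E` and `N` with a margin)
`Σ lapN = 0` (`sum_lapN_zero`), hence `Σ |lapN| ≤ 2a`, `Σ frz ≤ 2a` (`tc_sq_le`); `lap_le`, `sum_shift_le`, `grad_L1` -/
theorem mor_global : ∃ C : ℝ, 0 ≤ C ∧ ∀ (E : Finset Edge) (s : Fn) (H neg : Site → ℝ) (N : Finset Site) (a : ℝ),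
    (Function.support H).Finite → (∀ y, 0 ≤ neg y) → (∀ y, y ∉ N → neg y = 0) → ∑ y ∈ N, neg y ≤ a →
    (∀ y, (1 - tc ^ 2) * frz ↑E s y ≤ lapN ↑E H y + neg y) →
    (∀ y α, edgeOf y α ∉ E → |H (y + dv α) - H y| ≤ s (y, α) ^ 2 + s (y + dv α, α + 2) ^ 2) →
    Mor H Set.univ (C * a) := by
  obtain ⟨C, hC⟩ := grad_L1
  refine ⟨|C| * 12, by positivity, fun E s H neg N a hH h0 hN ha hl hs p R hR _ => ?_⟩
  obtain ⟨R₀, hR₀⟩ := exists_box (Function.support H ∪ Prod.fst '' (E : Set Edge))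
    (hH.union (E.finite_toSet.image _)) 0
  have key : ∀ r, R₀ + 1 ≤ r → ∑ y ∈ box 0 r, |lapN ↑E H y| ≤ 2 * a ∧ ∑ y ∈ box 0 r, frz ↑E s y ≤ 2 * a := by
    intro r hr
    have h1 := sum_lapN_zero ↑E H (box 0 r) fun x _ α hα => mem_box.2 (by
      have h1 := hR₀ _ (Or.inr ⟨_, hα, rfl⟩)
      have h2 := (supd_edgeOf (x + dv α) (α + 2)).1
      have h3 := supd_tri (x + dv α) (edgeOf x α).1 0
      rw [edgeOf_add, supd_comm] at h2
      omega)
    have h2 : ∑ y ∈ box 0 r, neg y ≤ a := by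
      rw [← Finset.sum_subset (Finset.inter_subset_left (s₂ := N)) fun y h1 h2 =>
        hN y fun h => h2 (Finset.mem_inter.2 ⟨h1, h⟩)]
      exact (Finset.sum_le_sum_of_subset_of_nonneg Finset.inter_subset_right fun y _ _ => h0 y).trans ha
    have h3 : ∀ y, frz ↑E s y ≤ 2 * (lapN ↑E H y + neg y) := fun y => by
      nlinarith [hl y, tc_sq_le, frz_nonneg ↑E s y]
    have h4 : ∀ y, |lapN ↑E H y| ≤ lapN ↑E H y + 2 * neg y := fun y =>
      abs_le.2 ⟨by linarith [h3 y, frz_nonneg ↑E s y], by linarith [h0 y]⟩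
    refine ⟨(Finset.sum_le_sum fun y _ => h4 y).trans ?_, (Finset.sum_le_sum fun y _ => h3 y).trans ?_⟩ <;>
      simp only [Finset.sum_add_distrib, ← Finset.mul_sum, h1] <;> linarith
  have h1 : ∑ᶠ y, |lap H y| ≤ 12 * a := by
    rw [finsum_eq_sum_of_support_subset (s := box 0 (R₀ + 1)) _ fun y hy => by_contra fun h => hy (by
      have h' : R₀ + 1 < supd y 0 := not_le.1 fun h' => h (mem_box'.2 h')
      have h2 : ∀ z, R₀ < supd z 0 → H z = 0 := fun z hz => by_contra fun h0 => hz.not_ge (hR₀ z (Or.inl h0))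
      refine abs_eq_zero.2 (Finset.sum_eq_zero fun α _ => ?_)
      have h3 := supd_tri y (y + dv α) 0
      rw [supd_comm y (y + dv α), supd_dv] at h3
      rw [h2 y (by omega), h2 _ (by omega), sub_self])]
    refine (Finset.sum_le_sum fun y _ => lap_le (hs y)).trans ?_
    rw [Finset.sum_add_distrib, Finset.sum_add_distrib, Finset.sum_comm]
    have h2 : ∑ α : Fin 4, ∑ y ∈ box 0 (R₀ + 1), frz ↑E s (y + dv α) ≤ ∑ α : Fin 4, 2 * a :=
      Finset.sum_le_sum fun α _ => (sum_shift_le _ (fun y _ => frz_nonneg _ _ y) _ fun y hy => mem_box.2 (by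
        have h3 := supd_tri (y + dv α) y 0
        have := mem_box.1 hy
        rw [supd_dv] at h3
        omega)).trans (key (R₀ + 2) (by omega)).2
    have h3 := key _ le_rfl
    simp only [Finset.sum_const, Finset.card_univ, Fintype.card_fin, nsmul_eq_mul, Nat.cast_ofNat] at h2
    linarith [h3.1, h3.2]
  have h2 : 0 ≤ ∑ᶠ y, |lap H y| := finsum_nonneg fun y => abs_nonneg _
  calc _ ≤ C * R * ∑ᶠ y, |lap H y| := hC H hH p R hR
    _ ≤ |C| * R * (12 * a) := by gcongr; exact le_abs_self C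
    _ = _ := by ring

end Crest.Agent.R165.B3
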