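import Crest.Agent.R165.B3.HbGe
import Crest.Agent.R165.B3.Mor

/-! # R165/B3: the function `H` of a corner source, universal `O(1)` bound -/

set_option autoImplicit false
noncomputable section
open Classical

namespace Crest.Agent.R165.B3

theorem kC_sol {w : Edge → ℝ} {g : HE → HE → ℝ} (hg : IsKer w g) (z : Site) (α : Fin 4) :
    SolOn w {y | y ≠ z} (kC g z α) := by
  intro x hx β
  rw [B3.opA_kC hg, if_neg hx]

/-- `exists_H_kC`, `cc_kC`, `hb_chain` with `Reg.glob` (subtract the common value of `Hb` on frozen sites), `winc_of_cc`;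
`Hw = 0` at all-frozen sites `≠ z` (`Hw_frozen`; `cB y 2 = y` is frozen), and only finitely many sites touch `E` -/
theorem kC_H {E : Finset Edge} {ρ : ℝ} (hE : Reg ↑E ρ) (S : Finset Site) {g : HE → HE → ℝ} (hg : IsKer (wOf ↑E S) g)
    (z : Site) (α : Fin 4) : ∃ Hw Hb, IsH (wOf ↑E S) (kC g z α) Set.univ Hw Hb ∧ (Function.support Hw).Finite ∧
      ∀ y, WInc (wOf ↑E S) (kC g z α) Hw y := by
  obtain ⟨-, Hw, Hb, hH⟩ := exists_H_kC hg z α
  obtain ⟨e₀, he₀⟩ := Infinite.exists_notMem_finset E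
  have hb₀ : FrozenB (↑E) (edgeB0 e₀) := ⟨e₀, he₀, Or.inl rfl⟩
  have hc : ∀ b, FrozenB (↑E) b → Hb b = Hb (edgeB0 e₀) := fun b hb =>
    hb_chain hH (W' := Set.univ) (fun b _ => ⟨trivial, cc_kC hg z α _⟩) (hE.glob _ _ hb hb₀)
  have hH' := IsH.sub_const hH (Hb (edgeB0 e₀))
  refine ⟨_, _, hH', ?_, fun y => winc_of_cc hH' trivial fun β => ⟨trivial, cc_kC hg z α _⟩⟩
  refine ((Set.finite_singleton z).union (E.biUnion fun e => box e.1 1).finite_toSet).subset fun y hy => ?_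
  by_contra hn
  simp only [Set.mem_union, Set.mem_singleton_iff, Finset.coe_biUnion, Set.mem_iUnion, not_or, not_exists] at hn
  have hf : ∀ β, edgeOf y β ∉ (↑E : Set Edge) := fun β hβ =>
    hn.2 _ hβ (mem_box'.2 (by rw [supd_comm]; exact (supd_edgeOf y β).1))
  refine hy (Hw_frozen hH' trivial (SolOn.pt (kC_sol hg z α) hn.1) hf ?_)
  have := frozen_cB (hf 2)
  rw [cB_two] at this
  simp only [hc y this, sub_self]

/-- `M = max_β |s (z, β)|`; `mor_global` with `neg = C M` at `z` (`src_lapN`, `lapN_ge'`, `inc_le`) gives `grd Hw ≤ C M` everywhere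
(`Mor.pt`), `pt_bound` gives `s² ≤ C M` off `z`, `src_sq` gives `M² ≤ C M`; `row_sq_le` -/
theorem ker_O1 : ∃ C : ℝ, 0 ≤ C ∧ ∀ (E : Finset Edge) (ρ : ℝ) (S : Finset Site) (g : HE → HE → ℝ),
    Reg ↑E ρ → IsKer (wOf ↑E S) g → ∀ i j, g i j ^ 2 ≤ C := by
  obtain ⟨C1, hC1, h1⟩ := src_lapN
  obtain ⟨C2, hC2, h2⟩ := mor_global
  obtain ⟨C3, hC3, h3⟩ := pt_bound
  set K := (C3 + 2) * (C2 * C1) with hK
  have hK0 : 0 ≤ K := by positivity
  refine ⟨4 * K ^ 2, by positivity, fun E ρ S g hE hg i j => ?_⟩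
  obtain ⟨z, β⟩ := i
  refine row_sq_le (fun α => ?_) β
  obtain ⟨Hw, Hb, -, hfin, hW⟩ := kC_H hE S hg z α
  have hsol := kC_sol hg z α
  have hsrc : ∀ β, |opA (wOf ↑E S) (kC g z α) (z, β)| ≤ 1 := fun β => by
    rw [B3.opA_kC hg, if_pos rfl, vC]
    split_ifs <;> norm_num [abs_le]
  generalize kC g z α = s at *
  obtain ⟨β₀, hβ₀⟩ := Finite.exists_max fun β => |s (z, β)|
  set M := |s (z, β₀)| with hM
  have hM0 : 0 ≤ M := abs_nonneg _
  have hmor := h2 E s Hw (fun y => if y = z then C1 * M else 0) {z} (C1 * M) hfin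
    (fun y => by split_ifs <;> positivity) (fun y hy => if_neg (by simpa using hy)) (by simp)
    (fun y => by
      by_cases hy : y = z
      · subst hy
        rw [if_pos rfl]
        exact h1 _ S s Hw y M hsrc (hW y) hβ₀
      · rw [if_neg hy, add_zero]
        exact lapN_ge' (SolOn.pt hsol hy) (hW y))
    (fun y γ _ => inc_le (hW y) γ)
  have hg' : ∀ x, grd Hw x ≤ C2 * (C1 * M) := fun x => hmor.pt (Set.subset_univ _)
  have hoff : ∀ x, x ≠ z → ∀ γ, s (x, γ) ^ 2 ≤ C3 * (C2 * (C1 * M)) := fun x hx γ =>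
    (h3 _ S s Hw x (SolOn.pt hsol hx) (hW x) γ).trans (mul_le_mul_of_nonneg_left (hg' x) hC3)
  have hne : z + dv β₀ ≠ z := fun h => by
    have := supd_dv z β₀
    rw [h, supd_self] at this
    omega
  have hMM : M ^ 2 ≤ K * M := by
    have e1 := src_sq (hW z) β₀
    have e2 := hoff _ hne (β₀ + 2)
    have e3 := hg' z
    rw [hM, sq_abs, ← hM, hK]
    linarith
  have hMK : M ≤ K := by
    by_contra h
    push Not at h
    nlinarith
  obtain ⟨x, γ⟩ := j
  by_cases hx : x = z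
  · subst hx
    rw [← sq_abs]
    exact pow_le_pow_left₀ (abs_nonneg _) ((hβ₀ γ).trans hMK) 2
  · have e1 := hoff x hx γ
    have e2 : 0 ≤ C2 * (C1 * M) := by positivity
    have e3 : K * M ≤ K * K := mul_le_mul_of_nonneg_left hMK hK0
    have e4 : K * M = C3 * (C2 * (C1 * M)) + 2 * (C2 * (C1 * M)) := by rw [hK]; ring
    nlinarith

end Crest.Agent.R165.B3
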