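import Crest.Agent.R165.B3.GlueM
import Crest.Agent.R165.B3.KerA
import Crest.Agent.R165.B3.Core

/-! # R165/B3: kernel bound for a source in the bulk -/

set_option autoImplicit false
noncomputable section
open Classical

namespace Crest.Agent.R165.B3

/-- absorb: `M = max` of `|s - p|` on `box z (6l)`; `glue_mor`, `core` (`d = l`) at the sites with `supd y z = 6l` gives
`s² l ≤ C (M + 1/l)`, so `|s| ≤ (M + 1/l)/2 + C/(2l)`; `int_max` gives `M ≤ M/2 + C'/l` -/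
theorem bulk_mor : ∃ (C : ℝ) (K : ℕ), 0 ≤ C ∧ 1 ≤ K ∧ ∀ (E : Finset Edge) (ρ : ℝ) (S : Finset Site) (g : HE → HE → ℝ)
    (z : Site) (α : Fin 4) (l : ℕ), Reg ↑E ρ → IsKer (wOf ↑E S) g → 2 ≤ l → (K * l : ℝ) ≤ ρ → Crit ↑E (box z (8 * l)) →
    (∀ v ∈ S, v ∉ box z (8 * l + 2)) → ∃ Hw Hb, IsH (wOf ↑E S) (kC g z α) Set.univ Hw Hb ∧
      Mor Hw {y | 4 * l < supd y z} (C / l) := by
  obtain ⟨Cp, hCp, hloc⟩ := local_ker
  obtain ⟨Cg, hCg, hglue⟩ := glue_mor Cp hCp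
  obtain ⟨Cc, K, hCc, hK, hcore⟩ := core
  refine ⟨Cg * (2 * (1 / 2 + Cc * Cg / 2 + Cp) + 1), K, by positivity, hK, ?_⟩
  intro E ρ S g z α l hE hg hl hρ hcrit hS
  obtain ⟨Hw, Hb, hH, hfin, hinc⟩ := kC_H hE S hg z α
  refine ⟨Hw, Hb, hH, ?_⟩
  obtain ⟨p, hp1, hp2⟩ := hloc (↑E) S z α (8 * l) hcrit hS
  have hsol := kC_sol hg z α
  have hr : SolOn (wOf ↑E S) (box z (8 * l)) (kC g z α - p) := by
    intro y hy β
    rw [opA_sub, opA_kC hg, hp1 y hy β, sub_self]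
  have hne : (box z (6 * l) ×ˢ (Finset.univ : Finset (Fin 4))).Nonempty :=
    ⟨(z, 0), Finset.mem_product.2 ⟨mem_box.2 (by rw [supd_self]; omega), Finset.mem_univ _⟩⟩
  obtain ⟨i0, hi0, hmax⟩ := Finset.exists_max_image _ (fun i : HE => |(kC g z α - p) i|) hne
  set M := |(kC g z α - p) i0| with hM
  have hM0 : 0 ≤ M := abs_nonneg _
  have hMb : ∀ y ∈ box z (6 * l), ∀ β, |(kC g z α - p) (y, β)| ≤ M := fun y hy β =>
    hmax (y, β) (Finset.mem_product.2 ⟨hy, Finset.mem_univ _⟩)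
  have hmor := hglue E S (kC g z α) p Hw z l M hl hcrit hsol hr hfin hinc hp2 hMb
  have hl0 : (0 : ℝ) < l := by exact_mod_cast (by omega : 0 < l)
  have hbd : ∀ y, supd y z = (6 * l - 1) + 1 → ∀ β, |(kC g z α - p) (y, β)| ≤
      M / 2 + (1 / 2 + Cc * Cg / 2 + Cp) / l := by
    intro y hy β
    have hsub : (↑(box y (l + 1)) : Set Site) ⊆ {y | 4 * l < supd y z} := by
      intro y' hy'
      have h1 := mem_box'.1 hy'
      have h2 := supd_tri y y' z
      rw [supd_comm y y'] at h2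
      simp only [Set.mem_ofPred_eq]
      omega
    have h1 := hcore (↑E) ρ S y l (kC g z α) Hw Hb _ hE (by omega) hρ (fun v hv => by
        have h3 := hS v hv
        rw [mem_box] at h3
        have h4 := supd_tri v y z
        rw [supd_comm v y] at h4
        omega)
      (B3.SolOn.mono hsol fun y' hy' => by
        have h3 := hsub hy'
        simp only [Set.mem_ofPred_eq] at h3 ⊢
        rintro rfl
        rw [supd_self] at h3
        omega)
      (B3.IsH.mono hH (Set.subset_univ _)) (hmor.mono hsub le_rfl) β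
    have h2 : kC g z α (y, β) ^ 2 ≤ (M + 1 / l) * (Cc * Cg / l) := by
      rw [← mul_div_assoc, le_div_iff₀ hl0]
      calc _ ≤ _ := h1
        _ = _ := by ring
    have h3 : |kC g z α (y, β)| ≤ ((M + 1 / l) + Cc * Cg / l) / 2 := by
      refine abs_le_of_sq_le_sq' ?_ (by positivity) |> abs_le.2
      nlinarith [sq_nonneg ((M + 1 / l) - Cc * Cg / l)]
    have h4 : |p (y, β)| ≤ Cp / l := by
      refine (hp2 y β).trans (div_le_div_of_nonneg_left hCp hl0 ?_)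
      have : l ≤ supd y z + 1 := by omega
      exact_mod_cast this
    rw [Pi.sub_apply]
    refine (abs_sub _ _).trans ?_
    calc _ ≤ ((M + 1 / l) + Cc * Cg / l) / 2 + Cp / l := add_le_add h3 h4
      _ = _ := by ring
  have hsub1 : (↑(box z (6 * l - 1 + 2)) : Set Site) ⊆ ↑(box z (8 * l)) :=
    box_mono' (by rw [supd_self]; omega)
  have hint := int_max (R := 6 * l - 1) (B3.Crit.mono hcrit hsub1)
    (fun v hv hv' => hS v hv (box_mono (by rw [supd_self]; omega) hv')) (B3.SolOn.mono hr hsub1) hbd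
  have hM1 : M ≤ M / 2 + (1 / 2 + Cc * Cg / 2 + Cp) / l := by
    have h1 := (Finset.mem_product.1 hi0).1
    have h2 : 6 * l - 1 + 1 = 6 * l := by omega
    rw [h2] at hint
    exact hint i0.1 h1 i0.2
  refine hmor.mono le_rfl ?_
  have h5 : M + 1 / l ≤ (2 * (1 / 2 + Cc * Cg / 2 + Cp) + 1) / l := by
    have : (2 * (1 / 2 + Cc * Cg / 2 + Cp) + 1) / l =
        2 * ((1 / 2 + Cc * Cg / 2 + Cp) / l) + 1 / l := by ring
    rw [this]
    linarith
  rw [mul_div_assoc]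
  exact mul_le_mul_of_nonneg_left h5 hCg

/-- `bulk_mor`, `core`, `row_sq_le` -/
theorem bulk_src : ∃ (C : ℝ) (K : ℕ), 0 ≤ C ∧ 1 ≤ K ∧ ∀ (E : Finset Edge) (ρ : ℝ) (S : Finset Site) (g : HE → HE → ℝ)
    (i j : HE) (l d : ℕ), Reg ↑E ρ → IsKer (wOf ↑E S) g → 2 ≤ l → (K * l : ℝ) ≤ ρ → Crit ↑E (box i.1 (8 * l)) →
    (∀ v ∈ S, v ∉ box i.1 (8 * l + 2)) → 1 ≤ d → (K * d : ℝ) ≤ ρ → (∀ v ∈ S, d ≤ supd j.1 v + 1) →
    4 * l + d + 2 ≤ supd j.1 i.1 → g i j ^ 2 * d ≤ C / l := by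
  obtain ⟨C, K1, hC, hK1, hmor⟩ := bulk_mor
  obtain ⟨Cc, K2, hCc, hK2, hcore⟩ := core
  refine ⟨4 * (Cc * C), max K1 K2, by positivity, le_max_of_le_left hK1, ?_⟩
  rintro E ρ S g ⟨z, β⟩ ⟨y, γ⟩ l d hE hg hl hρ hcrit hS hd hρd hSd hfar
  simp only at hcrit hS hSd hfar
  have hd0 : (0 : ℝ) < d := by exact_mod_cast hd
  have hρ1 : (K1 * l : ℝ) ≤ ρ := by
    refine le_trans (mul_le_mul_of_nonneg_right ?_ (Nat.cast_nonneg _)) hρ
    exact_mod_cast le_max_left K1 K2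
  have hρ2 : (K2 * d : ℝ) ≤ ρ := by
    refine le_trans (mul_le_mul_of_nonneg_right ?_ (Nat.cast_nonneg _)) hρd
    exact_mod_cast le_max_right K1 K2
  have hsub : (↑(box y (d + 1)) : Set Site) ⊆ {y | 4 * l < supd y z} := by
    intro y' hy'
    have h1 := mem_box'.1 hy'
    have h2 := supd_tri y y' z
    rw [supd_comm y y'] at h2
    simp only [Set.mem_ofPred_eq]
    omega
  have key : ∀ α, kC g z α (y, γ) ^ 2 ≤ Cc * (C / l) / d := by
    intro α
    obtain ⟨Hw, Hb, hH, hM⟩ := hmor E ρ S g z α l hE hg hl hρ1 hcrit hS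
    rw [le_div_iff₀ hd0]
    exact hcore (↑E) ρ S y d (kC g z α) Hw Hb _ hE hd hρ2 hSd
      (B3.SolOn.mono (kC_sol hg z α) fun y' hy' => by
        have h3 := hsub hy'
        simp only [Set.mem_ofPred_eq] at h3 ⊢
        rintro rfl
        rw [supd_self] at h3
        omega)
      (B3.IsH.mono hH (Set.subset_univ _)) (hM.mono hsub le_rfl) γ
  have h := row_sq_le key β
  rw [← le_div_iff₀ hd0]
  calc _ ≤ _ := h
    _ = _ := by ring

end Crest.Agent.R165.B3
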