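import Crest.Agent.R165.B3.Bad
import Crest.Agent.R165.B3.KerB

/-! # R165/B3: sum of squares of a row on a box -/

set_option autoImplicit false
noncomputable section
open Classical

namespace Crest.Agent.R165.B3

def KB (S : Finset Site) (g : HE → HE → ℝ) (ρ : ℝ) (K : ℕ) (A : ℝ) : Prop :=
  ∀ (l : ℕ) (i j : HE), 1 ≤ l → (K * (l + K) : ℝ) ≤ ρ → l ≤ supd i.1 j.1 + 1 → g i j ^ 2 * (dB S l i.1 * dB S l j.1) ≤ A

theorem boxG_mem {E : Set Edge} {S : Finset Site} {x y : Site} {L k : ℕ} : y ∈ badSet E S x L k ↔ y ∈ box x L ∧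
    (∃ α, edgeOf y α ∈ E) ∧ ¬ (Crit E (box y (8 * k)) ∧ ∀ v ∈ S, v ∉ box y (8 * k + 2)) := Finset.mem_filter

/-- the sum of squares on `box x L` of the row at `j`, `d = dB S L j`: all-frozen sites give `0` (`frozen_zero` for the row `g j`),
good sites `≤ C / (k d)` (`bulk_src`, antisymmetry), bad sites `≤ A / (d * dB S L y)` (`KB` at scale `L`), `bad_sum` -/
theorem box_G (n : ℕ) : ∃ (C : ℝ) (K₀ : ℕ), 0 ≤ C ∧ ∀ (E : Finset Edge) (ρ : ℝ) (S : Finset Site) (g : HE → HE → ℝ)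
    (K : ℕ) (A : ℝ) (x : Site) (j : HE) (L k N : ℕ), Reg ↑E ρ → S.card ≤ n → IsKer (wOf ↑E S) g → KB S g ρ K A → 0 ≤ A →
    K₀ ≤ K → (K * (L + K) : ℝ) ≤ ρ → 2 ≤ k → 13 ≤ N → N ^ 2 * k ≤ L → (L : ℝ) ^ 2 ≤ k * ρ → 3 * L ≤ supd j.1 x →
    (∑ y ∈ box x L, ∑ β : Fin 4, g j (y, β) ^ 2) * dB S L j.1 ≤ C * ((L : ℝ) ^ 2 / k + A * L / N) := by
  obtain ⟨C₁, K₁, h1, -, hb⟩ := bulk_src
  obtain ⟨C₂, h2, hs⟩ := bad_sum n
  refine ⟨36 * C₁ + 4 * C₂, K₁, by positivity, fun E ρ S g K A x j L k N hE hS hg hK hA hK₁ hρ hk hN hL hLρ hx => ?_⟩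
  obtain ⟨d, hd, hdL, hd1, hdS⟩ := exists_dB S L j.1
  have hL' : 169 * k ≤ L := (Nat.mul_le_mul_right k (Nat.pow_le_pow_left hN 2)).trans hL
  have hL1 : 1 ≤ L := by omega
  have hKm : ∀ m : ℕ, m ≤ L → (K₁ * m : ℝ) ≤ ρ := fun m hm => le_trans (by
    exact_mod_cast Nat.mul_le_mul hK₁ (hm.trans (Nat.le_add_right L K))) hρ
  have hC : 0 ≤ C₁ / k := by positivity
  have key : ∀ y ∈ box x L, ∀ β : Fin 4, g j (y, β) ^ 2 * dB S L j.1 ≤
      C₁ / k + A * if y ∈ badSet E S x L k then 1 / dB S L y else 0 := fun y hy β => by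
    have h3 : 2 * L ≤ supd j.1 y := by
      have := supd_tri j.1 y x
      have := mem_box.1 hy
      omega
    split_ifs with h4
    · have h5 := one_le_dB S hL1 y
      rw [mul_one_div]
      refine le_add_of_nonneg_of_le hC ((le_div_iff₀ (by linarith)).2 ?_)
      rw [mul_assoc]
      exact hK L j (y, β) hL1 hρ (by simp only; omega)
    · rw [mul_zero, add_zero]
      by_cases h5 : ∃ α, edgeOf y α ∈ (E : Set Edge)
      · have h6 := not_not.1 fun h => h4 (boxG_mem.2 ⟨hy, h5, h⟩)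
        rw [hg.1 (y, β) j, neg_sq, hd]
        exact hb E ρ S g (y, β) j k d hE hg hk (hKm k (by omega)) h6.1 h6.2 (hd1 hL1) (hKm d hdL) hdS
          (by simp only; omega)
      · have h6 : SolOn (wOf E S) {y} (g j) := by
          rintro _ rfl α
          rw [hg.2, if_neg]
          rintro rfl
          rw [supd_self] at h3
          omega
        rw [frozen_zero h6 (not_exists.1 h5) β]
        simpa using hC
  have h3 : ∑ y ∈ box x L, (if y ∈ badSet E S x L k then 1 / dB S L y else 0) ≤ C₂ * L / N := by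
    rw [Finset.sum_ite_mem, Finset.inter_eq_right.2 fun y hy => (boxG_mem.1 hy).1]
    exact hs E ρ S x L k N hE hS (by omega) hN hL hLρ
  have h4 : ((box x L).card : ℝ) ≤ 9 * L ^ 2 := by
    rw [card_box]
    exact_mod_cast (by nlinarith : (2 * L + 1) ^ 2 ≤ 9 * L ^ 2)
  calc _ = ∑ y ∈ box x L, ∑ β : Fin 4, g j (y, β) ^ 2 * dB S L j.1 := by simp only [Finset.sum_mul]
    _ ≤ ∑ y ∈ box x L, ∑ _β : Fin 4, (C₁ / k + A * if y ∈ badSet E S x L k then 1 / dB S L y else 0) :=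
      Finset.sum_le_sum fun y hy => Finset.sum_le_sum fun β _ => key y hy β
    _ = 4 * ((box x L).card * (C₁ / k) + A * ∑ y ∈ box x L, if y ∈ badSet E S x L k then 1 / dB S L y else 0) := by
      simp only [Finset.sum_const, Finset.card_univ, Fintype.card_fin, nsmul_eq_mul, Nat.cast_ofNat, ← Finset.mul_sum,
        Finset.sum_add_distrib]
    _ ≤ 4 * (9 * L ^ 2 * (C₁ / k) + A * (C₂ * L / N)) := by gcongr
    _ = 36 * C₁ * (L ^ 2 / k) + 4 * C₂ * (A * L / N) := by ring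
    _ ≤ _ := by
      have h5 : 0 ≤ C₁ * (A * L / N) := by positivity
      have h6 : 0 ≤ C₂ * ((L : ℝ) ^ 2 / k) := by positivity
      linarith

end Crest.Agent.R165.B3
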