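import Crest.Agent.R165.B3.Box

/-! # R165/B3: `dB`, sums of inverse distances, Lipschitz cut-off, shifted sums -/

set_option autoImplicit false
noncomputable section
open Classical

namespace Crest.Agent.R165.B3

/-- `dB` is a natural number with the obvious properties (`Finset.fold_min_le`, `Finset.le_fold_min`) -/
theorem exists_dB (S : Finset Site) (l : ℕ) (x : Site) : ∃ d : ℕ, dB S l x = d ∧ d ≤ l ∧ (1 ≤ l → 1 ≤ d) ∧
    ∀ v ∈ S, d ≤ supd x v + 1 := by
  refine ⟨S.fold min l fun v => supd x v + 1, rfl, ?_, fun hl => ?_, fun v hv => ?_⟩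
  · exact (Finset.fold_min_le _).2 (Or.inl le_rfl)
  · exact (Finset.le_fold_min _).2 ⟨hl, fun v _ => by omega⟩
  · exact (Finset.fold_min_le _).2 (Or.inr ⟨v, hv, le_rfl⟩)

theorem le_dB {S : Finset Site} {l d : ℕ} {x : Site} (hl : d ≤ l) (h : ∀ v ∈ S, d ≤ supd x v + 1) :
    (d : ℝ) ≤ dB S l x := by
  unfold dB
  exact_mod_cast (Finset.le_fold_min _).2 ⟨hl, h⟩

theorem dB_le (S : Finset Site) (l : ℕ) (x : Site) : dB S l x ≤ l := by
  obtain ⟨d, hd, h, -⟩ := exists_dB S l x
  rw [hd]; exact_mod_cast h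

theorem one_le_dB (S : Finset Site) {l : ℕ} (hl : 1 ≤ l) (x : Site) : 1 ≤ dB S l x := by
  obtain ⟨d, hd, -, h, -⟩ := exists_dB S l x
  rw [hd]; exact_mod_cast h hl

theorem dB_empty (l : ℕ) (x : Site) : dB ∅ l x = l := by
  simp [dB]

theorem db_cases (S : Finset Site) (l : ℕ) (x : Site) :
    dB S l x = l ∨ ∃ v ∈ S, dB S l x = (supd x v : ℝ) + 1 := by
  have h : (S.fold min l fun v => supd x v + 1) ≤ (S.fold min l fun v => supd x v + 1) := le_rfl
  obtain ⟨d, hd, h1, -, h2⟩ := exists_dB S l x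
  have e : d = S.fold min l fun v => supd x v + 1 := by
    unfold dB at hd; exact_mod_cast hd.symm
  rw [Finset.fold_min_le, ← e] at h
  rcases h with h | ⟨v, hv, h⟩
  · left; rw [hd, le_antisymm h1 h]
  · right; refine ⟨v, hv, ?_⟩
    rw [hd, le_antisymm (h2 v hv) h]; push_cast; ring

/-- `dB S l' x` is `l'` or some `supd x v + 1` -/
theorem dB_scale (S : Finset Site) {l l' N : ℕ} (hN : 1 ≤ N) (h : l ≤ N * l') (x : Site) :
    dB S l x ≤ N * dB S l' x := by
  rcases db_cases S l' x with h' | ⟨v, hv, h'⟩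
  · rw [h']
    exact (dB_le S l x).trans (by exact_mod_cast h)
  · obtain ⟨d, hd, -, -, h2⟩ := exists_dB S l x
    rw [h', hd]
    have h3 : d ≤ N * (supd x v + 1) := (h2 v hv).trans (Nat.le_mul_of_pos_left _ hN)
    exact_mod_cast h3

theorem inv_dB_le (S : Finset Site) {l : ℕ} (hl : 1 ≤ l) (x : Site) :
    1 / dB S l x ≤ 1 / (l : ℝ) + ∑ v ∈ S, 1 / ((supd x v : ℝ) + 1) := by
  have h0 : 0 ≤ ∑ v ∈ S, 1 / ((supd x v : ℝ) + 1) := Finset.sum_nonneg fun _ _ => by positivity
  rcases db_cases S l x with h | ⟨v, hv, h⟩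
  · rw [h]; linarith
  · rw [h]
    have h1 : 1 / ((supd x v : ℝ) + 1) ≤ ∑ v ∈ S, 1 / ((supd x v : ℝ) + 1) :=
      Finset.single_le_sum (f := fun v => 1 / ((supd x v : ℝ) + 1)) (fun _ _ => by positivity) hv
    have h2 : (0 : ℝ) ≤ 1 / (l : ℝ) := by positivity
    linarith

theorem db_box_sum (v : Site) (k : ℕ) : ∑ y ∈ box v k, 1 / ((supd y v : ℝ) + 1) ≤ 8 * ((k : ℝ) + 1) := by
  induction k with
  | zero =>
    refine (Finset.sum_le_card_nsmul _ _ 1 fun y _ => ?_).trans ?_
    · rw [div_le_one (by positivity)]; linarith [Nat.cast_nonneg (α := ℝ) (supd y v)]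
    · rw [card_box]; norm_num
  | succ k ih =>
    have hs : box v k ⊆ box v (k + 1) := box_mono (by rw [supd_self]; omega)
    rw [← Finset.sum_sdiff hs]
    have h1 : ∑ y ∈ box v (k + 1) \ box v k, 1 / ((supd y v : ℝ) + 1) ≤ 8 := by
      refine (Finset.sum_le_card_nsmul _ _ (1 / ((k : ℝ) + 1)) fun y hy => ?_).trans ?_
      · rw [Finset.mem_sdiff, mem_box, mem_box] at hy
        have h2 : (k : ℝ) ≤ supd y v := by exact_mod_cast (not_le.1 hy.2).le
        exact one_div_le_one_div_of_le (by positivity) (by linarith)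
      · rw [Finset.card_sdiff_of_subset hs, card_box, card_box, nsmul_eq_mul,
          show (2 * (k + 1) + 1) ^ 2 - (2 * k + 1) ^ 2 = 8 * (k + 1) by
            rw [show (2 * (k + 1) + 1) ^ 2 = (2 * k + 1) ^ 2 + 8 * (k + 1) by ring]; omega]
        push_cast
        field_simp
        exact le_rfl
    push_cast
    linarith

/-- split `B` at `supd · v ≤ k`; on `box v k` induct on `k` (the ring `box v (k+1) \ box v k` has `8k+8` points) -/
theorem sum_inv_supd (B : Finset Site) (v : Site) (k : ℕ) :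
    ∑ y ∈ B, 1 / ((supd y v : ℝ) + 1) ≤ 8 * ((k : ℝ) + 1) + B.card / ((k : ℝ) + 1) := by
  rw [← Finset.sum_filter_add_sum_filter_not B (fun y => supd y v ≤ k)]
  refine add_le_add ?_ ?_
  · refine le_trans (Finset.sum_le_sum_of_subset_of_nonneg (t := box v k) (fun y hy => ?_)
      fun _ _ _ => by positivity) (db_box_sum v k)
    exact mem_box.2 (Finset.mem_filter.1 hy).2
  · refine (Finset.sum_le_card_nsmul _ _ (1 / ((k : ℝ) + 1)) fun y hy => ?_).trans ?_
    · have h1 : k ≤ supd y v := (not_le.1 (Finset.mem_filter.1 hy).2).le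
      have h2 : (k : ℝ) ≤ supd y v := by exact_mod_cast h1
      exact one_div_le_one_div_of_le (by positivity) (by linarith)
    · rw [nsmul_eq_mul, mul_one_div]
      exact div_le_div_of_nonneg_right (by exact_mod_cast Finset.card_filter_le _ _) (by positivity)

/-- `inv_dB_le` + `sum_inv_supd` -/
theorem sum_inv_dB (B S : Finset Site) {l : ℕ} (hl : 1 ≤ l) (k : ℕ) :
    ∑ y ∈ B, 1 / dB S l y ≤ B.card / (l : ℝ) + S.card * (8 * ((k : ℝ) + 1) + B.card / ((k : ℝ) + 1)) := by
  refine (Finset.sum_le_sum fun y _ => inv_dB_le S hl y).trans ?_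
  rw [Finset.sum_add_distrib, Finset.sum_const, nsmul_eq_mul, mul_one_div, Finset.sum_comm]
  refine add_le_add le_rfl ?_
  rw [← nsmul_eq_mul]
  exact Finset.sum_le_card_nsmul _ _ _ fun v _ => sum_inv_supd B v k

/-- Lipschitz cut-off `η y = max 0 (min 1 ((R - supd y x) / (R - r)))` -/
theorem exists_lip (x : Site) {r R : ℕ} (h : r < R) : ∃ η : Site → ℝ, (∀ y, 0 ≤ η y ∧ η y ≤ 1) ∧
    (∀ y, supd y x ≤ r → η y = 1) ∧ (∀ y, R ≤ supd y x → η y = 0) ∧
    ∀ y α, |η (y + dv α) - η y| ≤ 1 / ((R : ℝ) - r) := by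
  have hd : (0 : ℝ) < (R : ℝ) - r := sub_pos.2 (by exact_mod_cast h)
  refine ⟨fun y => max 0 (min 1 (((R : ℝ) - supd y x) / ((R : ℝ) - r))), fun y => ⟨le_max_left _ _,
    max_le zero_le_one (min_le_left _ _)⟩, fun y hy => ?_, fun y hy => ?_, fun y α => ?_⟩
  · have h1 : (supd y x : ℝ) ≤ r := by exact_mod_cast hy
    have h2 : 1 ≤ ((R : ℝ) - supd y x) / ((R : ℝ) - r) := by rw [le_div_iff₀ hd]; linarith
    simp only [min_eq_left h2, max_eq_right zero_le_one]
  · have h1 : (R : ℝ) ≤ supd y x := by exact_mod_cast hy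
    have h2 : ((R : ℝ) - supd y x) / ((R : ℝ) - r) ≤ 0 := div_nonpos_of_nonpos_of_nonneg (by linarith) hd.le
    exact max_eq_left ((min_le_right _ _).trans h2)
  · refine (abs_max_sub_max_le_max _ _ _ _).trans (max_le (by rw [sub_self, abs_zero]; positivity) ?_)
    refine (abs_min_sub_min_le_max _ _ _ _).trans (max_le (by rw [sub_self, abs_zero]; positivity) ?_)
    rw [← sub_div, abs_div, abs_of_pos hd]
    refine div_le_div_of_nonneg_right ?_ hd.le
    have h1 := supd_tri (y + dv α) y x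
    have h2 := supd_tri y (y + dv α) x
    rw [supd_dv] at h1
    rw [supd_comm y (y + dv α), supd_dv] at h2
    have h3 : (supd (y + dv α) x : ℝ) ≤ 1 + supd y x := by exact_mod_cast h1
    have h4 : (supd y x : ℝ) ≤ 1 + supd (y + dv α) x := by exact_mod_cast h2
    rw [abs_le]; constructor <;> linarith

/-- shifting a sum of non-negative terms (`Finset.sum_image`/`sum_le_sum_of_subset_of_nonneg`) -/
theorem sum_shift_le {A B : Finset Site} (f : Site → ℝ) (hf : ∀ y ∈ B, 0 ≤ f y) (a : Site)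
    (h : ∀ y ∈ A, y + a ∈ B) : ∑ y ∈ A, f (y + a) ≤ ∑ y ∈ B, f y := by
  rw [← Finset.sum_image (s := A) (g := fun y => y + a) (f := f) fun _ _ _ _ e => add_right_cancel e]
  refine Finset.sum_le_sum_of_subset_of_nonneg (fun z hz => ?_) fun y hy _ => hf y hy
  obtain ⟨y, hy, rfl⟩ := Finset.mem_image.1 hz
  exact h y hy

end Crest.Agent.R165.B3
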