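import Crest.Agent.R165.B3.Geo

/-! # R165/B3: flatness of the boundary: counting -/

set_option autoImplicit false
noncomputable section
open Classical

namespace Crest.Agent.R165.B3

/-- two almost tangent discs leave a thin strip. With `m = u - u'`, `p = u + u'`: `|p|² = 2|u|² + 2|u'|² - |m|² ≤ 48ρ + 96`,
`2 h·u ≤ |u|² - (ρ-a)² + |h|²`, the same for `u'`, `|h·p| ≤ |h|² + |p|²/4`. -/
theorem strip_ineq {ρ a : ℝ} {u u' h : ℂ} (ha : 0 ≤ a) (haρ : a ≤ ρ) (hu : ‖u‖ ≤ ρ + 5) (hu' : ‖u'‖ ≤ ρ + 5)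
    (hm : 2 * ρ - 2 ≤ ‖u - u'‖) (hρ : 1 ≤ ρ) (h1 : ρ - a ≤ ‖h - u‖) (h2 : ρ - a ≤ ‖h - u'‖) :
    |h.re * (u - u').re + h.im * (u - u').im| ≤ (a + 5) * (2 * ρ + 5) + 2 * ‖h‖ ^ 2 + 12 * ρ + 24 := by
  have a1 := pow_le_pow_left₀ (norm_nonneg _) hu 2
  have a2 := pow_le_pow_left₀ (norm_nonneg _) hu' 2
  have a3 := pow_le_pow_left₀ (by linarith) hm 2
  have a4 := pow_le_pow_left₀ (by linarith) h1 2
  have a5 := pow_le_pow_left₀ (by linarith) h2 2
  simp only [Complex.sq_norm, Complex.normSq_apply, Complex.sub_re, Complex.sub_im] at a1 a2 a3 a4 a5 ⊢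
  have b1 := sq_nonneg (h.re + (u.re + u'.re) / 2)
  have b2 := sq_nonneg (h.im + (u.im + u'.im) / 2)
  have b3 : 0 ≤ (a + 5) * a := by positivity
  rw [abs_le]
  constructor <;> nlinarith

theorem flat_line {S : Finset ℤ} {b m c μ T : ℝ} (hμ : 0 < μ) (hm : μ ≤ |m|) (hT : 0 ≤ T)
    (h : ∀ z ∈ S, |((z : ℝ) - b) * m + c| ≤ T) : (S.card : ℝ) ≤ 2 * T / μ + 1 := by
  rcases S.eq_empty_or_nonempty with rfl | hS
  · rw [Finset.card_empty, Nat.cast_zero]
    positivity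
  have hle := S.min'_le_max' hS
  have h1 : S.card ≤ (S.max' hS + 1 - S.min' hS).toNat := by
    rw [← Int.card_Icc]
    exact Finset.card_le_card fun z hz => Finset.mem_Icc.2 ⟨S.min'_le z hz, S.le_max' z hz⟩
  have h2 : (S.card : ℤ) ≤ S.max' hS + 1 - S.min' hS := by omega
  have h3 : (S.card : ℝ) ≤ (S.max' hS : ℝ) + 1 - S.min' hS := by exact_mod_cast h2
  have h4 : (S.min' hS : ℝ) ≤ S.max' hS := by exact_mod_cast hle
  have h5 := h _ (S.max'_mem hS)
  have h6 := h _ (S.min'_mem hS)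
  generalize (S.max' hS : ℝ) = p at h3 h4 h5
  generalize (S.min' hS : ℝ) = q at h3 h4 h6
  have h7 : (p - q) * |m| ≤ 2 * T := by
    rw [← abs_of_nonneg (sub_nonneg.2 h4), ← abs_mul,
      show (p - q) * m = ((p - b) * m + c) - ((q - b) * m + c) by ring]
    exact (abs_sub _ _).trans (by linarith)
  have h8 : p - q ≤ 2 * T / μ := by
    rw [le_div_iff₀ hμ]
    exact (mul_le_mul_of_nonneg_left hm (sub_nonneg.2 h4)).trans h7
  linarith

/-- lattice points of a box in a strip: one of `|m₁|, |m₂|` is `≥ μ`; on each row (column) the other coordinate ranges in an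
interval of length `2T/μ` -/
theorem strip_count (x b : Site) (L : ℕ) {m₁ m₂ μ T : ℝ} (hμ : 0 < μ) (hm : μ ≤ |m₁| ∨ μ ≤ |m₂|) (hT : 0 ≤ T) :
    (((box x L).filter fun y => |((y.1 : ℝ) - b.1) * m₁ + ((y.2 : ℝ) - b.2) * m₂| ≤ T).card : ℝ) ≤
      (2 * L + 1) * (2 * T / μ + 1) := by
  have hc : ∀ z : ℤ, ((Finset.Icc (z - L) (z + L)).card : ℝ) = 2 * L + 1 := fun z => by
    rw [Int.card_Icc, show z + L + 1 - (z - L) = ((2 * L + 1 : ℕ) : ℤ) by push_cast; ring, Int.toNat_natCast]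
    push_cast
    ring
  rw [box, Finset.card_filter]
  rcases hm with hm | hm
  · rw [Finset.sum_product_right, ← hc x.2, ← nsmul_eq_mul, Nat.cast_sum]
    refine Finset.sum_le_card_nsmul _ _ _ fun y _ => ?_
    rw [← Finset.card_filter]
    exact flat_line (b := b.1) (c := ((y : ℝ) - b.2) * m₂) hμ hm hT fun z hz => (Finset.mem_filter.1 hz).2
  · rw [Finset.sum_product, ← hc x.1, ← nsmul_eq_mul, Nat.cast_sum]
    refine Finset.sum_le_card_nsmul _ _ _ fun y _ => ?_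
    rw [← Finset.card_filter]
    exact flat_line (b := b.2) (c := ((y : ℝ) - b.1) * m₁) hμ hm hT fun z hz => by
      rw [add_comm]
      exact (Finset.mem_filter.1 hz).2

/-- **flatness**. If the set is non-empty pick `y₀` in it, `frozen_cB` + `bdry_near` give a `BdryB` site `b` with
`supd b y₀ ≤ k + 1`; `u, u'` = centres of `Reg.ext`, `Reg.int` minus `toC b`; every `y` of the set satisfies `strip_ineq`
with `a = 2k + 2`, `h = toC y - toC b`, `‖h‖ ≤ 6L`; `μ = ρ` (`ρ ≥ 400 k`) -/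
theorem flat_count : ∃ C : ℝ, 0 ≤ C ∧ ∀ (E : Set Edge) (ρ : ℝ) (x : Site) (L k : ℕ), Reg E ρ → 1 ≤ k → 20 * k ≤ L →
    (L : ℝ) ^ 2 ≤ k * ρ →
    (((box x L).filter fun y => (∃ α, edgeOf y α ∈ E) ∧ ¬ Crit E (box y k)).card : ℝ) ≤ C * k * L := by
  refine ⟨435, by norm_num, fun E ρ x L k hE hk hL hρ => ?_⟩
  set S := (box x L).filter fun y => (∃ α, edgeOf y α ∈ E) ∧ ¬ Crit E (box y k) with hS
  rcases S.eq_empty_or_nonempty with h0 | ⟨y₀, hy₀⟩
  · rw [h0, Finset.card_empty, Nat.cast_zero]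
    positivity
  have hmem : ∀ y ∈ S, supd y x ≤ L ∧ (∃ α, edgeOf y α ∈ E) ∧ ∃ z β, supd z y ≤ k ∧ edgeOf z β ∉ E := fun y hy => by
    obtain ⟨h1, h2, h3⟩ := Finset.mem_filter.1 hy
    refine ⟨mem_box.1 h1, h2, ?_⟩
    by_contra h
    exact h3 fun z hz β => not_not.1 fun h' => h ⟨z, β, mem_box'.1 hz, h'⟩
  obtain ⟨hy1, ⟨α₀, hα₀⟩, z₀, β₀, hz₀, hβ₀⟩ := hmem y₀ hy₀
  obtain ⟨b, hb, hbd⟩ := bdry_near hα₀ (frozen_cB hβ₀)
  have hbd' : supd b y₀ ≤ k + 1 := by
    have := supd_tri (cB z₀ β₀) z₀ y₀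
    have := supd_cB z₀ β₀
    omega
  obtain ⟨c, hc, hce⟩ := hE.ext b hb
  obtain ⟨c', hc', hce'⟩ := hE.int b hb
  have hk' : (1 : ℝ) ≤ k := by exact_mod_cast hk
  have hL' : 20 * (k : ℝ) ≤ L := by exact_mod_cast hL
  have hρ' : 400 * (k : ℝ) ≤ ρ := by
    have : (k : ℝ) * (400 * k) ≤ k * ρ := by nlinarith
    exact le_of_mul_le_mul_left this (by linarith)
  have hm : 2 * ρ - 2 ≤ ‖(c - toC b) - (c' - toC b)‖ := by
    rw [sub_sub_sub_cancel_right, ← dist_eq_norm]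
    exact centres_far hce hce'
  set m := (c - toC b) - (c' - toC b) with hmd
  have hμ : ρ ≤ |m.re| ∨ ρ ≤ |m.im| := by
    by_contra h
    push Not at h
    have a1 := pow_le_pow_left₀ (by linarith) hm 2
    have a2 := pow_lt_pow_left₀ h.1 (abs_nonneg _) two_ne_zero
    have a3 := pow_lt_pow_left₀ h.2 (abs_nonneg _) two_ne_zero
    rw [Complex.sq_norm, Complex.normSq_apply] at a1
    rw [sq_abs] at a2 a3
    nlinarith
  have hsub : S ⊆ (box x L).filter fun y =>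
      |((y.1 : ℝ) - b.1) * m.re + ((y.2 : ℝ) - b.2) * m.im| ≤ 72 * k * ρ := fun y hy => by
    obtain ⟨h1, ⟨α, hα⟩, z, β, hz, hβ⟩ := hmem y hy
    refine Finset.mem_filter.2 ⟨mem_box.2 h1, ?_⟩
    have far : ∀ (e : Edge) (d : ℂ), supd e.1 y ≤ k + 1 → ρ < dist (toC e.1) d →
        ρ - (2 * k + 2) ≤ ‖toC y - toC b - (d - toC b)‖ := fun e d he hd => by
      rw [sub_sub_sub_cancel_right, ← dist_eq_norm]
      have a1 := dist_toC_le e.1 y
      have a2 : (supd e.1 y : ℝ) ≤ k + 1 := by exact_mod_cast he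
      have a3 := dist_triangle (toC e.1) (toC y) d
      linarith
    have a1 := strip_ineq (a := 2 * k + 2) (h := toC y - toC b) (by positivity) (by linarith)
      (by rwa [← dist_eq_norm, dist_comm]) (by rwa [← dist_eq_norm, dist_comm]) hm (by linarith)
      (far (edgeOf y α) c ((supd_edgeOf y α).1.trans (by omega)) (not_le.1 fun h => hce _ h hα))
      (far (edgeOf z β) c' (by
        have := supd_tri (edgeOf z β).1 z y
        have := (supd_edgeOf z β).1
        omega) (not_le.1 fun h => hβ (hce' _ h)))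
    have a2 : ‖toC y - toC b‖ ≤ 4 * L := by
      rw [← dist_eq_norm]
      have b1 : supd y b ≤ 2 * L + k + 1 := by
        have := supd_tri y x b
        have := supd_tri x y₀ b
        have := supd_comm x y₀
        have := supd_comm y₀ b
        omega
      have b2 : (supd y b : ℝ) ≤ 2 * L + k + 1 := by exact_mod_cast b1
      have := dist_toC_le y b
      linarith
    have a3 := pow_le_pow_left₀ (norm_nonneg _) a2 2
    refine le_trans a1 ?_
    have a4 : ρ ≤ k * ρ := le_mul_of_one_le_left (by linarith) hk'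
    nlinarith
  have h1 := strip_count x b L (μ := ρ) (T := 72 * k * ρ) (by linarith) hμ (mul_nonneg (by positivity) (by linarith))
  have h2 : (S.card : ℝ) ≤ _ := (Nat.cast_le.2 (Finset.card_le_card hsub)).trans h1
  rw [show 2 * (72 * k * ρ) / ρ = 144 * k by field_simp [show ρ ≠ 0 by linarith]; ring] at h2
  nlinarith

end Crest.Agent.R165.B3
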