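import Crest.Agent.R165.B3.Int
import Crest.Agent.R165.B3.Cut

/-! # R165/B3: local kernel, gluing of two functions `H` -/

set_option autoImplicit false
noncomputable section
open Classical

namespace Crest.Agent.R165.B3

/-- `p = gaugeF σ (σ z • kC gPl z α)` with `gauge_bulk`; `gPl_ker`, `opA_kC`, `gPl_bound` -/
theorem local_ker : ∃ C : ℝ, 0 ≤ C ∧ ∀ (E : Set Edge) (S : Finset Site) (z : Site) (α : Fin 4) (R : ℕ),
    Crit E (box z R) → (∀ v ∈ S, v ∉ box z (R + 2)) → ∃ p : Fn,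
      (∀ y ∈ box z R, ∀ β, opA (wOf E S) p (y, β) = if y = z then vC α β else 0) ∧
      ∀ y β, |p (y, β)| ≤ C / (supd y z + 1) := by
  obtain ⟨C, hC⟩ := gPl_bound
  refine ⟨2 * |C|, by positivity, fun E S z α R hE hS => ?_⟩
  obtain ⟨σ, hσ, h⟩ := gauge_bulk hE hS
  have ha : ∀ x, |σ x| = 1 := fun x => by rcases hσ x with h | h <;> simp [h]
  refine ⟨gaugeF σ (σ z • kC gPl z α), fun y hy β => ?_, fun y β => ?_⟩
  · have h1 := h (gaugeF σ (σ z • kC gPl z α)) y hy β
    have e : gaugeF σ (gaugeF σ (σ z • kC gPl z α)) = σ z • kC gPl z α := by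
      funext i
      simp only [gaugeF]
      rw [← mul_assoc, hσ.mul_self, one_mul]
    rw [e, opA_smul, opA_kC gPl_ker] at h1
    rw [← one_mul (opA _ _ _), ← hσ.mul_self y, mul_assoc, ← h1]
    split_ifs with hyz
    · rw [hyz, ← mul_assoc, hσ.mul_self, one_mul]
    · simp
  · simp only [gaugeF, Pi.smul_apply, smul_eq_mul, abs_mul, ha, one_mul, kC]
    refine (Finset.abs_sum_le_sum_abs _ _).trans ((Finset.sum_le_sum (g := fun _ => 1 / 2 * (|C| / (supd y z + 1)))
      fun γ _ => ?_).trans (le_of_eq ?_))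
    · have h1 : |vC α γ| = 1 / 2 := by
        unfold vC
        split_ifs <;> norm_num [abs_of_pos]
      rw [abs_mul, h1, supd_comm y z]
      exact mul_le_mul_of_nonneg_left ((hC (z, γ) (y, β)).trans
        (div_le_div_of_nonneg_right (le_abs_self C) (by positivity))) (by norm_num)
    · simp only [Finset.sum_const, Finset.card_univ, Fintype.card_fin, nsmul_eq_mul]
      push_cast
      ring

/-- `H' = H - η (H - Hr - c)` with `cut_comm` (`r`), `poin_frame`; `neg` = the right-hand side of `cut_comm`;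
`lap H' = (1 - η) lap H + η lap Hr - commutator`, `η z = 1` -/
theorem glue : ∃ C : ℝ, 0 ≤ C ∧ ∀ (H Hr : Site → ℝ) (z : Site) (r : ℕ) (δ : ℝ), 2 ≤ r →
    (∀ y ∈ frame z (r - 1) (2 * r + 1), grd (fun y => H y - Hr y) y ≤ δ / r) →
    (∀ y ∈ box z (2 * r + 1), 0 ≤ lap Hr y ∧ (y ≠ z → 0 ≤ lap H y)) →
    ∃ H' neg : Site → ℝ, (∀ y, 2 * r < supd y z → H' y = H y) ∧ (∀ y, 0 ≤ neg y) ∧
      (∀ y, y ∉ box z (2 * r + 1) → neg y = 0) ∧ ∑ y ∈ box z (2 * r + 1), neg y ≤ C * δ ∧
      ∀ y ∈ box z (2 * r + 1), 0 ≤ lap H' y + neg y := by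
  obtain ⟨C, hC, hc⟩ := cut_comm
  obtain ⟨C', hC', hp⟩ := poin_frame
  refine ⟨36 * C * (1 + C'), by positivity, fun H Hr z r δ hr hg hl => ?_⟩
  obtain ⟨η, h1, h2, h3, h4⟩ := hc z r (by omega)
  obtain ⟨c, h5⟩ := hp (fun y => H y - Hr y) z r hr
  have hr0 : (0 : ℝ) < r := by exact_mod_cast (by omega : 0 < r)
  have hr2 : (2 : ℝ) ≤ r := by exact_mod_cast hr
  have eg : ∀ y, grd (fun y => H y - Hr y - c) y = grd (fun y => H y - Hr y) y := fun y => by
    simp only [grd, sub_sub_sub_cancel_right]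
  refine ⟨fun y => H y - η y * (H y - Hr y - c), fun y => if y ∈ frame z (r - 1) (2 * r + 1) then
    C / r * grd (fun y => H y - Hr y - c) y + C / (r : ℝ) ^ 2 * |H y - Hr y - c| else 0, fun y hy => ?_,
    fun y => (abs_nonneg _).trans (h4 (fun y => H y - Hr y - c) y), fun y hy => if_neg fun h => hy (Finset.mem_sdiff.1 h).1,
    ?_, fun y hy => ?_⟩
  · simp only [h3 y hy, zero_mul, sub_zero]
  · have hδ : 0 ≤ δ / r := by
      refine (grd_nonneg _ _).trans (hg (z.1 + r, z.2) (mem_frame.2 ?_))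
      simp only [supd, add_sub_cancel_left, sub_self, Int.natAbs_natCast, Int.natAbs_zero, Nat.max_zero]
      omega
    have hs : ∑ y ∈ frame z (r - 1) (2 * r + 1), grd (fun y => H y - Hr y) y ≤ 36 * r ^ 2 * (δ / r) := by
      refine (Finset.sum_le_card_nsmul _ _ _ hg).trans ?_
      rw [nsmul_eq_mul]
      refine mul_le_mul_of_nonneg_right ?_ hδ
      have h6 : (frame z (r - 1) (2 * r + 1)).card ≤ (2 * (2 * r + 1) + 1) ^ 2 :=
        (Finset.card_le_card Finset.sdiff_subset).trans (card_box _ _).le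
      have h7 : ((frame z (r - 1) (2 * r + 1)).card : ℝ) ≤ (2 * (2 * r + 1) + 1) ^ 2 := by exact_mod_cast h6
      nlinarith
    rw [← Finset.sum_filter, Finset.filter_mem_eq_inter, Finset.inter_eq_right.2 (by exact Finset.sdiff_subset),
      Finset.sum_add_distrib, ← Finset.mul_sum, ← Finset.mul_sum]
    simp only [eg]
    calc _ ≤ C / r * (36 * r ^ 2 * (δ / r)) + C / (r : ℝ) ^ 2 * (C' * r * (36 * r ^ 2 * (δ / r))) := by
          gcongr
          exact h5.trans (by gcongr)
      _ = _ := by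
          field_simp
  · have h6 := (abs_le.1 (h4 (fun y => H y - Hr y - c) y)).2
    have e1 : lap (fun y => H y - η y * (H y - Hr y - c)) y = lap H y - lap (fun y => η y * (H y - Hr y - c)) y := by
      simp only [lap, Fin.sum_univ_four]
      ring
    have e2 : lap (fun y => H y - Hr y - c) y = lap H y - lap Hr y := by
      simp only [lap, Fin.sum_univ_four]
      ring
    have h7 : 0 ≤ (1 - η y) * lap H y := by
      by_cases hyz : y = z
      · rw [h2 y (by rw [hyz, supd_self]; omega), sub_self, zero_mul]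
      · exact mul_nonneg (sub_nonneg.2 (h1 y).2) ((hl y hy).2 hyz)
    have h8 := mul_nonneg (h1 y).1 (hl y hy).1
    rw [e2] at h6
    rw [e1]
    linarith

/-- the increments of `H(s) - H(r)` for `s = r + p`: `|s² - r²| ≤ P (2M + P)` (`opp_sq`) -/
theorem grd_diff {E : Set Edge} {S : Finset Site} {r p : Fn} {H Hr : Site → ℝ} {y : Site} {M P : ℝ}
    (h : WInc (wOf E S) (r + p) H y) (hr : WInc (wOf E S) r Hr y)
    (hM : ∀ y' ∈ box y 1, ∀ β, |r (y', β)| ≤ M ∧ |p (y', β)| ≤ P) :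
    grd (fun y => H y - Hr y) y ≤ 8 * (P * (2 * M + P)) := by
  have key : ∀ y' ∈ box y 1, ∀ β, |(r + p) (y', β) ^ 2 - r (y', β) ^ 2| ≤ P * (2 * M + P) := by
    intro y' hy β
    obtain ⟨h1, h2⟩ := hM y' hy β
    rw [Pi.add_apply, show (r (y', β) + p (y', β)) ^ 2 - r (y', β) ^ 2 = p (y', β) * (2 * r (y', β) + p (y', β)) by ring,
      abs_mul]
    refine mul_le_mul h2 ((abs_add_le _ _).trans ?_) (abs_nonneg _) ((abs_nonneg _).trans h2)
    rw [abs_mul, abs_two]
    linarith
  refine (Finset.sum_le_sum (g := fun _ => 2 * (P * (2 * M + P))) fun α _ => ?_).trans (le_of_eq ?_)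
  · have h1 := key y (mem_box.2 (by rw [supd_self]; omega)) α
    have h2 := key (y + dv α) (mem_box.2 (supd_dv y α).le) (α + 2)
    have h3 : |1 - wOf E S (edgeOf y α) ^ 2| ≤ 1 := by
      have := tc_sq_le
      have := sq_nonneg tc
      rw [wOf_sq, abs_le]
      split_ifs <;> constructor <;> linarith
    rw [show H (y + dv α) - Hr (y + dv α) - (H y - Hr y) = (H (y + dv α) - H y) - (Hr (y + dv α) - Hr y) by ring, h α, hr α,
      ← mul_sub, abs_mul, opp_sq, opp_sq]
    refine (mul_le_of_le_one_left (abs_nonneg _) h3).trans ?_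
    rw [abs_le] at h1 h2 ⊢
    constructor <;> linarith [h1.1, h1.2, h2.1, h2.2]
  · simp only [Finset.sum_const, Finset.card_univ, Fintype.card_fin, nsmul_eq_mul]
    push_cast
    ring

end Crest.Agent.R165.B3
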