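import Crest.Agent.R165.B3.Glue
import Crest.Agent.R165.B3.Mor

/-! # R165/B3: Morrey bound after gluing -/

set_option autoImplicit false
noncomputable section
open Classical

namespace Crest.Agent.R165.B3

/-- one gluing step: `kC_H`, `exists_H_box` for `r = s - p` on `box z (8l)`, `grd_diff`, `glue` (radius `2l`), `mor_global`,
`Mor.congr` -/
theorem glue_mor (Cp : ℝ) (hCp : 0 ≤ Cp) : ∃ C : ℝ, 0 ≤ C ∧ ∀ (E : Finset Edge) (S : Finset Site) (s p : Fn) (Hw : Site → ℝ)
    (z : Site) (l : ℕ) (M : ℝ), 2 ≤ l → Crit ↑E (box z (8 * l)) → SolOn (wOf ↑E S) {y | y ≠ z} s →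
    SolOn (wOf ↑E S) (box z (8 * l)) (s - p) → (Function.support Hw).Finite → (∀ y, WInc (wOf ↑E S) s Hw y) →
    (∀ y β, |p (y, β)| ≤ Cp / (supd y z + 1)) → (∀ y ∈ box z (6 * l), ∀ β, |(s - p) (y, β)| ≤ M) →
    Mor Hw {y | 4 * l < supd y z} (C * (M + 1 / l)) := by
  obtain ⟨C₁, h₁, hg⟩ := glue
  obtain ⟨C₂, h₂, hm⟩ := mor_global
  refine ⟨C₂ * C₁ * (8 * Cp * (2 + Cp)), by positivity, fun E S s p Hw z l M hl hE hs hr hf hW hp hM => ?_⟩
  have hl' : (2 : ℝ) ≤ l := by exact_mod_cast hl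
  have hM0 : 0 ≤ M := (abs_nonneg _).trans (hM z (mem_box.2 (by rw [supd_self]; omega)) 0)
  obtain ⟨Hr, Hb, hH⟩ := exists_H_box _ _ z (8 * l) hr
  have hWr : ∀ y, supd y z ≤ 4 * l + 1 → WInc (wOf ↑E S) (s - p) Hr y := fun y hy =>
    winc_of_sol hH hr (box_mono' (by omega))
  have hc : ∀ y, supd y z ≤ 8 * l → ∀ α, edgeOf y α ∈ (↑E : Set Edge) := fun y hy => hE y (mem_box'.2 hy)
  obtain ⟨H', neg, e1, e2, e3, e4, e5⟩ := hg Hw Hr z (2 * l) (8 * Cp * (2 * M + Cp / (2 * l))) (by omega)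
    (fun y hy => by
      rw [mem_frame] at hy
      refine (grd_diff (r := s - p) (p := p) (M := M) (P := Cp / (2 * l)) (by rw [sub_add_cancel]; exact hW y)
        (hWr y (by omega)) fun y' hy' β => ?_).trans_eq (by push_cast; ring)
      rw [mem_box] at hy'
      have t1 := supd_tri y' y z
      have t2 := supd_tri y y' z
      rw [supd_comm y y'] at t2
      refine ⟨hM y' (mem_box.2 (by omega)) β, (hp y' β).trans (div_le_div_of_nonneg_left hCp (by positivity) ?_)⟩
      exact_mod_cast (by omega : 2 * l ≤ supd y' z + 1))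
    fun y hy => by
      rw [mem_box] at hy
      rw [← lapN_crit (hc y (by omega)), ← lapN_crit (hc y (by omega))]
      exact ⟨lapN_nonneg (SolOn.pt hr (mem_box'.2 (by omega))) (hWr y (by omega)),
        fun hne => lapN_nonneg (SolOn.pt hs hne) (hW y)⟩
  have e6 : ∀ y, 2 * (2 * l) + 1 < supd y z → ∀ α, H' (y + dv α) - H' y = Hw (y + dv α) - Hw y := fun y hy α => by
    have t := supd_tri y (y + dv α) z
    rw [supd_comm y (y + dv α), supd_dv] at t
    rw [e1 _ (by omega), e1 _ (by omega)]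
  have key := hm E s H' neg _ _ ((hf.union (box z (2 * (2 * l))).finite_toSet).subset fun y hy => ?_) e2 e3 e4
    (fun y => ?_) fun y α hy => ?_
  · refine Mor.congr (Mor.mono key (Set.subset_univ _) ?_) 0 fun y hy => ?_
    · have : 2 * M + Cp / (2 * l) ≤ (2 + Cp) * (M + 1 / l) := by
        have a1 : 0 ≤ Cp * M := by positivity
        have a2 : 0 < 1 / (l : ℝ) := by positivity
        have a3 : 0 ≤ Cp * (1 / l) := by positivity
        have a4 : Cp / (2 * l) = Cp * (1 / l) / 2 := by ring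
        nlinarith
      calc _ = C₂ * C₁ * (8 * Cp) * (2 * M + Cp / (2 * l)) := by ring
        _ ≤ C₂ * C₁ * (8 * Cp) * ((2 + Cp) * (M + 1 / l)) := mul_le_mul_of_nonneg_left this (by positivity)
        _ = _ := by ring
    · rw [e1 y (by have : 4 * l < supd y z := hy; omega), sub_zero]
  · by_cases h : supd y z ≤ 2 * (2 * l)
    · exact Or.inr (mem_box'.2 h)
    · exact Or.inl fun h0 => hy (by rw [e1 y (by omega), h0])
  · by_cases h : supd y z ≤ 2 * (2 * l) + 1
    · have : frz (↑E) s y = 0 := Finset.sum_eq_zero fun α _ => if_pos (hc y (by omega) α)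
      rw [this, mul_zero, lapN_crit (hc y (by omega))]
      exact e5 y (mem_box.2 h)
    · have : lapN (↑E) H' y = lapN (↑E) Hw y := Finset.sum_congr rfl fun α _ => by rw [e6 y (by omega)]
      have hne : y ≠ z := fun e => h (by rw [e, supd_self]; omega)
      rw [this]
      exact (lapN_ge' (SolOn.pt hs hne) (hW y)).trans (le_add_of_nonneg_right (e2 y))
  · have : ¬ supd y z ≤ 8 * l := fun h => hy (hc y h α)
    rw [e6 y (by omega)]
    exact inc_le (hW y) α

end Crest.Agent.R165.B3
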