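import Crest.Agent.R165.B3.Loc

/-! # R165/B3: corner consistency, increments of `H` -/

set_option autoImplicit false
noncomputable section
open Classical

namespace Crest.Agent.R165.B3

/-- from `corner_defect` -/
theorem cc_of_sol {w : Edge → ℝ} {s : Fn} {x : Site} (h : SolOn w {x} s) : CC w s x := by
  exact cornerOK_of_sol (h x rfl)

/-- `corner_defect`, `opA_kC`; at the source corner `cP = 1/2` (`exists_H_kC`) and the other value is `∓ 1/2` -/
theorem cc_kC {w : Edge → ℝ} {g : HE → HE → ℝ} (hg : IsKer w g) (z : Site) (α : Fin 4) (x : Site) :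
    CC w (kC g z α) x := by
  intro β
  have h1 := (exists_H_kC hg z α).1
  by_cases h : x = z
  · have := corner_defect w (kC g z α) z β
    rw [h]
    simp only [opA_kC hg, if_true] at this
    generalize cP w (kC g z α) z (β + 1) - 2 * kC g z α (z, β + 1) = m at this ⊢
    by_cases hβ : β = α
    · subst hβ
      rw [h1] at this ⊢
      refine sq_eq_sq_iff_eq_or_eq_neg.2 ?_
      induction β using b1_fin4 <;> simp [vC] at this
      · right; linarith
      · right; linarith
      · right; linarith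
      · left; linarith
    · refine sq_eq_sq_iff_eq_or_eq_neg.2 ?_
      induction β using b1_fin4 <;> induction α using b1_fin4 <;> simp [vC] at this hβ <;>
        first | (left; linarith) | (right; linarith)
  · exact cornerOK_of_sol (fun γ => by rw [opA_kC hg, if_neg h]) β

/-- `cB x α = cB (x + dv α) (α + 1)`; `CC` at `x + dv α` turns `cP (x + dv α) (α + 1) ^ 2` into `(opp + w s) ^ 2` -/
theorem winc_of_cc {w : Edge → ℝ} {s : Fn} {W : Set Site} {Hw Hb : Site → ℝ} (hH : IsH w s W Hw Hb) {x : Site}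
    (hx : x ∈ W) (hn : ∀ α, x + dv α ∈ W ∧ CC w s (x + dv α)) : WInc w s Hw x := by
  intro α
  have h1 := hH x hx α
  have h2 := hH _ (hn α).1 (α + 1)
  rw [(hn α).2] at h2
  obtain ⟨a, b⟩ := x
  induction α using b1_fin4 <;>
    simp [cP, cB, opp, sv, dv, edgeOf, ← sub_eq_add_neg] at h1 h2 ⊢ <;> linarith

theorem winc_of_sol {w : Edge → ℝ} {s : Fn} {W : Set Site} {Hw Hb : Site → ℝ} (hH : IsH w s W Hw Hb)
    (hs : SolOn w W s) {x : Site} (hx : (↑(box x 1) : Set Site) ⊆ W) : WInc w s Hw x := by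
  intro α
  exact hH.white hs (hx (Finset.mem_coe.2 (self_mem_box x 1))) (hx (Finset.mem_coe.2 (b1_add_dv_mem_box x α)))

/-- `e = (x, 0)`: the two black sites are `cB x 3`, `cB x 0`; `e = (x, 1)`: `cB x 1`, `cB x 0` -/
theorem hb_step {w : Edge → ℝ} {s : Fn} {W : Set Site} {Hw Hb : Site → ℝ} (hH : IsH w s W Hw Hb) {e : Edge}
    (he : e.1 ∈ W) (hc : CC w s e.1) (hw : w e = 0) : Hb (edgeB0 e) = Hb (edgeB1 e) := by
  have key : ∀ α : Fin 4, Hb (cB e.1 α) - Hb (cB e.1 (α + 1)) =
      4 * (w (edgeOf e.1 (α + 1)) * s (e.1, α + 1) * opp s e.1 (α + 1)) := fun α => by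
    have h1 := hH e.1 he α
    have h2 := hH e.1 he (α + 1)
    rw [hc] at h1
    rw [cP] at h1 h2
    linear_combination h2 - h1
  obtain ⟨⟨a, b⟩, j⟩ := e
  fin_cases j
  · have := key 3
    simp [cB, edgeOf] at this hw
    simp [hw] at this
    simp [edgeB0, edgeB1]
    linarith
  · have := key 0
    simp [cB, edgeOf] at this hw
    simp [hw] at this
    simp [edgeB0, edgeB1]
    linarith

/-- induction on the chain; `e.1 = edgeB1 e - (1, 1)` -/
theorem hb_chain {E : Set Edge} {S : Finset Site} {s : Fn} {W W' : Set Site} {Hw Hb : Site → ℝ}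
    (hH : IsH (wOf E S) s W Hw Hb) (hW : ∀ b ∈ W', b - (1, 1) ∈ W ∧ CC (wOf E S) s (b - (1, 1))) {b b' : Site}
    (h : Relation.ReflTransGen (FrozenStep E W') b b') : Hb b = Hb b' := by
  induction h with
  | refl => rfl
  | tail _ hs ih =>
    rw [ih]
    obtain ⟨h1, h2, e, he, h3⟩ := hs
    have e1 : ∀ c, edgeB1 e = c → e.1 = c - (1, 1) := fun c hc => by rw [← hc, edgeB1, add_sub_cancel_right]
    rcases h3 with ⟨h3, h4⟩ | ⟨h3, h4⟩
    · have h5 := hW _ h2
      rw [← e1 _ h4] at h5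
      rw [← h3, ← h4]
      exact hb_step hH h5.1 h5.2 (wOf_not_mem S he)
    · have h5 := hW _ h1
      rw [← e1 _ h4] at h5
      rw [← h3, ← h4]
      exact (hb_step hH h5.1 h5.2 (wOf_not_mem S he)).symm

theorem frozen_cB {E : Set Edge} {x : Site} {α : Fin 4} (h : edgeOf x α ∉ E) : FrozenB E (cB x α) := by
  refine ⟨_, h, ?_⟩
  obtain ⟨a, b⟩ := x
  induction α using b1_fin4 <;> simp [edgeOf, edgeB0, edgeB1, cB]

theorem cP_frozen {E : Set Edge} (S : Finset Site) (s : Fn) {x : Site} {α : Fin 4} (h : edgeOf x α ∉ E) :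
    cP (wOf E S) s x α = s (x, α) := by
  rw [cP, wOf_not_mem S h, zero_mul, add_zero]

/-- no frozen black site at distance `≤ R + 1` -/
theorem crit_of_far {E : Set Edge} {x : Site} {R : ℕ} (h : ∀ b, FrozenB E b → R + 2 ≤ supd b x) :
    Crit E (box x R) := by
  intro y hy α
  by_contra hn
  have h1 := h _ (frozen_cB hn)
  have h2 := supd_cB y α
  have h3 := supd_tri (cB y α) y x
  rw [mem_box'] at hy
  omega

theorem cP_sq_le (E : Set Edge) (S : Finset Site) (s : Fn) (x : Site) (α : Fin 4) :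
    cP (wOf E S) s x α ^ 2 ≤ 2 * s (x, α) ^ 2 + 2 * s (x + dv α, α + 2) ^ 2 := by
  have h1 : wOf E S (edgeOf x α) ^ 2 ≤ 1 := by
    rw [wOf_sq]; split_ifs
    · linarith [tc_sq_le]
    · exact zero_le_one
  rw [cP, ← opp_sq]
  have h2 : (wOf E S (edgeOf x α) * opp s x α) ^ 2 ≤ opp s x α ^ 2 := by
    rw [mul_pow]; exact mul_le_of_le_one_left (sq_nonneg _) h1
  nlinarith [sq_nonneg (s (x, α) - wOf E S (edgeOf x α) * opp s x α)]

theorem inc_le {E : Set Edge} {S : Finset Site} {s : Fn} {Hw : Site → ℝ} {x : Site} (h : WInc (wOf E S) s Hw x)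
    (α : Fin 4) : |Hw (x + dv α) - Hw x| ≤ s (x, α) ^ 2 + s (x + dv α, α + 2) ^ 2 := by
  have h1 : wOf E S (edgeOf x α) ^ 2 ≤ 1 := by
    rw [wOf_sq]; split_ifs
    · linarith [tc_sq_le]
    · exact zero_le_one
  have h2 := sq_nonneg (wOf E S (edgeOf x α))
  rw [h α, opp_sq, abs_le]
  have h3 := sq_nonneg (s (x, α))
  have h4 := sq_nonneg (s (x + dv α, α + 2))
  constructor <;> nlinarith

/-- valid at a source too -/
theorem src_sq {E : Set Edge} {S : Finset Site} {s : Fn} {Hw : Site → ℝ} {x : Site} (h : WInc (wOf E S) s Hw x)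
    (α : Fin 4) : s (x, α) ^ 2 ≤ s (x + dv α, α + 2) ^ 2 + 2 * grd Hw x := by
  have h1 : wOf E S (edgeOf x α) ^ 2 ≤ 1 / 2 := by
    rw [wOf_sq]; split_ifs
    · exact tc_sq_le
    · norm_num
  have h2 : |Hw (x + dv α) - Hw x| ≤ grd Hw x :=
    Finset.single_le_sum (f := fun α => |Hw (x + dv α) - Hw x|) (fun _ _ => abs_nonneg _) (Finset.mem_univ α)
  rw [h α, opp_sq, abs_le] at h2
  by_cases h3 : s (x, α) ^ 2 ≤ s (x + dv α, α + 2) ^ 2
  · linarith [grd_nonneg Hw x]
  · nlinarith

/-- full Laplacian versus Neumann Laplacian; only the increments on frozen edges are used -/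
theorem lap_le {E : Set Edge} {s : Fn} {H : Site → ℝ} {x : Site}
    (h : ∀ α, edgeOf x α ∉ E → |H (x + dv α) - H x| ≤ s (x, α) ^ 2 + s (x + dv α, α + 2) ^ 2) :
    |lap H x| ≤ |lapN E H x| + frz E s x + ∑ α : Fin 4, frz E s (x + dv α) := by
  have h1 : lap H x = lapN E H x + ∑ α : Fin 4, if edgeOf x α ∈ E then 0 else H (x + dv α) - H x := by
    rw [lap, lapN, ← Finset.sum_add_distrib]
    refine Finset.sum_congr rfl fun α _ => ?_
    split_ifs <;> simp
  rw [h1, add_assoc]
  refine (abs_add_le _ _).trans (add_le_add le_rfl ((Finset.abs_sum_le_sum_abs _ _).trans ?_))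
  rw [frz, ← Finset.sum_add_distrib]
  refine Finset.sum_le_sum fun α _ => ?_
  split_ifs with h2
  · rw [abs_zero, zero_add]; exact frz_nonneg _ _ _
  · refine (h α h2).trans (add_le_add le_rfl ?_)
    have h3 := Finset.single_le_sum (f := fun β : Fin 4 => if edgeOf (x + dv α) β ∈ E then 0 else s (x + dv α, β) ^ 2)
      (fun _ _ => by split_ifs <;> positivity) (Finset.mem_univ (α + 2))
    simp only [edgeOf_add, if_neg h2] at h3
    exact h3

end Crest.Agent.R165.B3
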