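import Crest.Agent.R165.B3.Inc

/-! # R165/B3: summation by parts, mass bound -/

set_option autoImplicit false
noncomputable section
open Classical

namespace Crest.Agent.R165.B3

theorem sum_invol (B : Finset Site) (f : Site → Fin 4 → ℝ) (h1 : ∀ x ∈ B, ∀ α, f x α ≠ 0 → x + dv α ∈ B)
    (h2 : ∀ x ∈ B, ∀ α, f (x + dv α) (α + 2) ≠ 0 → x + dv α ∈ B) :
    ∑ x ∈ B, ∑ α : Fin 4, f (x + dv α) (α + 2) = ∑ x ∈ B, ∑ α : Fin 4, f x α := by
  rw [← Finset.sum_product', ← Finset.sum_product']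
  have e4 : ∀ α : Fin 4, α + 2 + 2 = α := by decide
  refine Finset.sum_bij_ne_zero (fun i _ _ => (i.1 + dv i.2, i.2 + 2)) (fun i hi h => ?_)
    (fun i _ _ j _ _ h => heOpp.injective h) (fun i hi h => ?_) (fun i _ _ => rfl)
  · exact Finset.mem_product.2 ⟨h2 _ (Finset.mem_product.1 hi).1 _ h, Finset.mem_univ _⟩
  · refine ⟨(i.1 + dv i.2, i.2 + 2), Finset.mem_product.2 ⟨h1 _ (Finset.mem_product.1 hi).1 _ h, Finset.mem_univ _⟩,
      ?_, ?_⟩
    · simpa only [add_dv_dv, e4] using h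
    · simp only [add_dv_dv, e4]

/-- summation by parts. The involution `(x, α) ↦ (x + dv α, α + 2)` of half-edges keeps `edgeOf` (`edgeOf_add`, `dv_add_two`).
E.g. `2 Σ a = Σ (a + a ∘ τ)` on the `τ`-invariant finset of half-edges with both ends in `B` (`Finset.sum_nbij'`/`sum_involution`);
the half-edges leaving `B` contribute `0` on both sides (`η = 0` at both ends). -/
theorem sum_parts (E : Set Edge) (η H : Site → ℝ) (B : Finset Site) (hB : ∀ y, η y ≠ 0 → box y 1 ⊆ B) :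
    ∑ x ∈ B, η x * lapN E H x = -(1 / 2) * ∑ x ∈ B, ∑ α : Fin 4,
      if edgeOf x α ∈ E then (η (x + dv α) - η x) * (H (x + dv α) - H x) else 0 := by
  have h := sum_invol B (fun x α => if edgeOf x α ∈ E then η x * (H (x + dv α) - H x) else 0)
    (fun x _ α h => hB x (fun h0 => h (by simp [h0])) (b1_add_dv_mem_box x α))
    (fun x _ α h => hB _ (fun h0 => h (by simp [h0])) (self_mem_box _ 1))
  simp only [edgeOf_add, add_dv_dv] at h
  have h1 : ∑ x ∈ B, η x * lapN E H x =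
      ∑ x ∈ B, ∑ α : Fin 4, if edgeOf x α ∈ E then η x * (H (x + dv α) - H x) else 0 := by
    refine Finset.sum_congr rfl fun x _ => ?_
    rw [lapN, Finset.mul_sum]
    refine Finset.sum_congr rfl fun α _ => ?_
    split_ifs <;> simp
  have h2 : (∑ x ∈ B, ∑ α : Fin 4,
      if edgeOf x α ∈ E then (η (x + dv α) - η x) * (H (x + dv α) - H x) else 0) =
      -(∑ x ∈ B, ∑ α : Fin 4, if edgeOf x α ∈ E then η (x + dv α) * (H x - H (x + dv α)) else 0) -
      ∑ x ∈ B, ∑ α : Fin 4, if edgeOf x α ∈ E then η x * (H (x + dv α) - H x) else 0 := by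
    simp only [← Finset.sum_neg_distrib, ← Finset.sum_sub_distrib]
    refine Finset.sum_congr rfl fun x _ => Finset.sum_congr rfl fun α _ => ?_
    split_ifs <;> ring
  rw [h1, h2, h]
  ring

/-- same involution: every critical half-edge at `x ∈ B` has its other end in `B` -/
theorem sum_lapN_zero (E : Set Edge) (H : Site → ℝ) (B : Finset Site)
    (hB : ∀ x ∈ B, ∀ α, edgeOf x α ∈ E → x + dv α ∈ B) : ∑ x ∈ B, lapN E H x = 0 := by
  have h := sum_invol B (fun x α => if edgeOf x α ∈ E then H (x + dv α) - H x else 0)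
    (fun x hx α h => hB x hx α (by_contra fun h0 => h (if_neg h0)))
    (fun x hx α h => hB x hx α (by_contra fun h0 => h (if_neg (by rwa [edgeOf_add]))))
  simp only [edgeOf_add, add_dv_dv] at h
  have h2 : (∑ x ∈ B, ∑ α : Fin 4, if edgeOf x α ∈ E then H x - H (x + dv α) else 0) =
      -∑ x ∈ B, ∑ α : Fin 4, if edgeOf x α ∈ E then H (x + dv α) - H x else 0 := by
    simp only [← Finset.sum_neg_distrib]
    refine Finset.sum_congr rfl fun x _ => Finset.sum_congr rfl fun α _ => ?_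
    split_ifs <;> ring
  unfold lapN
  linarith

/-- **mass bound**: `sum_parts` with `exists_lip x (r+1 < R)` and `B = box x R`; `∇η` vanishes at `y` with `supd y x ≤ r` -/
theorem mass_le (E : Set Edge) (H : Site → ℝ) (x : Site) {r R : ℕ} (h : r + 1 < R)
    (h0 : ∀ y ∈ box x R, 0 ≤ lapN E H y) :
    ∑ y ∈ box x (r + 1), lapN E H y ≤ 1 / ((R : ℝ) - (r + 1)) * ∑ y ∈ frame x r R, grd H y := by
  obtain ⟨η, h01, h1, hz, hl⟩ := exists_lip x h
  have hd : (0 : ℝ) < (R : ℝ) - (r + 1) := by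
    have : ((r + 1 : ℕ) : ℝ) < R := by exact_mod_cast h
    push_cast at this; linarith
  push_cast at hl
  have hp := sum_parts E η H (box x R) fun y hy => box_mono (by
    have : ¬ R ≤ supd y x := fun h' => hy (hz y h')
    omega)
  have a1 : ∑ y ∈ box x (r + 1), lapN E H y ≤ ∑ y ∈ box x R, η y * lapN E H y := by
    calc ∑ y ∈ box x (r + 1), lapN E H y = ∑ y ∈ box x (r + 1), η y * lapN E H y :=
          Finset.sum_congr rfl fun y hy => by rw [h1 y (mem_box.1 hy), one_mul]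
      _ ≤ _ := Finset.sum_le_sum_of_subset_of_nonneg (R165.box_mono x h.le)
          fun y hy _ => mul_nonneg (h01 y).1 (h0 y hy)
  have a2 : -(∑ y ∈ box x R, ∑ α : Fin 4,
      if edgeOf y α ∈ E then (η (y + dv α) - η y) * (H (y + dv α) - H y) else 0) ≤
      1 / ((R : ℝ) - (r + 1)) * ∑ y ∈ frame x r R, grd H y := by
    have hs : box x r ⊆ box x R := R165.box_mono x (by omega)
    rw [← Finset.sum_sdiff hs, Finset.sum_eq_zero (s := box x r), add_zero, Finset.mul_sum,
      ← Finset.sum_neg_distrib]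
    · refine Finset.sum_le_sum fun y _ => ?_
      rw [grd, Finset.mul_sum, ← Finset.sum_neg_distrib]
      refine Finset.sum_le_sum fun α _ => ?_
      split_ifs
      · refine (neg_le_abs _).trans ?_
        rw [abs_mul]
        exact mul_le_mul_of_nonneg_right (hl y α) (abs_nonneg _)
      · rw [neg_zero]; positivity
    · intro y hy
      refine Finset.sum_eq_zero fun α _ => ?_
      rw [h1 _ (mem_box.1 (add_dv_mem_box hy α)), h1 y ((mem_box.1 hy).trans r.le_succ)]
      simp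
  have a3 : 0 ≤ 1 / ((R : ℝ) - (r + 1)) * ∑ y ∈ frame x r R, grd H y :=
    mul_nonneg (by positivity) (Finset.sum_nonneg fun y _ => grd_nonneg H y)
  linarith

/-- the gradient of `Hw` on a set is bounded by the squares on a neighbourhood (`inc_le`, `sum_shift_le`) -/
theorem sum_grd_le {E : Set Edge} {S : Finset Site} {s : Fn} {Hw : Site → ℝ} {A B : Finset Site}
    (h : ∀ y ∈ A, WInc (wOf E S) s Hw y) (hB : ∀ y ∈ A, box y 1 ⊆ B) :
    ∑ y ∈ A, grd Hw y ≤ 2 * ∑ y ∈ B, ∑ α : Fin 4, s (y, α) ^ 2 := by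
  have h1 : ∑ y ∈ A, grd Hw y ≤ ∑ y ∈ A, ∑ α : Fin 4, (s (y, α) ^ 2 + s (y + dv α, α + 2) ^ 2) :=
    Finset.sum_le_sum fun y hy => Finset.sum_le_sum fun α _ => inc_le (h y hy) α
  simp only [Finset.sum_add_distrib] at h1
  have h2 : ∑ y ∈ A, ∑ α : Fin 4, s (y, α) ^ 2 ≤ ∑ y ∈ B, ∑ α : Fin 4, s (y, α) ^ 2 :=
    Finset.sum_le_sum_of_subset_of_nonneg (fun y hy => hB y hy (self_mem_box y 1))
      fun _ _ _ => Finset.sum_nonneg fun _ _ => sq_nonneg _
  have h3 : ∑ y ∈ A, ∑ α : Fin 4, s (y + dv α, α + 2) ^ 2 ≤ ∑ y ∈ B, ∑ α : Fin 4, s (y, α) ^ 2 := by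
    rw [Finset.sum_comm, Finset.sum_comm (s := B), ← Equiv.sum_comp (Equiv.addRight (2 : Fin 4))
      fun α => ∑ y ∈ B, s (y, α) ^ 2]
    exact Finset.sum_le_sum fun α _ => sum_shift_le (fun y => s (y, α + 2) ^ 2) (fun _ _ => sq_nonneg _) (dv α)
      fun y hy => hB y hy (b1_add_dv_mem_box y α)
  linarith

end Crest.Agent.R165.B3
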