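import Crest.Agent.R165.B3.Site
import Crest.Agent.R165.B3.Sum

/-! # R165/B3: interior estimates in terms of `Hw` -/

set_option autoImplicit false
noncomputable section
open Classical

namespace Crest.Agent.R165.B3

/-- `exists_gauge S ∅ x (R+1)`, `opA_gauge`, `opA_congr`, `supd_edgeOf` -/
theorem gauge_bulk {E : Set Edge} {S : Finset Site} {x : Site} {R : ℕ} (hE : Crit E (box x R))
    (hS : ∀ v ∈ S, v ∉ box x (R + 2)) : ∃ σ, IsSign σ ∧ ∀ (s : Fn), ∀ y ∈ box x R, ∀ β,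
      opA wPl (gaugeF σ s) (y, β) = σ y * opA (wOf E S) s (y, β) := by
  obtain ⟨σ, hσ, h⟩ := exists_gauge S ∅ x (R + 1) (fun v hv => by
    constructor
    · intro h; exact absurd hv (hS v h)
    · intro h; simp at h)
  refine ⟨σ, hσ, fun s y hy β => ?_⟩
  have h1 := congrFun (opA_gauge hσ (wOf E S) s) (y, β)
  have hy' := mem_box.1 hy
  have he := supd_edgeOf y β
  have h2 := h (edgeOf y β) (mem_box.2 (by have := supd_tri (edgeOf y β).1 y x; omega))
    (mem_box.2 (by have := supd_tri ((edgeOf y β).1 + uv (edgeOf y β).2) y x; omega))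
  have h3 : eray ∅ (edgeOf y β) = 1 := by simp [eray]
  have h4 : wPl (edgeOf y β) = gaugeW σ (wOf E S) (edgeOf y β) := by
    have hm : edgeOf y β ∈ E := hE y (Finset.mem_coe.2 hy) β
    simp only [wPl, gaugeW, wOf, if_pos hm]
    rw [h3] at h2
    linear_combination (-tc) * h2
  rw [opA_congr _ h4, h1]
  rfl

/-- `gauge_bulk`, `harm_of_sol`: the gauged component is harmonic, its square is subharmonic -/
theorem sq_subharm {E : Set Edge} {S : Finset Site} {s : Fn} {x : Site} (hE : Crit E (box x 2))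
    (hS : ∀ v ∈ S, v ∉ box x 4) (hs : SolOn (wOf E S) (box x 2) s) (α : Fin 4) :
    0 ≤ lap (fun y => s (y, α) ^ 2) x := by
  obtain ⟨σ, hσ, h⟩ := gauge_bulk (R := 2) hE hS
  have h1 : SolOn wPl (box x 2) (gaugeF σ s) := fun y hy β => by
    rw [h s y (Finset.mem_coe.1 hy) β, hs y hy β, mul_zero]
  have h2 := harm_of_sol h1 α
  have hsq : ∀ y, s (y, α) ^ 2 = gaugeF σ s (y, α) ^ 2 := fun y => by
    have := hσ.mul_self y
    simp only [gaugeF]
    linear_combination (-(s (y, α) ^ 2)) * this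
  simp only [hsq]
  rw [lap_eq]
  have e1 : x + (1, 0) = (x.1 + 1, x.2) := Prod.ext rfl (add_zero _)
  have e2 : x - (1, 0) = (x.1 - 1, x.2) := Prod.ext rfl (sub_zero _)
  have e3 : x + (0, 1) = (x.1, x.2 + 1) := Prod.ext (add_zero _) rfl
  have e4 : x - (0, 1) = (x.1, x.2 - 1) := Prod.ext (sub_zero _) rfl
  rw [e1, e2, e3, e4] at h2
  generalize gaugeF σ s ((x.1 + 1, x.2), α) = a at *
  generalize gaugeF σ s ((x.1 - 1, x.2), α) = b at *
  generalize gaugeF σ s ((x.1, x.2 + 1), α) = c at *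
  generalize gaugeF σ s ((x.1, x.2 - 1), α) = d at *
  generalize gaugeF σ s (x, α) = m at *
  have hm : m * (a + b + c + d) = m * (4 * m) := by rw [h2]
  nlinarith [sq_nonneg (a - m), sq_nonneg (b - m), sq_nonneg (c - m), sq_nonneg (d - m)]

theorem Int_subharm {E : Set Edge} {S : Finset Site} {s : Fn} {x : Site} {R : ℕ} (hE : Crit E (box x (R + 2)))
    (hS : ∀ v ∈ S, v ∉ box x (R + 4)) (hs : SolOn (wOf E S) (box x (R + 2)) s) {z : Site} (hz : z ∈ box x R)
    (α : Fin 4) : 0 ≤ lap (fun y => s (y, α) ^ 2) z := by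
  have hz' := mem_box.1 hz
  exact sq_subharm (Crit.mono hE (box_mono' (by omega)))
    (fun v hv h => hS v hv (box_mono (by omega) h)) (SolOn.mono hs (box_mono' (by omega))) α

/-- `max_principle` for `s (·, α)²` on `box x R` -/
theorem int_max {E : Set Edge} {S : Finset Site} {s : Fn} {x : Site} {R : ℕ} {M : ℝ} (hE : Crit E (box x (R + 2)))
    (hS : ∀ v ∈ S, v ∉ box x (R + 4)) (hs : SolOn (wOf E S) (box x (R + 2)) s)
    (hM : ∀ y, supd y x = R + 1 → ∀ α, |s (y, α)| ≤ M) : ∀ y ∈ box x (R + 1), ∀ α, |s (y, α)| ≤ M := by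
  intro y hy α
  have hM0 : 0 ≤ M := by
    have hp : supd (x.1 + (R + 1 : ℕ), x.2) x = R + 1 := by
      simp only [supd]; omega
    exact (abs_nonneg _).trans (hM _ hp α)
  have hy' := mem_box.1 hy
  rcases Nat.lt_or_ge R (supd y x) with h1 | h1
  · exact hM y (by omega) α
  have key := max_principle (box x R) (fun y => s (y, α) ^ 2) (M ^ 2)
    (fun z hz => Int_subharm hE hS hs hz α)
    (fun z hz β hn => by
      have hz' := mem_box.1 hz
      have h2 : ¬ supd (z + dv β) x ≤ R := fun h => hn (mem_box.2 h)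
      have h3 := supd_tri (z + dv β) z x
      have h4 := supd_dv z β
      exact sq_le_sq' (abs_le.1 (hM _ (by omega) α)).1 (abs_le.1 (hM _ (by omega) α)).2)
    y (mem_box.2 h1)
  exact abs_le_of_sq_le_sq' key hM0 |> abs_le.2

/-- `submean` for `s (·, α)²` + `pt_bound` -/
theorem int_grad : ∃ C : ℝ, 0 ≤ C ∧ ∀ (E : Set Edge) (S : Finset Site) (s : Fn) (Hw Hb : Site → ℝ) (x : Site) (R : ℕ)
    (G : ℝ), 1 ≤ R → Crit E (box x (R + 2)) → (∀ v ∈ S, v ∉ box x (R + 4)) → SolOn (wOf E S) (box x (R + 2)) s →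
    IsH (wOf E S) s (box x (R + 2)) Hw Hb → ∑ y ∈ box x (R + 1), grd Hw y ≤ G →
    ∀ α, s (x, α) ^ 2 ≤ C * G / (R : ℝ) ^ 2 := by
  obtain ⟨C₁, h₁⟩ := submean
  obtain ⟨C₂, hC₂, h₂⟩ := pt_bound
  refine ⟨|C₁| * C₂, by positivity, fun E S s Hw Hb x R G hR hE hS hs hH hG α => ?_⟩
  have k1 := h₁ (fun y => s (y, α) ^ 2) x R hR (fun z hz => Int_subharm hE hS hs hz α) (fun y => sq_nonneg _)
  have k2 : ∑ y ∈ box x (R + 1), s (y, α) ^ 2 ≤ C₂ * G := by
    refine le_trans (Finset.sum_le_sum fun y hy => h₂ E S s Hw y ?_ ?_ α) ?_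
    · have := mem_box.1 hy
      exact SolOn.pt hs (mem_box'.2 (by omega))
    · have := mem_box.1 hy
      exact winc_of_sol hH hs (box_mono' (by omega))
    · rw [← Finset.mul_sum]
      exact mul_le_mul_of_nonneg_left hG hC₂
  have k3 : 0 ≤ ∑ y ∈ box x (R + 1), s (y, α) ^ 2 := Finset.sum_nonneg fun _ _ => sq_nonneg _
  have hRp : (0 : ℝ) < (R : ℝ) ^ 2 := by positivity
  calc s (x, α) ^ 2 ≤ C₁ / (R : ℝ) ^ 2 * ∑ y ∈ box x (R + 1), s (y, α) ^ 2 := k1
    _ ≤ |C₁| / (R : ℝ) ^ 2 * ∑ y ∈ box x (R + 1), s (y, α) ^ 2 :=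
        mul_le_mul_of_nonneg_right (div_le_div_of_nonneg_right (le_abs_self _) hRp.le) k3
    _ ≤ |C₁| / (R : ℝ) ^ 2 * (C₂ * G) := mul_le_mul_of_nonneg_left k2 (by positivity)
    _ = |C₁| * C₂ * G / (R : ℝ) ^ 2 := by ring

end Crest.Agent.R165.B3
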