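import Crest.Agent.R165.B3.BoxG
import Crest.Agent.R165.B3.Apr

/-! # R165/B3: the universal kernel bound (bootstrap) -/

set_option autoImplicit false
noncomputable section
open Classical

namespace Crest.Agent.R165.B3

/-- one bootstrap step. `l ≤ L₀`: `ker_O1`, `dB_le`. Otherwise `l' = l / 16`, `L = 4 l'`, `k = L / N²`, `apriori_L2` for the row
`g j` at `x = i.1`, scale `l'`, `G` from `box_G`; `dB_scale`; `N` so large that the coefficient of `A` is `≤ 1/2`,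
`K ≥ K₀, K₁, 2N²` -/
theorem KB_step (n : ℕ) : ∃ (C : ℝ) (K : ℕ), 0 ≤ C ∧ 1 ≤ K ∧ ∀ (E : Finset Edge) (ρ : ℝ) (S : Finset Site) (g : HE → HE → ℝ)
    (A : ℝ), Reg ↑E ρ → S.card ≤ n → IsKer (wOf ↑E S) g → 0 ≤ A → KB S g ρ K A → KB S g ρ K (C + A / 2) := by
  obtain ⟨C₀, hC₀, h₀⟩ := ker_O1
  obtain ⟨C₁, K₁, hC₁, hK₁, h₁⟩ := apriori_L2
  obtain ⟨C₂, K₂, hC₂, h₂⟩ := box_G n
  obtain ⟨N₀, hN₀⟩ := exists_nat_ge (2048 * (C₁ * C₂))
  obtain ⟨N, hN⟩ : ∃ N, N = N₀ + 13 := ⟨_, rfl⟩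
  obtain ⟨Q, hQ⟩ : ∃ Q, Q = N ^ 2 := ⟨_, rfl⟩
  have hQ1 : 1 ≤ Q := by rw [hQ]; exact Nat.one_le_pow _ _ (by omega)
  have hNr : 2048 * (C₁ * C₂) ≤ N := by rw [hN]; push_cast; linarith
  have hN0 : (0 : ℝ) < N := by
    have : 0 < N := by omega
    exact_mod_cast this
  refine ⟨C₀ * ((16 * (K₁ + Q) + 16 : ℕ) : ℝ) ^ 2 + 256 * (C₁ * C₂) * (8 * Q), K₁ + K₂ + 2 * Q, by positivity, by omega,
    fun E ρ S g A hE hS hg hA hKB l i j hl hρ hij => ?_⟩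
  have t1 : 0 ≤ C₀ * ((16 * (K₁ + Q) + 16 : ℕ) : ℝ) ^ 2 := by positivity
  have t2 : 0 ≤ 256 * (C₁ * C₂) * (8 * (Q : ℝ)) := by positivity
  have di0 : 0 ≤ dB S l i.1 := le_trans zero_le_one (one_le_dB S hl _)
  have dj0 : 0 ≤ dB S l j.1 := le_trans zero_le_one (one_le_dB S hl _)
  by_cases hsm : l ≤ 16 * (K₁ + Q) + 16
  · have a1 : (l : ℝ) ≤ ((16 * (K₁ + Q) + 16 : ℕ) : ℝ) := by exact_mod_cast hsm
    have a2 := mul_le_mul ((dB_le S l i.1).trans a1) ((dB_le S l j.1).trans a1) dj0 (by positivity)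
    have a3 := mul_le_mul (h₀ E ρ S g hE hg i j) a2 (mul_nonneg di0 dj0) hC₀
    nlinarith
  obtain ⟨l', hl'⟩ : ∃ l', l' = l / 16 := ⟨_, rfl⟩
  obtain ⟨k, hk⟩ : ∃ k, k = 4 * l' / Q := ⟨_, rfl⟩
  have hk1 : Q * k ≤ 4 * l' := by rw [hk]; exact Nat.mul_div_le _ _
  have hk2 : 4 * l' < Q * (k + 1) := by rw [hk]; exact Nat.lt_mul_div_succ _ (by omega)
  have hl1 : K₁ + Q + 1 ≤ l' := by omega
  have hk3 : 2 ≤ k := by
    by_contra hc
    have : Q * (k + 1) ≤ Q * 2 := Nat.mul_le_mul_left _ (by omega)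
    omega
  have hk4 : 4 * l' ≤ 2 * Q * k := by
    have : Q * (k + 1) ≤ Q * (2 * k) := Nat.mul_le_mul_left _ (by omega)
    have e : Q * (2 * k) = 2 * Q * k := by ring
    omega
  have hl'0 : (0 : ℝ) < l' := by
    have : 0 < l' := by omega
    exact_mod_cast this
  have hk0 : (0 : ℝ) < k := by
    have : 0 < k := by omega
    exact_mod_cast this
  have hk4r : (4 * l' : ℝ) ≤ 2 * Q * k := by exact_mod_cast hk4
  have hll : (16 * l' : ℝ) ≤ l := by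
    have : 16 * l' ≤ l := by omega
    exact_mod_cast this
  have hK0 : (0 : ℝ) ≤ ((K₁ + K₂ + 2 * Q : ℕ) : ℝ) := Nat.cast_nonneg _
  have hKl : ((K₁ + K₂ + 2 * Q : ℕ) : ℝ) * (4 * l') ≤ ρ := by
    refine le_trans (mul_le_mul_of_nonneg_left ?_ hK0) hρ
    linarith
  have hK1r : (K₁ : ℝ) ≤ ((K₁ + K₂ + 2 * Q : ℕ) : ℝ) := by exact_mod_cast (by omega)
  have hK2r : (2 * Q : ℝ) ≤ ((K₁ + K₂ + 2 * Q : ℕ) : ℝ) := by exact_mod_cast (by omega)
  have hG := h₂ E ρ S g (K₁ + K₂ + 2 * Q) A i.1 j (4 * l') k N hE hS hg hKB hA (by omega)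
    (le_trans (mul_le_mul_of_nonneg_left (by push_cast; linarith) hK0) hρ) hk3 (by omega) (by rw [← hQ]; exact hk1)
    (by
      have b1 : 2 * (Q : ℝ) * (4 * l') ≤ ρ := le_trans (mul_le_mul_of_nonneg_right hK2r (by positivity)) hKl
      have b2 := mul_le_mul_of_nonneg_left b1 hk0.le
      have b3 := mul_le_mul_of_nonneg_right hk4r (by positivity : (0 : ℝ) ≤ 4 * l')
      push_cast
      nlinarith)
    (by rw [supd_comm]; omega)
  have hsol : SolOn (wOf ↑E S) (box i.1 (4 * l')) (g j) := fun y hy β => by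
    rw [hg.2 j (y, β), if_neg]
    intro he
    rw [mem_box'] at hy
    have : y = j.1 := congrArg Prod.fst he
    rw [this, supd_comm] at hy
    omega
  set G := ∑ y ∈ box i.1 (4 * l'), ∑ β : Fin 4, g j (y, β) ^ 2 with hGdef
  have hfr : ∑ y ∈ frame i.1 l' (4 * l'), ∑ β : Fin 4, g j (y, β) ^ 2 ≤ G :=
    Finset.sum_le_sum_of_subset_of_nonneg Finset.sdiff_subset fun y _ _ => Finset.sum_nonneg fun β _ => sq_nonneg _
  have hap := h₁ ↑E ρ S i.1 l' (g j) G hE (by omega)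
    (le_trans (by nlinarith) hKl) hsol hfr i.1 (mem_box.2 (by rw [supd_self]; omega)) i.2
  have hgij : g i j ^ 2 = g j (i.1, i.2) ^ 2 := by
    rw [hg.1 j i]; simp
  have s1 := dB_scale S (l := l) (l' := l') (N := 32) (by norm_num) (by omega) i.1
  have s2 := dB_scale S (l := l) (l' := 4 * l') (N := 8) (by norm_num) (by omega) j.1
  have e0 : 0 ≤ dB S l' i.1 := le_trans zero_le_one (one_le_dB S (by omega) _)
  have e1 : 0 ≤ dB S (4 * l') j.1 := le_trans zero_le_one (one_le_dB S (by omega) _)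
  push_cast at s1 s2 hG
  have b1 : dB S l i.1 * dB S l j.1 ≤ 32 * dB S l' i.1 * (8 * dB S (4 * l') j.1) := mul_le_mul s1 s2 dj0 (by positivity)
  have b2 : g j (i.1, i.2) ^ 2 * dB S l' i.1 * dB S (4 * l') j.1 ≤ C₁ * G / l' * dB S (4 * l') j.1 :=
    mul_le_mul_of_nonneg_right hap e1
  have b3 : C₁ * G / l' * dB S (4 * l') j.1 ≤ C₁ / l' * (C₂ * ((4 * l') ^ 2 / k + A * (4 * l') / N)) := by
    rw [show C₁ * G / l' * dB S (4 * l') j.1 = C₁ / l' * (G * dB S (4 * l') j.1) by ring]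
    exact mul_le_mul_of_nonneg_left hG (by positivity)
  have b4 : C₁ / l' * (C₂ * ((4 * l') ^ 2 / k + A * (4 * l') / N)) = C₁ * C₂ * (4 * (4 * l' / k)) + C₁ * C₂ / N * (4 * A) := by
    field_simp
  have b5 : (4 * l' : ℝ) / k ≤ 2 * Q := by rw [div_le_iff₀ hk0]; exact hk4r
  have b6 : C₁ * C₂ / N ≤ 1 / 2048 := by rw [div_le_iff₀ hN0]; linarith
  have b7 : C₁ * C₂ * (4 * (4 * l' / k)) ≤ C₁ * C₂ * (8 * Q) := mul_le_mul_of_nonneg_left (by linarith) (by positivity)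
  have b8 : C₁ * C₂ / N * (4 * A) ≤ 1 / 2048 * (4 * A) := mul_le_mul_of_nonneg_right b6 (by positivity)
  have b9 := mul_le_mul_of_nonneg_left b1 (sq_nonneg (g j (i.1, i.2)))
  rw [hgij]
  linarith

/-- `ker_O1` and `dB ≤ l ≤ ρ` give `KB` with `A₀ = C ρ²`; iterate `KB_step`: `KB (2C + A₀ / 2^k)`, let `k → ∞` -/
theorem ker_bound' (n : ℕ) : ∃ (C : ℝ) (K : ℕ), ∀ (E : Finset Edge) (ρ : ℝ) (S : Finset Site) (g : HE → HE → ℝ),
    Reg ↑E ρ → S.card ≤ n → IsKer (wOf ↑E S) g → ∀ (l : ℕ) (i j : HE), 1 ≤ l → (K * (l + K) : ℝ) ≤ ρ →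
    l ≤ supd i.1 j.1 + 1 → g i j ^ 2 * (dB S l i.1 * dB S l j.1) ≤ C ^ 2 := by
  obtain ⟨C₀, hC₀, h₀⟩ := ker_O1
  obtain ⟨C, K, hC, hK, h⟩ := KB_step n
  refine ⟨2 * C + 1, K, fun E ρ S g hE hS hg l i j hl hρ hij => ?_⟩
  have hA : 0 ≤ C₀ * ρ ^ 2 := by positivity
  have hKr : (1 : ℝ) ≤ K := by exact_mod_cast hK
  have b0 : KB S g ρ K (C₀ * ρ ^ 2) := fun l i j hl hρ _ => by
    have a1 : (l : ℝ) ≤ ρ := by nlinarith [Nat.cast_nonneg (α := ℝ) l]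
    have di0 : 0 ≤ dB S l i.1 := le_trans zero_le_one (one_le_dB S hl _)
    have dj0 : 0 ≤ dB S l j.1 := le_trans zero_le_one (one_le_dB S hl _)
    have a2 := mul_le_mul ((dB_le S l i.1).trans a1) ((dB_le S l j.1).trans a1) dj0 (le_trans (Nat.cast_nonneg l) a1)
    have a3 := mul_le_mul (h₀ E ρ S g hE hg i j) a2 (mul_nonneg di0 dj0) hC₀
    nlinarith
  have b1 : ∀ k : ℕ, KB S g ρ K (2 * C + C₀ * ρ ^ 2 * (1 / 2) ^ k) := by
    intro k
    induction k with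
    | zero => exact fun l i j hl hρ hij => (b0 l i j hl hρ hij).trans (by simp; positivity)
    | succ k ih =>
      have := h E ρ S g _ hE hS hg (by positivity) ih
      exact fun l i j hl hρ hij => (this l i j hl hρ hij).trans (le_of_eq (by ring))
  have b2 : Filter.Tendsto (fun k : ℕ => 2 * C + C₀ * ρ ^ 2 * (1 / 2 : ℝ) ^ k) Filter.atTop (nhds (2 * C + C₀ * ρ ^ 2 * 0)) :=
    ((tendsto_pow_atTop_nhds_zero_of_lt_one (by norm_num) (by norm_num)).const_mul _).const_add _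
  have b3 := ge_of_tendsto' b2 fun k => b1 k l i j hl hρ hij
  nlinarith

end Crest.Agent.R165.B3
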