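import Crest.Agent.R165.B3.Site
import Crest.Agent.R165.B3.Sum

/-! # R165/B3: uniqueness and existence of kernels for finite `E` -/

set_option autoImplicit false
noncomputable section
open Classical

namespace Crest.Agent.R165.B3

/-- the ends of the edges of `E`, and `z` -/
def uniqF (E : Finset Edge) (z : Site) : Finset Site := insert z (E.image (·.1) ∪ E.image fun e => e.1 + uv e.2)

theorem uniq_mem {E : Finset Edge} (z : Site) {x : Site} {α : Fin 4} (h : edgeOf x α ∈ E) :
    x ∈ uniqF E z ∧ x + dv α ∈ uniqF E z := by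
  have h0 : (edgeOf x α).1 ∈ uniqF E z :=
    Finset.mem_insert_of_mem (Finset.mem_union_left _ (Finset.mem_image_of_mem _ h))
  have h1 : (edgeOf x α).1 + uv (edgeOf x α).2 ∈ uniqF E z :=
    Finset.mem_insert_of_mem (Finset.mem_union_right _ (Finset.mem_image_of_mem (fun e : Edge => e.1 + uv e.2) h))
  obtain ⟨a, b⟩ := x
  induction α using b1_fin4 with
  | h0 => rw [edgeOf_0] at h0 h1; rw [add_uv_0] at h1; rw [add_dv_0]; exact ⟨h0, h1⟩
  | h1 => rw [edgeOf_1] at h0 h1; rw [add_uv_1] at h1; rw [add_dv_1]; exact ⟨h0, h1⟩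
  | h2 => rw [edgeOf_2] at h0 h1; rw [add_uv_0, sub_add_cancel] at h1; rw [add_dv_2]; exact ⟨h1, h0⟩
  | h3 => rw [edgeOf_3] at h0 h1; rw [add_uv_1, sub_add_cancel] at h1; rw [add_dv_3]; exact ⟨h1, h0⟩

/-- `exists_H_box` on a box `box 0 (R + 2)` with the support of `s` and the ends of all edges of `E` in `box 0 R`;
`sum_lapN_zero` on `box 0 (R + 1)` and `lapN_nonneg` give `lapN = 0`. Take `x` with `s (x, ·) ≠ 0` and maximal first coordinate:
`opp s x 0 = 0`; `s (x, 0) = 0` from `lapN_ge'` if `edgeOf x 0 ∉ E`, from the equation at `(x + dv 0, 2)` otherwise; `site_zero`. -/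
theorem sol_unique' (E : Finset Edge) (S : Finset Site) {s : Fn}
    (hs : SolOn (wOf ↑E S) Set.univ s) (hf : (Function.support s).Finite) : s = 0 := by
  obtain ⟨Hw, Hb, hH⟩ := exists_H_rect (w := wOf ↑E S) (s := s) (I := Set.univ) (J := Set.univ) Set.ordConnected_univ
    (Set.mem_univ 0) fun a b _ _ => cornerOK_of_sol (hs _ trivial)
  have hH' : IsH (wOf ↑E S) s Set.univ Hw Hb := fun x _ α => hH x trivial trivial α
  have hW : ∀ x, WInc (wOf ↑E S) s Hw x := fun x => winc_of_sol hH' hs (Set.subset_univ _)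
  have hp : ∀ x, SolOn (wOf ↑E S) {x} s := fun x => SolOn.pt hs trivial
  have h0 : ∀ x, lapN ↑E Hw x = 0 := fun x =>
    (Finset.sum_eq_zero_iff_of_nonneg fun y _ => lapN_nonneg (hp y) (hW y)).1
      (sum_lapN_zero ↑E Hw (uniqF E x) fun y _ α h => (uniq_mem x h).2) x (Finset.mem_insert_self _ _)
  by_contra hne
  obtain ⟨⟨⟨a, b⟩, β⟩, hi, hmax⟩ := hf.exists_maximalFor (fun i : HE => i.1.1) _ (Function.support_nonempty_iff.2 hne)
  have hz : ∀ γ, s ((a + 1, b), γ) = 0 := fun γ => by
    by_contra h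
    have := hmax (j := ((a + 1, b), γ)) h (by simp)
    simp at this
  refine hi (site_zero (hp _) (hW _) (h0 _).le (α := 0) ?_ (by rw [opp_0, hz, mul_zero]) β)
  by_cases he : edgeOf (a, b) 0 ∈ (↑E : Set Edge)
  · have h1 := hs (a + 1, b) trivial 2
    rw [opA_2, hz, hz, hz, edgeOf_2, opp_2, add_sub_cancel_right] at h1
    have h2 := wOf_sq ↑E S (edgeOf (a, b) 0)
    rw [if_pos he, edgeOf_0] at h2
    have h3 : wOf ↑E S ((a, b), 0) ≠ 0 := fun h => by
      rw [h] at h2
      nlinarith [tc_pos.1]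
    simpa [h3] using h1
  · have h1 := lapN_ge' (hp (a, b)) (hW _)
    rw [h0] at h1
    have h2 : s ((a, b), 0) ^ 2 ≤ frz ↑E s (a, b) := by
      have := Finset.single_le_sum (f := fun α : Fin 4 => if edgeOf (a, b) α ∈ (↑E : Set Edge) then 0 else s ((a, b), α) ^ 2)
        (fun α _ => by split_ifs <;> positivity) (Finset.mem_univ 0)
      rw [if_neg he] at this
      exact this.trans_eq (by unfold frz; congr!)
    have h3 := tc_sq_le
    have h4 : s ((a, b), 0) ^ 2 ≤ 0 := by nlinarith [sq_nonneg (s ((a, b), 0))]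
    exact pow_eq_zero_iff two_ne_zero |>.1 (le_antisymm h4 (sq_nonneg _))

/-- extension by zero -/
def uniqExt (F : Finset Site) : (F × Fin 4 → ℝ) →ₗ[ℝ] Fn where
  toFun f i := if h : i.1 ∈ F then f (⟨i.1, h⟩, i.2) else 0
  map_add' f g := by funext i; by_cases h : i.1 ∈ F <;> simp [h]
  map_smul' c f := by funext i; by_cases h : i.1 ∈ F <;> simp [h]

theorem uniqExt_fin (F : Finset Site) (f : F × Fin 4 → ℝ) : (Function.support (uniqExt F f)).Finite := by
  refine (F ×ˢ (Finset.univ : Finset (Fin 4))).finite_toSet.subset fun i hi => ?_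
  by_contra h
  have h' : i.1 ∉ F := fun h' => h (by simpa using h')
  exact hi (dif_neg h')

theorem uniqExt_out {E : Finset Edge} (S : Finset Site) {z x : Site} (hx : x ∉ uniqF E z) (f : uniqF E z × Fin 4 → ℝ)
    (α : Fin 4) : opA (wOf ↑E S) (uniqExt _ f) (x, α) = 0 := by
  have h1 : (fun β => uniqExt _ f (x, β)) = 0 := funext fun β => dif_neg hx
  rw [opA_eq, wOf_not_mem S (fun h => hx (uniq_mem z h).1), zero_mul, add_zero, h1]
  induction α using b1_fin4 <;> simp [A0]

/-- for a finite set `F` of sites containing `k.1` and both ends of the edges of `E`, `opA` maps the functions supported in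
`F × Fin 4` to themselves (`opA_eq`, `wOf_not_mem`); injective (`sol_unique'`), hence surjective
(`LinearMap.injective_iff_surjective` on `F × Fin 4 → ℝ`, extension by zero) -/
theorem exists_row (E : Finset Edge) (S : Finset Site) (k : HE) :
    ∃ s : Fn, (Function.support s).Finite ∧ ∀ i, opA (wOf ↑E S) s i = if i = k then 1 else 0 := by
  let F := uniqF E k.1
  let T : (F × Fin 4 → ℝ) →ₗ[ℝ] (F × Fin 4 → ℝ) :=
    { toFun := fun f p => opA (wOf ↑E S) (uniqExt F f) (p.1, p.2)
      map_add' := fun f g => funext fun p => by rw [map_add, opA_add]; rfl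
      map_smul' := fun c f => funext fun p => by rw [map_smul, opA_smul]; rfl }
  have hi : Function.Injective T := by
    rw [injective_iff_map_eq_zero]
    intro f hf
    have h1 : uniqExt F f = 0 := by
      refine sol_unique' E S (fun x _ α => ?_) (uniqExt_fin F f)
      by_cases hx : x ∈ F
      · exact congrFun hf (⟨x, hx⟩, α)
      · exact uniqExt_out S hx f α
    funext p
    exact (dif_pos p.1.2).symm.trans (congrFun h1 (p.1, p.2))
  obtain ⟨f, hf⟩ := LinearMap.injective_iff_surjective.1 hi fun p => if ((p.1 : Site), p.2) = k then 1 else 0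
  refine ⟨uniqExt F f, uniqExt_fin F f, fun ⟨x, α⟩ => ?_⟩
  by_cases hx : x ∈ F
  · exact congrFun hf (⟨x, hx⟩, α)
  · rw [uniqExt_out S hx f α, if_neg]
    rintro rfl
    exact hx (Finset.mem_insert_self _ _)

/-- antisymmetry from `opA_antisym` -/
theorem exists_ker' (E : Finset Edge) (S : Finset Site) : ∃ g, IsKer (wOf ↑E S) g ∧ FinRow g := by
  choose g hf hg using exists_row E S
  refine ⟨g, ⟨fun i j => ?_, hg⟩, hf⟩
  have h := opA_antisym (wOf ↑E S) (g j) (g i) (hf j)
  rw [finsum_eq_single _ i fun l hl => by rw [hg, if_neg hl, mul_zero],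
    finsum_eq_single _ j fun l hl => by rw [hg, if_neg hl, zero_mul], hg, hg, if_pos rfl, if_pos rfl, mul_one, one_mul] at h
  exact h

end Crest.Agent.R165.B3
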