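import Crest.Agent.R165.B3.KerC
import Crest.Agent.R165.B3.Uniq
import Crest.Agent.R165.T.Main

/-! # R165/B3: limits of kernels -/

set_option autoImplicit false
noncomputable section
open Classical

namespace Crest.Agent.R165.B3

theorem lim_cont_sv (x : Site) (n : ℕ) : Continuous fun s : Fn => sv s x n := by
  unfold sv
  split_ifs
  · exact continuous_apply _
  · exact (continuous_apply _).neg

theorem lim_cont_opA (w : Edge → ℝ) (i : HE) : Continuous fun s : Fn => opA w s i :=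
  (((lim_cont_sv _ _).add (lim_cont_sv _ _)).add (lim_cont_sv _ _)).add (continuous_const.mul (lim_cont_sv _ _))

/-- fix `R ≥ supd j.1 i.1`; eventually `Crit (E k) (box i.1 (R+2))` and `K (R + 2 + K) ≤ ρ k`; `g k i - gPl i` solves the equation on
the box (`opA_sub`, `opA_congr`, `wOf E ∅ e = tc`), is `≤ C / (R + 2)` on the ring (`ker_bound' 0` with `l = R + 2`, `dB_empty`,
`gPl_bound`); `int_max` -/
theorem ker_tendsto_gPl' (E : ℕ → Finset Edge) (ρ : ℕ → ℝ) (g : ℕ → HE → HE → ℝ)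
    (hρ : Filter.Tendsto ρ Filter.atTop Filter.atTop) (hE : ∀ k, Reg ↑(E k) (ρ k)) (hg : ∀ k, IsKer (wOf ↑(E k) ∅) (g k))
    (hex : ∀ e, ∀ᶠ k in Filter.atTop, e ∈ E k) (i j : HE) :
    Filter.Tendsto (fun k => g k i j) Filter.atTop (nhds (gPl i j)) := by
  obtain ⟨C, K, hC⟩ := ker_bound' 0
  obtain ⟨C', hC'⟩ := gPl_bound
  refine Metric.tendsto_nhds.2 fun ε hε => ?_
  obtain ⟨R₀, hR₀⟩ := exists_nat_gt ((|C| + |C'|) / ε)
  set R : ℕ := R₀ + supd j.1 i.1 with hR
  have hpos : (0 : ℝ) < (R : ℝ) + 2 := by positivity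
  have hM : (|C| + |C'|) / ((R : ℝ) + 2) < ε := by
    rw [div_lt_iff₀ hpos]
    rw [div_lt_iff₀ hε] at hR₀
    have : (R₀ : ℝ) ≤ (R : ℝ) + 2 := by
      rw [hR]; push_cast
      have : (0 : ℝ) ≤ (supd j.1 i.1 : ℝ) := Nat.cast_nonneg _
      linarith
    nlinarith
  have h1 : ∀ᶠ k in Filter.atTop, ∀ x ∈ box i.1 (R + 2), ∀ α : Fin 4, edgeOf x α ∈ E k :=
    (Filter.eventually_all_finset _).2 fun x _ => Filter.eventually_all.2 fun α => hex _
  filter_upwards [h1, hρ.eventually_ge_atTop ((K : ℝ) * (((R + 2 : ℕ) : ℝ) + K))] with k hk1 hk2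
  have hcrit : Crit ↑(E k) (box i.1 (R + 2)) := fun x hx α => hk1 x hx α
  have hsol : SolOn (wOf ↑(E k) ∅) (box i.1 (R + 2)) (g k i - gPl i) := fun x hx α => by
    have e : wOf ↑(E k) ∅ (edgeOf x α) = wPl (edgeOf x α) := by
      have : edgeOf x α ∈ (↑(E k) : Set Edge) := hcrit x hx α
      simp [wOf, eray, wPl, this]
    rw [opA_sub, (hg k).2, opA_congr (gPl i) e, gPl_ker.2, sub_self]
  have hring : ∀ y, supd y i.1 = R + 1 → ∀ α, |(g k i - gPl i) (y, α)| ≤ (|C| + |C'|) / ((R : ℝ) + 2) := fun y hy α => by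
    have hy' : supd i.1 y = R + 1 := by rw [supd_comm, hy]
    have a1 := hC (E k) (ρ k) ∅ (g k) (hE k) (by simp) (hg k) (R + 2) i (y, α) (by omega) hk2 (by simp only [hy']; omega)
    have a2 := hC' i (y, α)
    rw [dB_empty, dB_empty] at a1
    simp only [hy'] at a2
    push_cast at a1 a2
    have a3 : |g k i (y, α)| ≤ |C| / ((R : ℝ) + 2) := by
      rw [le_div_iff₀ hpos, ← abs_of_pos hpos, ← abs_mul]
      exact sq_le_sq.1 (by nlinarith)
    have a4 : |gPl i (y, α)| ≤ |C'| / ((R : ℝ) + 2) := by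
      refine a2.trans ?_
      rw [show (R : ℝ) + 1 + 1 = R + 2 by ring]
      exact div_le_div_of_nonneg_right (le_abs_self _) hpos.le
    rw [Pi.sub_apply, add_div]
    exact (abs_sub _ _).trans (add_le_add a3 a4)
  have := int_max hcrit (by simp) hsol hring j.1 (mem_box.2 (by omega)) j.2
  rw [Real.dist_eq]
  exact lt_of_le_of_lt this hM

/-- `reg_ball` with `a = 1`, `R = M₀ + k + 1` (`nice_ball`, `Nice.sites_finite`, `ePlus_finite`) -/
theorem exists_exhaust : ∃ (E : ℕ → Finset Edge) (ρ : ℕ → ℝ), Filter.Tendsto ρ Filter.atTop Filter.atTop ∧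
    (∀ k, Reg ↑(E k) (ρ k)) ∧ ∀ e, ∀ᶠ k in Filter.atTop, e ∈ E k := by
  obtain ⟨c, hc, M₀, hM⟩ := reg_ball
  have hpos : ∀ k : ℕ, (0 : ℝ) < |M₀| + 1 + k := fun k => by positivity
  have ht : Filter.Tendsto (fun k : ℕ => |M₀| + 1 + (k : ℝ)) Filter.atTop Filter.atTop :=
    Filter.tendsto_atTop_add_const_left _ _ tendsto_natCast_atTop_atTop
  refine ⟨fun k => (ePlus_finite ((nice_ball (hpos k)).sites_finite one_pos)).toFinset,
    fun k => c * ((|M₀| + 1 + k) / 1), ?_, fun k => ?_, fun e => ?_⟩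
  · simp only [div_one]
    exact ht.const_mul_atTop hc
  · rw [Set.Finite.coe_toFinset]
    refine (hM 1 _ one_pos ?_).1
    rw [div_one]
    have : (0 : ℝ) ≤ k := Nat.cast_nonneg _
    linarith [le_abs_self M₀]
  · filter_upwards [ht.eventually_gt_atTop ‖Crest.ProbabilityR.IsingModel.meshPoint 1 (edgeB1 e)‖] with k hk
    rw [Set.Finite.mem_toFinset]
    exact Or.inr (mem_ball_zero_iff.2 hk)

/-- `exists_exhaust`, `exists_ker'`, `ker_O1`; limit along the ultrafilter `Filter.hyperfilter ℕ`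
(`IsCompact.ultrafilter_le_nhds` on `Icc`), `opA_eq` passes to the limit, `ker_bound' 1` + `le_of_tendsto` -/
theorem exists_gBr' : ∃ (g : HE → HE → ℝ) (C : ℝ), IsKer (wOf Set.univ {0}) g ∧
    ∀ (l : ℕ) (i j : HE), 1 ≤ l → l ≤ supd i.1 j.1 + 1 → g i j ^ 2 * (dB {0} l i.1 * dB {0} l j.1) ≤ C ^ 2 := by
  obtain ⟨E, ρ, hρ, hE, hex⟩ := exists_exhaust
  choose g hg _ using fun k => exists_ker' (E k) {0}
  obtain ⟨C₀, hC₀, hO⟩ := ker_O1
  obtain ⟨C, K, hC⟩ := ker_bound' 1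
  have hU : (↑(Filter.hyperfilter ℕ) : Filter ℕ) ≤ Filter.atTop := Nat.hyperfilter_le_atTop
  have hlim : ∀ i j, ∃ x, Filter.Tendsto (fun k => g k i j) ↑(Filter.hyperfilter ℕ) (nhds x) := fun i j => by
    obtain ⟨x, -, hx⟩ := (isCompact_Icc (a := -(C₀ + 1)) (b := C₀ + 1)).ultrafilter_le_nhds
      ((Filter.hyperfilter ℕ).map fun k => g k i j) (by
        rw [Ultrafilter.coe_map, Filter.le_principal_iff, Filter.mem_map]
        refine Filter.Eventually.of_forall fun k => ?_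
        have := hO (E k) (ρ k) {0} (g k) (hE k) (hg k) i j
        exact abs_le.1 (abs_le_of_sq_le_sq' (by nlinarith) (by positivity) |> abs_le.2))
    exact ⟨x, hx⟩
  choose G hG using hlim
  refine ⟨G, C, ⟨fun i j => ?_, fun k i => ?_⟩, fun l i j hl hl' => ?_⟩
  · refine tendsto_nhds_unique (hG j i) ?_
    simpa only [(hg _).1 i j] using (hG i j).neg
  · obtain ⟨x, α⟩ := i
    have h1 : Filter.Tendsto (fun n => opA (wOf Set.univ {0}) (g n k) (x, α)) ↑(Filter.hyperfilter ℕ)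
        (nhds (opA (wOf Set.univ {0}) (G k) (x, α))) :=
      ((lim_cont_opA _ _).tendsto _).comp (tendsto_pi_nhds.2 (hG k))
    refine tendsto_nhds_unique h1 (tendsto_const_nhds.congr' ?_)
    filter_upwards [hU (hex (edgeOf x α))] with n hn
    have e : wOf Set.univ {0} (edgeOf x α) = wOf ↑(E n) {0} (edgeOf x α) := by
      have : edgeOf x α ∈ (↑(E n) : Set Edge) := hn
      simp only [wOf, this, Set.mem_univ, if_true]
    rw [opA_congr (g n k) e, (hg n).2]
  · refine le_of_tendsto (((hG i j).pow 2).mul_const _) ?_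
    filter_upwards [hU (hρ.eventually_ge_atTop ((K : ℝ) * ((l : ℝ) + K)))] with n hn
    exact hC (E n) (ρ n) {0} (g n) (hE n) (by simp) (hg n) l i j hl hn hl'

end Crest.Agent.R165.B3
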