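import Crest.Agent.R165.B3.DB

/-! # R165/B3: local definitions and trivial API

`A0` is the site matrix: `opA w s (x, α) = A0 (s (x, ·)) α + w (edgeOf x α) * opp s x α`.
With `T` the antiperiodic shift and `U = T + T⁻¹` (`U² = 2`): `A0 = T² (1 + U)`,
`|A0 s|² - tc² |s|² = |(√2 + U) s|² / √2 ≥ 0`. -/

set_option autoImplicit false
noncomputable section
open Classical

namespace Crest.Agent.R165.B3

def A0 (s : Fin 4 → ℝ) : Fin 4 → ℝ := ![s 1 + s 2 + s 3, -s 0 + s 2 + s 3, -s 0 - s 1 + s 3, -s 0 - s 1 - s 2]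

/-- the two values at every corner of `x` agree up to sign -/
def CC (w : Edge → ℝ) (s : Fn) (x : Site) : Prop :=
  ∀ α : Fin 4, cP w s x α ^ 2 = (cP w s x (α + 1) - 2 * s (x, α + 1)) ^ 2

/-- the white increments of `Hw` at `x` -/
def WInc (w : Edge → ℝ) (s : Fn) (Hw : Site → ℝ) (x : Site) : Prop :=
  ∀ α : Fin 4, Hw (x + dv α) - Hw x = (1 - w (edgeOf x α) ^ 2) * (opp s x α ^ 2 - s (x, α) ^ 2)

/-- squares on the frozen half-edges -/
def frz (E : Set Edge) (s : Fn) (x : Site) : ℝ := ∑ α : Fin 4, if edgeOf x α ∈ E then 0 else s (x, α) ^ 2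

def grd (H : Site → ℝ) (x : Site) : ℝ := ∑ α : Fin 4, |H (x + dv α) - H x|

/-- `L¹` Morrey bound for the gradient inside `W` -/
def Mor (H : Site → ℝ) (W : Set Site) (m : ℝ) : Prop :=
  ∀ (p : Site) (R : ℕ), 1 ≤ R → (↑(box p (R + 1)) : Set Site) ⊆ W → ∑ y ∈ box p R, grd H y ≤ R * m

theorem opA_eq (w : Edge → ℝ) (s : Fn) (x : Site) (α : Fin 4) :
    opA w s (x, α) = A0 (fun β => s (x, β)) α + w (edgeOf x α) * opp s x α := by
  induction α using b1_fin4
  · rw [opA_0]; simp [A0]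
  · rw [opA_1]; simp [A0]; ring
  · rw [opA_2]; simp [A0]; ring
  · rw [opA_3]; simp [A0]

theorem opA_add (w : Edge → ℝ) (s s' : Fn) (i : HE) : opA w (s + s') i = opA w s i + opA w s' i := by
  obtain ⟨⟨a, b⟩, α⟩ := i
  induction α using b1_fin4 <;>
    simp only [opA_0, opA_1, opA_2, opA_3, opp_0, opp_1, opp_2, opp_3, Pi.add_apply] <;> ring

theorem opA_sub (w : Edge → ℝ) (s s' : Fn) (i : HE) : opA w (s - s') i = opA w s i - opA w s' i := by
  obtain ⟨⟨a, b⟩, α⟩ := i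
  induction α using b1_fin4 <;>
    simp only [opA_0, opA_1, opA_2, opA_3, opp_0, opp_1, opp_2, opp_3, Pi.sub_apply] <;> ring

theorem opA_smul (w : Edge → ℝ) (c : ℝ) (s : Fn) (i : HE) : opA w (c • s) i = c * opA w s i := by
  obtain ⟨⟨a, b⟩, α⟩ := i
  induction α using b1_fin4 <;>
    simp only [opA_0, opA_1, opA_2, opA_3, opp_0, opp_1, opp_2, opp_3, Pi.smul_apply, smul_eq_mul] <;> ring

theorem opA_congr {w w' : Edge → ℝ} (s : Fn) {x : Site} {α : Fin 4} (h : w (edgeOf x α) = w' (edgeOf x α)) :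
    opA w s (x, α) = opA w' s (x, α) := by
  rw [opA_eq, opA_eq, h]

theorem opA_kC {w : Edge → ℝ} {g : HE → HE → ℝ} (hg : IsKer w g) (z : Site) (α : Fin 4) (x : Site) (β : Fin 4) :
    opA w (kC g z α) (x, β) = if x = z then vC α β else 0 := by
  exact R165.opA_kC hg z α x β

/-- `g (z, β) = kC β - kC (β - 1)` for `β ≠ 0`, `g (z, 0) = kC 0 + kC 3` -/
theorem row_sq_le {g : HE → HE → ℝ} {z : Site} {j : HE} {M : ℝ} (h : ∀ α, kC g z α j ^ 2 ≤ M) (β : Fin 4) :
    g (z, β) j ^ 2 ≤ 4 * M := by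
  have h0 := h 0
  have h1 := h 1
  have h2 := h 2
  have h3 := h 3
  simp [kC, vC, Fin.sum_univ_four] at h0 h1 h2 h3
  have key : ∀ u v : ℝ, u ^ 2 ≤ M → v ^ 2 ≤ M → ∀ t, (t = u - v ∨ t = u + v) → t ^ 2 ≤ 4 * M := by
    rintro u v hu hv t (rfl | rfl) <;> nlinarith [sq_nonneg (u + v), sq_nonneg (u - v)]
  induction β using b1_fin4
  · exact key _ _ h0 h3 _ (Or.inr (by ring))
  · exact key _ _ h1 h0 _ (Or.inl (by ring))
  · exact key _ _ h2 h1 _ (Or.inl (by ring))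
  · exact key _ _ h3 h2 _ (Or.inl (by ring))

theorem SolOn.mono {w : Edge → ℝ} {W W' : Set Site} {s : Fn} (h : SolOn w W s) (hW : W' ⊆ W) : SolOn w W' s :=
  fun x hx => h x (hW hx)

theorem SolOn.pt {w : Edge → ℝ} {W : Set Site} {s : Fn} (h : SolOn w W s) {x : Site} (hx : x ∈ W) : SolOn w {x} s :=
  fun y hy => by rw [Set.mem_singleton_iff.1 hy]; exact h x hx

theorem IsH.mono {w : Edge → ℝ} {W W' : Set Site} {s : Fn} {Hw Hb : Site → ℝ} (h : IsH w s W Hw Hb) (hW : W' ⊆ W) :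
    IsH w s W' Hw Hb := fun x hx => h x (hW hx)

theorem IsH.sub_const {w : Edge → ℝ} {W : Set Site} {s : Fn} {Hw Hb : Site → ℝ} (h : IsH w s W Hw Hb) (c : ℝ) :
    IsH w s W (fun y => Hw y - c) (fun y => Hb y - c) := fun x hx α => by
  have := h x hx α; simp only; linarith

theorem Crit.mono {E : Set Edge} {W W' : Set Site} (h : Crit E W) (hW : W' ⊆ W) : Crit E W' :=
  fun x hx => h x (hW hx)

theorem Mor.mono {H : Site → ℝ} {W W' : Set Site} {m m' : ℝ} (h : Mor H W m) (hW : W' ⊆ W) (hm : m ≤ m') :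
    Mor H W' m' := by
  intro p R hR hb
  exact (h p R hR (hb.trans hW)).trans (mul_le_mul_of_nonneg_left hm (Nat.cast_nonneg _))

theorem Mor.congr {H H' : Site → ℝ} {W : Set Site} {m : ℝ} (h : Mor H W m) (c : ℝ) (hH : ∀ y ∈ W, H' y = H y - c) :
    Mor H' W m := by
  intro p R hR hb
  refine le_trans (le_of_eq (Finset.sum_congr rfl fun y hy => ?_)) (h p R hR hb)
  unfold grd
  refine Finset.sum_congr rfl fun α _ => ?_
  rw [hH _ (hb (Finset.mem_coe.2 (add_dv_mem_box hy α))),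
    hH _ (hb (Finset.mem_coe.2 (R165.box_mono p R.le_succ hy)))]
  congr 1; ring

theorem grd_nonneg (H : Site → ℝ) (x : Site) : 0 ≤ grd H x := by
  exact Finset.sum_nonneg fun _ _ => abs_nonneg _

theorem frz_nonneg (E : Set Edge) (s : Fn) (x : Site) : 0 ≤ frz E s x := by
  exact Finset.sum_nonneg fun _ _ => by split_ifs <;> positivity

/-- `p = x`, `R = 1` -/
theorem Mor.pt {H : Site → ℝ} {W : Set Site} {m : ℝ} (h : Mor H W m) {x : Site} (hx : (↑(box x 2) : Set Site) ⊆ W) :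
    grd H x ≤ m := by
  have h1 := h x 1 le_rfl hx
  have h2 := Finset.single_le_sum (f := grd H) (fun y _ => grd_nonneg H y) (self_mem_box x 1)
  simp only [Nat.cast_one, one_mul] at h1
  exact h2.trans h1

theorem grd_le_of_abs {H : Site → ℝ} {x : Site} {δ : ℝ} (h : ∀ y ∈ box x 1, |H y| ≤ δ) : grd H x ≤ 8 * δ := by
  have h0 := h x (self_mem_box x 1)
  refine (Finset.sum_le_card_nsmul _ _ (2 * δ) fun α _ => ?_).trans (by simp; linarith)
  have h1 := h _ (b1_add_dv_mem_box x α)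
  have := abs_sub (H (x + dv α)) (H x)
  linarith

theorem lapN_le_grd (E : Set Edge) (H : Site → ℝ) (x : Site) : |lapN E H x| ≤ grd H x := by
  refine (Finset.abs_sum_le_sum_abs _ _).trans (Finset.sum_le_sum fun α _ => ?_)
  split_ifs
  · exact le_rfl
  · rw [abs_zero]; exact abs_nonneg _

theorem lapN_crit {E : Set Edge} {x : Site} (h : ∀ α, edgeOf x α ∈ E) (H : Site → ℝ) : lapN E H x = lap H x := by
  exact Finset.sum_congr rfl fun α _ => if_pos (h α)

theorem wOf_sq (E : Set Edge) (S : Finset Site) (e : Edge) : wOf E S e ^ 2 = if e ∈ E then tc ^ 2 else 0 := by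
  split_ifs with h
  · exact R165.wOf_sq S h
  · rw [wOf, if_neg h]; ring

theorem wOf_not_mem {E : Set Edge} (S : Finset Site) {e : Edge} (h : e ∉ E) : wOf E S e = 0 := by
  rw [wOf, if_neg h]

theorem tc_sq_le : tc ^ 2 ≤ 1 / 2 := by
  have h1 := tc_sq
  have h2 := tc_pos
  nlinarith

end Crest.Agent.R165.B3
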