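import Crest.Agent.R165.B3.Site

/-! # R165/B3: the barrier function, maximum principle with killing -/

set_option autoImplicit false
noncomputable section
open Classical

namespace Crest.Agent.R165.B3

def phi (c : ℂ) (ρ : ℝ) (y : Site) : ℝ := 1 - ρ ^ 2 / dist (toC y) c ^ 2

theorem phi_sq (c : ℂ) (y : Site) : dist (toC y) c ^ 2 = (y.1 - c.re) ^ 2 + (y.2 - c.im) ^ 2 := by
  rw [Complex.dist_eq_re_im, Real.sq_sqrt (by positivity)]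
  rfl

theorem phi_aux {M a : ℝ} (h1 : 0 < M + 2 * a) (h2 : 0 < M - 2 * a) :
    2 / M + 8 * a ^ 2 / M ^ 3 ≤ 1 / (M + 2 * a) + 1 / (M - 2 * a) := by
  have hM : 0 < M := by linarith
  have : 1 / (M + 2 * a) + 1 / (M - 2 * a) - (2 / M + 8 * a ^ 2 / M ^ 3) =
      32 * a ^ 4 / (M ^ 3 * (M + 2 * a) * (M - 2 * a)) := by
    field_simp
    ring
  have h3 : 0 ≤ 32 * a ^ 4 / (M ^ 3 * (M + 2 * a) * (M - 2 * a)) := by positivity
  linarith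

/-- with `N = |y - c|² ≥ 4`, `(a, b) = y - c`: `|y ± e₁ - c|² = N + 1 ± 2a`,
`1/(N+1+2a) + 1/(N+1-2a) ≥ 2/(N+1) + 8a²/(N+1)³`, and `4/(N+1) + 8N/(N+1)³ ≥ 4/N` -/
theorem phi_super (c : ℂ) (ρ : ℝ) {y : Site} (h : 2 ≤ dist (toC y) c) : lap (phi c ρ) y ≤ 0 := by
  have hN : 4 ≤ (y.1 - c.re) ^ 2 + (y.2 - c.im) ^ 2 := by
    rw [← phi_sq]
    nlinarith
  simp only [lap, Fin.sum_univ_four, phi, add_dv0, add_dv1, add_dv2, add_dv3, phi_sq]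
  push_cast
  have e : ∀ p r : ℝ, p + 1 - r = p - r + 1 ∧ p - 1 - r = p - r - 1 := fun p r => ⟨by ring, by ring⟩
  simp only [e]
  generalize (y.1 : ℝ) - c.re = a at hN ⊢
  generalize (y.2 : ℝ) - c.im = b at hN ⊢
  have h1 := phi_aux (M := a ^ 2 + b ^ 2 + 1) (a := a) (by nlinarith [sq_nonneg (a + 2)]) (by nlinarith [sq_nonneg (a - 2)])
  have h2 := phi_aux (M := a ^ 2 + b ^ 2 + 1) (a := b) (by nlinarith [sq_nonneg (b + 2)]) (by nlinarith [sq_nonneg (b - 2)])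
  rw [show (a + 1) ^ 2 + b ^ 2 = a ^ 2 + b ^ 2 + 1 + 2 * a by ring,
    show (a - 1) ^ 2 + b ^ 2 = a ^ 2 + b ^ 2 + 1 - 2 * a by ring,
    show a ^ 2 + (b + 1) ^ 2 = a ^ 2 + b ^ 2 + 1 + 2 * b by ring,
    show a ^ 2 + (b - 1) ^ 2 = a ^ 2 + b ^ 2 + 1 - 2 * b by ring]
  have h3 : 4 * (1 / (a ^ 2 + b ^ 2)) ≤ 2 / (a ^ 2 + b ^ 2 + 1) + 8 * a ^ 2 / (a ^ 2 + b ^ 2 + 1) ^ 3 +
      (2 / (a ^ 2 + b ^ 2 + 1) + 8 * b ^ 2 / (a ^ 2 + b ^ 2 + 1) ^ 3) := by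
    rw [show ∀ M : ℝ, 2 / M + 8 * a ^ 2 / M ^ 3 + (2 / M + 8 * b ^ 2 / M ^ 3) = 4 / M + 8 * (a ^ 2 + b ^ 2) / M ^ 3 from
      fun M => by ring]
    generalize a ^ 2 + b ^ 2 = N at hN
    have hN0 : 0 < N := by linarith
    have : 4 / (N + 1) + 8 * N / (N + 1) ^ 3 - 4 * (1 / N) = 4 * (N ^ 2 - 2 * N - 1) / (N * (N + 1) ^ 3) := by
      field_simp
      ring
    have h4 : 0 ≤ N ^ 2 - 2 * N - 1 := by nlinarith
    have h5 : 0 ≤ 4 * (N ^ 2 - 2 * N - 1) / (N * (N + 1) ^ 3) := by positivity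
    linarith
  have h4 := mul_le_mul_of_nonneg_left (h3.trans (add_le_add h1 h2)) (sq_nonneg ρ)
  simp only [div_eq_mul_inv, one_mul] at h4 ⊢
  linarith

theorem phi_nonneg {c : ℂ} {ρ : ℝ} {y : Site} (hρ : 0 < ρ) (h : ρ ≤ dist (toC y) c) : 0 ≤ phi c ρ y := by
  have h1 : ρ ^ 2 / dist (toC y) c ^ 2 ≤ 1 := div_le_one_of_le₀ (by gcongr) (by positivity)
  simp only [phi]
  linarith

theorem phi_far {c : ℂ} {ρ : ℝ} {y : Site} (hρ : 0 < ρ) (h : 2 * ρ ≤ dist (toC y) c) : 3 / 4 ≤ phi c ρ y := by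
  have h0 : 0 < dist (toC y) c := by linarith
  have h1 : ρ ^ 2 / dist (toC y) c ^ 2 ≤ 1 / 4 := by
    rw [div_le_iff₀ (by positivity)]
    nlinarith
  simp only [phi]
  linarith

theorem phi_le {c : ℂ} {ρ : ℝ} {y : Site} (hρ : 0 < ρ) (h : ρ ≤ dist (toC y) c) :
    phi c ρ y ≤ 2 * (dist (toC y) c - ρ) / ρ := by
  have h0 : 0 < dist (toC y) c := by linarith
  simp only [phi]
  generalize dist (toC y) c = d at h h0
  have : 2 * (d - ρ) / ρ - (1 - ρ ^ 2 / d ^ 2) = (d - ρ) * ((d - ρ) * (2 * d + ρ)) / (ρ * d ^ 2) := by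
    field_simp
    ring
  have h2 : 0 ≤ (d - ρ) * ((d - ρ) * (2 * d + ρ)) / (ρ * d ^ 2) := by
    have := sub_nonneg.2 h
    positivity
  linarith

/-- `|ρ²(N' - N)/(N N')| ≤ ρ² (d + d')/(d² d'²)` since `|d - d'| ≤ 1` -/
theorem phi_grad {c : ℂ} {ρ : ℝ} {y : Site} {α : Fin 4} (hρ : 0 < ρ) (h : ρ ≤ dist (toC y) c)
    (h' : ρ ≤ dist (toC (y + dv α)) c) : |phi c ρ (y + dv α) - phi c ρ y| ≤ 2 / ρ := by
  have h1 : |dist (toC (y + dv α)) c - dist (toC y) c| ≤ 1 :=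
    (abs_dist_sub_le _ _ _).trans_eq (dist_toC_dv y α)
  simp only [phi]
  generalize dist (toC y) c = d at h h1
  generalize dist (toC (y + dv α)) c = e at h' h1
  have hd : 0 < d := by linarith
  have he : 0 < e := by linarith
  have h2 : 1 - ρ ^ 2 / e ^ 2 - (1 - ρ ^ 2 / d ^ 2) = (e - d) * (ρ ^ 2 / (e * d ^ 2) + ρ ^ 2 / (e ^ 2 * d)) := by
    field_simp
    ring
  have h3 : ρ ^ 2 / (e * d ^ 2) ≤ ρ ^ 2 / (ρ * ρ ^ 2) := by gcongr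
  have h4 : ρ ^ 2 / (e ^ 2 * d) ≤ ρ ^ 2 / (ρ ^ 2 * ρ) := by gcongr
  have h5 : ρ ^ 2 / (ρ * ρ ^ 2) + ρ ^ 2 / (ρ ^ 2 * ρ) = 2 / ρ := by
    field_simp
    ring
  rw [h2, abs_mul, abs_of_nonneg (a := _ + _) (by positivity)]
  exact (mul_le_of_le_one_left (by positivity) h1).trans (by linarith)

/-- maximum principle with killing: among the maximisers of `D` on `W` take one with the largest first coordinate -/
theorem maxN (E : Set Edge) (W : Finset Site) (D : Site → ℝ)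
    (hin : ∀ x ∈ W, 0 < D x → ((∀ α, edgeOf x α ∈ E) ∧ 0 ≤ lapN E D x) ∨ 0 < lapN E D x)
    (hout : ∀ x ∈ W, ∀ α, edgeOf x α ∈ E → x + dv α ∉ W → D (x + dv α) ≤ 0) : ∀ x ∈ W, D x ≤ 0 := by
  intro x₀ hx₀
  by_contra hc
  obtain ⟨x₁, hx₁, h₁⟩ := W.exists_max_image D ⟨x₀, hx₀⟩
  obtain ⟨x, hx, h₂⟩ := (W.filter fun x => D x = D x₁).exists_max_image Prod.fst ⟨x₁, by simp [hx₁]⟩
  obtain ⟨hxW, hx'⟩ := Finset.mem_filter.1 hx
  have hpos : 0 < D x := hx' ▸ (not_le.1 hc).trans_le (h₁ x₀ hx₀)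
  have h3 : ∀ α ∈ (Finset.univ : Finset (Fin 4)), (if edgeOf x α ∈ E then D (x + dv α) - D x else 0) ≤ 0 := fun α _ => by
    split_ifs with h
    · by_cases h' : x + dv α ∈ W
      · linarith [h₁ _ h']
      · linarith [hout x hxW α h h']
    · rfl
  have h4 : lapN E D x ≤ 0 := Finset.sum_nonpos h3
  rcases hin x hxW hpos with ⟨h5, h6⟩ | h5
  · have h7 := (Finset.sum_eq_zero_iff_of_nonpos h3).1 (le_antisymm h4 h6) 0 (Finset.mem_univ _)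
    rw [if_pos (h5 0), sub_eq_zero] at h7
    have h8 : x + dv 0 ∈ W := by_contra fun h => by linarith [hout x hxW 0 (h5 0) h]
    have := h₂ _ (Finset.mem_filter.2 ⟨h8, h7.trans hx'⟩)
    simp [add_dv0] at this
  · linarith

theorem finite_ball (c : ℂ) (a : ℝ) : {y : Site | dist (toC y) c ≤ a}.Finite := by
  refine ((Set.finite_Icc ⌊c.re - a⌋ ⌈c.re + a⌉).prod (Set.finite_Icc ⌊c.im - a⌋ ⌈c.im + a⌉)).subset fun y hy => ?_
  have h1 := abs_le.1 ((Complex.abs_re_le_norm (toC y - c)).trans ((dist_eq_norm _ _).symm.trans_le hy))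
  have h2 := abs_le.1 ((Complex.abs_im_le_norm (toC y - c)).trans ((dist_eq_norm _ _).symm.trans_le hy))
  simp only [toC, Complex.sub_re, Complex.sub_im] at h1 h2
  refine ⟨⟨Int.floor_le_iff.2 ?_, Int.le_ceil_iff.2 ?_⟩, Int.floor_le_iff.2 ?_, Int.le_ceil_iff.2 ?_⟩ <;> linarith

end Crest.Agent.R165.B3
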