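import Crest.Agent.R165.B3.Inc

/-! # R165/B3: the quadratic inequalities at one white site (4-variable algebra) -/

set_option autoImplicit false
noncomputable section
open Classical

namespace Crest.Agent.R165.B3

theorem site_r2 : Real.sqrt 2 ^ 2 = 2 := Real.sq_sqrt (by norm_num)

theorem site_r_bd : 1 ≤ Real.sqrt 2 ∧ Real.sqrt 2 ≤ 2 := by
  have h := site_r2
  have h0 := Real.sqrt_nonneg 2
  constructor <;> nlinarith

theorem site_tc_bd : 1 / 6 ≤ tc ^ 2 ∧ tc ^ 2 ≤ 1 / 4 ∧ 0 < tc ∧ tc ≤ 1 / 2 := by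
  have h := site_r2
  have h0 := Real.sqrt_nonneg 2
  have h1 : 141 / 100 ≤ Real.sqrt 2 := by nlinarith
  have h2 : Real.sqrt 2 ≤ 3 / 2 := by nlinarith
  unfold tc
  refine ⟨?_, ?_, ?_, ?_⟩ <;> nlinarith

/-- `|A0 s|² - tc² |s|² = |(√2 + U) s|² / √2`, `(U s) = ![s 1 - s 3, s 0 + s 2, s 1 + s 3, s 2 - s 0]` -/
theorem A0_sq (s : Fin 4 → ℝ) : Real.sqrt 2 * (∑ α, A0 s α ^ 2 - tc ^ 2 * ∑ α, s α ^ 2) =
    (Real.sqrt 2 * s 0 + (s 1 - s 3)) ^ 2 + (Real.sqrt 2 * s 1 + (s 0 + s 2)) ^ 2 +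
    (Real.sqrt 2 * s 2 + (s 1 + s 3)) ^ 2 + (Real.sqrt 2 * s 3 + (s 2 - s 0)) ^ 2 := by
  have h := site_r2
  simp only [Fin.sum_univ_four, A0, tc, Matrix.cons_val_zero, Matrix.cons_val_one, Matrix.cons_val]
  linear_combination (1 - Real.sqrt 2) * (s 0 ^ 2 + s 1 ^ 2 + s 2 ^ 2 + s 3 ^ 2) * h

theorem A0_Q_nonneg (s : Fin 4 → ℝ) : 0 ≤ ∑ α, A0 s α ^ 2 - tc ^ 2 * ∑ α, s α ^ 2 := by
  have h := A0_sq s
  have h1 := site_r_bd.1
  by_contra hn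
  push Not at hn
  nlinarith [sq_nonneg (Real.sqrt 2 * s 0 + (s 1 - s 3)), sq_nonneg (Real.sqrt 2 * s 1 + (s 0 + s 2)),
    sq_nonneg (Real.sqrt 2 * s 2 + (s 1 + s 3)), sq_nonneg (Real.sqrt 2 * s 3 + (s 2 - s 0))]

/-- exact form of the Neumann Laplacian; `opA w s (x, β) - A0 s β = w * opp` on every edge -/
theorem lapN_eq {E : Set Edge} {S : Finset Site} {s : Fn} {Hw : Site → ℝ} {x : Site} (h : WInc (wOf E S) s Hw x) :
    tc ^ 2 * lapN E Hw x = (1 - tc ^ 2) * (∑ β : Fin 4, (opA (wOf E S) s (x, β) - A0 (fun γ => s (x, γ)) β) ^ 2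
      - tc ^ 2 * ∑ β : Fin 4, s (x, β) ^ 2 + tc ^ 2 * frz E s x) := by
  unfold lapN frz
  rw [Finset.mul_sum, Finset.mul_sum, Finset.mul_sum, ← Finset.sum_sub_distrib, ← Finset.sum_add_distrib, Finset.mul_sum]
  refine Finset.sum_congr rfl fun β _ => ?_
  have h1 := opA_eq (wOf E S) s x β
  have h2 := h β
  have h3 := wOf_sq E S (edgeOf x β)
  have h4 : (opA (wOf E S) s (x, β) - A0 (fun γ => s (x, γ)) β) ^ 2 = wOf E S (edgeOf x β) ^ 2 * opp s x β ^ 2 := by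
    rw [h1]; ring
  rw [h4]
  by_cases he : edgeOf x β ∈ E
  · rw [if_pos he] at h3
    rw [if_pos he, if_pos he, h2, h3]; ring
  · rw [if_neg he] at h3
    rw [if_neg he, if_neg he, h3]; ring

theorem lapN_eq_sol {E : Set Edge} {S : Finset Site} {s : Fn} {Hw : Site → ℝ} {x : Site} (hs : SolOn (wOf E S) {x} s)
    (h : WInc (wOf E S) s Hw x) : tc ^ 2 * lapN E Hw x = (1 - tc ^ 2) * ((∑ β : Fin 4, A0 (fun γ => s (x, γ)) β ^ 2
      - tc ^ 2 * ∑ β : Fin 4, s (x, β) ^ 2) + tc ^ 2 * frz E s x) := by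
  rw [lapN_eq h]
  congr 3
  refine Finset.sum_congr rfl fun β _ => ?_
  rw [hs x rfl β]; ring

theorem lapN_ge' {E : Set Edge} {S : Finset Site} {s : Fn} {Hw : Site → ℝ} {x : Site} (hs : SolOn (wOf E S) {x} s)
    (h : WInc (wOf E S) s Hw x) : (1 - tc ^ 2) * frz E s x ≤ lapN E Hw x := by
  have h1 := lapN_eq_sol hs h
  have h2 := A0_Q_nonneg (fun γ => s (x, γ))
  obtain ⟨h3, h4, -, -⟩ := site_tc_bd
  have h5 : tc ^ 2 * ((1 - tc ^ 2) * frz E s x) ≤ tc ^ 2 * lapN E Hw x := by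
    rw [h1]; linarith [mul_nonneg (by linarith : (0 : ℝ) ≤ 1 - tc ^ 2) h2]
  exact le_of_mul_le_mul_left h5 (by linarith)

theorem lapN_nonneg {E : Set Edge} {S : Finset Site} {s : Fn} {Hw : Site → ℝ} {x : Site} (hs : SolOn (wOf E S) {x} s)
    (h : WInc (wOf E S) s Hw x) : 0 ≤ lapN E Hw x := by
  have h1 := lapN_ge' hs h
  have h2 := frz_nonneg E s x
  obtain ⟨h3, h4, -, -⟩ := site_tc_bd
  nlinarith

theorem A0_abs_le {s : Fin 4 → ℝ} {M : ℝ} (h : ∀ β, |s β| ≤ M) (β : Fin 4) : |A0 s β| ≤ 3 * M := by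
  have h0 := abs_le.1 (h 0)
  have h1 := abs_le.1 (h 1)
  have h2 := abs_le.1 (h 2)
  have h3 := abs_le.1 (h 3)
  rw [abs_le]
  fin_cases β <;> simp [A0] <;> constructor <;> linarith

/-- at a source of size `≤ 1` the defect is linear in `s` -/
theorem src_lapN : ∃ C : ℝ, 0 ≤ C ∧ ∀ (E : Set Edge) (S : Finset Site) (s : Fn) (Hw : Site → ℝ) (x : Site) (M : ℝ),
    (∀ β, |opA (wOf E S) s (x, β)| ≤ 1) → WInc (wOf E S) s Hw x → (∀ β, |s (x, β)| ≤ M) →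
    (1 - tc ^ 2) * frz E s x ≤ lapN E Hw x + C * M := by
  refine ⟨144, by norm_num, fun E S s Hw x M hv h hM => ?_⟩
  have h1 := lapN_eq h
  have h2 := A0_Q_nonneg (fun γ => s (x, γ))
  obtain ⟨h3, h4, -, -⟩ := site_tc_bd
  have hM0 : 0 ≤ M := le_trans (abs_nonneg _) (hM 0)
  have h5 : ∑ β : Fin 4, A0 (fun γ => s (x, γ)) β ^ 2 - 24 * M ≤
      ∑ β : Fin 4, (opA (wOf E S) s (x, β) - A0 (fun γ => s (x, γ)) β) ^ 2 := by
    have : ∀ β : Fin 4, A0 (fun γ => s (x, γ)) β ^ 2 - 6 * M ≤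
        (opA (wOf E S) s (x, β) - A0 (fun γ => s (x, γ)) β) ^ 2 := by
      intro β
      have a1 := A0_abs_le (s := fun γ => s (x, γ)) hM β
      have a2 := hv β
      have a3 : |opA (wOf E S) s (x, β) * A0 (fun γ => s (x, γ)) β| ≤ 1 * (3 * M) := by
        rw [abs_mul]; exact mul_le_mul a2 a1 (abs_nonneg _) zero_le_one
      have a4 := (abs_le.1 a3).2
      nlinarith [sq_nonneg (opA (wOf E S) s (x, β))]
    have := Finset.sum_le_sum fun β (_ : β ∈ Finset.univ) => this β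
    rw [Finset.sum_sub_distrib] at this
    simp only [Finset.sum_const, Finset.card_univ, Fintype.card_fin, nsmul_eq_mul] at this
    push_cast at this
    linarith
  have h6 : tc ^ 2 * ((1 - tc ^ 2) * frz E s x) ≤ tc ^ 2 * (lapN E Hw x + 144 * M) := by
    rw [mul_add, h1]
    have : (1 - tc ^ 2) * (-(24 * M)) ≤ (1 - tc ^ 2) * (∑ β : Fin 4, (opA (wOf E S) s (x, β) - A0 (fun γ => s (x, γ)) β) ^ 2
      - tc ^ 2 * ∑ β : Fin 4, s (x, β) ^ 2) := mul_le_mul_of_nonneg_left (by linarith) (by linarith)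
    have h7 : 1 / 6 * M ≤ tc ^ 2 * M := mul_le_mul_of_nonneg_right h3 hM0
    linarith
  exact le_of_mul_le_mul_left h6 (by linarith)

/-- `A0` is invertible -/
theorem frozen_zero {E : Set Edge} {S : Finset Site} {s : Fn} {x : Site} (hs : SolOn (wOf E S) {x} s)
    (h : ∀ α, edgeOf x α ∉ E) (β : Fin 4) : s (x, β) = 0 := by
  have e : ∀ α, A0 (fun γ => s (x, γ)) α = 0 := fun α => by
    have h1 := opA_eq (wOf E S) s x α
    rw [hs x rfl α, wOf_not_mem S (h α)] at h1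
    linarith
  have e0 := e 0
  have e1 := e 1
  have e2 := e 2
  have e3 := e 3
  simp only [A0, Matrix.cons_val_zero, Matrix.cons_val_one, Matrix.cons_val] at e0 e1 e2 e3
  fin_cases β <;> simp <;> linarith

theorem site_sub_sq (m a : ℝ) : (m - Real.sqrt 2 * a) ^ 2 ≤ 2 * m ^ 2 + 4 * a ^ 2 := by
  have h : (Real.sqrt 2 * a) ^ 2 = 2 * a ^ 2 := by rw [mul_pow, site_r2]
  linarith [sq_nonneg (m + Real.sqrt 2 * a)]

theorem site_coer_aux (a b c d : ℝ) : a ^ 2 + b ^ 2 + c ^ 2 + d ^ 2 ≤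
    37 * ((Real.sqrt 2 * a + (b - d)) ^ 2 + (Real.sqrt 2 * c + (b + d)) ^ 2 + a ^ 2 + (b + c + d) ^ 2) := by
  have h := site_r2
  obtain ⟨h3, -, -, -⟩ := site_tc_bd
  set m0 := Real.sqrt 2 * a + (b - d) with hm0
  set m2 := Real.sqrt 2 * c + (b + d) with hm2
  set A := b + c + d with hA
  have e1 : tc * c = m2 - A := by unfold tc; rw [hm2, hA]; ring
  have e2 : tc ^ 2 * c ^ 2 ≤ 2 * m2 ^ 2 + 2 * A ^ 2 := by
    have : tc ^ 2 * c ^ 2 = (m2 - A) ^ 2 := by rw [← e1]; ring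
    rw [this]; nlinarith [sq_nonneg (m2 + A)]
  have e3 : c ^ 2 ≤ 12 * m2 ^ 2 + 12 * A ^ 2 := by nlinarith [sq_nonneg c]
  have e4 : (b - d) ^ 2 ≤ 2 * m0 ^ 2 + 4 * a ^ 2 := by
    have : b - d = m0 - Real.sqrt 2 * a := by rw [hm0]; ring
    rw [this]; exact site_sub_sq _ _
  have e5 : (b + d) ^ 2 ≤ 2 * m2 ^ 2 + 4 * c ^ 2 := by
    have : b + d = m2 - Real.sqrt 2 * c := by rw [hm2]; ring
    rw [this]; exact site_sub_sq _ _
  linarith [sq_nonneg m0, sq_nonneg m2, sq_nonneg a, sq_nonneg A]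

theorem site_single_le (s : Fin 4 → ℝ) (β : Fin 4) : s β ^ 2 ≤ s 0 ^ 2 + s 1 ^ 2 + s 2 ^ 2 + s 3 ^ 2 := by
  have := Finset.single_le_sum (f := fun γ => s γ ^ 2) (fun γ _ => sq_nonneg (s γ)) (Finset.mem_univ β)
  simpa [Fin.sum_univ_four] using this

/-- quantitative: `|s|² ≤ C (|(√2+U)s|² + (s α)² + (A0 s α)²)`. For `α = 0`, with `m = (√2+U)s`:
`s 1 - s 3 = m 0 - √2 s 0`, `s 1 + s 3 = m 2 - √2 s 2`, `A0 s 0 = m 2 - tc * s 2` -/
theorem A0_coer : ∃ C : ℝ, 0 ≤ C ∧ ∀ (s : Fin 4 → ℝ) (α β : Fin 4),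
    s β ^ 2 ≤ C * (∑ γ, A0 s γ ^ 2 - tc ^ 2 * ∑ γ, s γ ^ 2 + s α ^ 2 + A0 s α ^ 2) := by
  refine ⟨74, by norm_num, fun s α β => ?_⟩
  have h1 := A0_sq s
  have h2 := A0_Q_nonneg s
  have h3 := site_single_le s β
  obtain ⟨h4, h5⟩ := site_r_bd
  set Q := ∑ γ, A0 s γ ^ 2 - tc ^ 2 * ∑ γ, s γ ^ 2 with hQ
  have h6 : Real.sqrt 2 * Q ≤ 2 * Q := mul_le_mul_of_nonneg_right h5 h2
  have q0 := sq_nonneg (Real.sqrt 2 * s 0 + (s 1 - s 3))
  have q1 := sq_nonneg (Real.sqrt 2 * s 1 + (s 0 + s 2))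
  have q2 := sq_nonneg (Real.sqrt 2 * s 2 + (s 1 + s 3))
  have q3 := sq_nonneg (Real.sqrt 2 * s 3 + (s 2 - s 0))
  have key : s 0 ^ 2 + s 1 ^ 2 + s 2 ^ 2 + s 3 ^ 2 ≤ 37 * (2 * Q + s α ^ 2 + A0 s α ^ 2) := by
    fin_cases α
    · have := site_coer_aux (s 0) (s 1) (s 2) (s 3)
      simp only [A0, Fin.zero_eta, Matrix.cons_val_zero]
      linarith
    · have := site_coer_aux (s 1) (s 2) (s 3) (-s 0)
      simp only [A0, Fin.mk_one, Matrix.cons_val_one, Matrix.cons_val_zero]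
      linarith
    · have := site_coer_aux (s 2) (s 3) (-s 0) (-s 1)
      simp only [A0, Fin.reduceFinMk, Matrix.cons_val]
      linarith
    · have := site_coer_aux (s 3) (-s 0) (-s 1) (-s 2)
      simp only [A0, Fin.reduceFinMk, Matrix.cons_val]
      linarith
  linarith [sq_nonneg (s α), sq_nonneg (A0 s α)]

theorem site_prod_le {c : ℝ} (hc : |c| ≤ 1) (a b : ℝ) : |c * a * b| ≤ a ^ 2 / 100 + 25 * b ^ 2 := by
  have h1 : |c * a * b| ≤ |a| * |b| := by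
    rw [abs_mul, abs_mul]
    have := mul_le_mul_of_nonneg_right hc (mul_nonneg (abs_nonneg a) (abs_nonneg b))
    nlinarith
  nlinarith [sq_nonneg (|a| / 10 - 5 * |b|), sq_abs a, sq_abs b]

theorem site_rot (t a b : ℝ) : t * (a ^ 2 + b ^ 2) ≤ |t * (b ^ 2 - a ^ 2)| + |t * (-2 * a * b)| := by
  apply abs_le_of_sq_le_sq' _ (by positivity) |>.2
  · have h1 := sq_abs (t * (b ^ 2 - a ^ 2))
    have h2 := sq_abs (t * (-2 * a * b))
    have h3 := mul_nonneg (abs_nonneg (t * (b ^ 2 - a ^ 2))) (abs_nonneg (t * (-2 * a * b)))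
    nlinarith

/-- all-critical site: `D γ = (A0 s γ)² / tc² - (s γ)²`; the sum of the `D γ` controls the massive part `m`, and for the
massless part `f = (a, (b-a)/√2, -b, (a+b)/√2)` one has `D 0 ≈ b² - a²`, `D 1 ≈ 2ab` -/
theorem A0_crit : ∃ C : ℝ, 0 ≤ C ∧ ∀ (s : Fin 4 → ℝ) (β : Fin 4),
    s β ^ 2 ≤ C * ∑ γ, |A0 s γ ^ 2 - tc ^ 2 * s γ ^ 2| := by
  refine ⟨5000, by norm_num, fun s β => ?_⟩
  have h := site_r2
  have h1 := A0_sq s
  have h3 := site_single_le s β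
  obtain ⟨h4, h5⟩ := site_r_bd
  obtain ⟨t1, t2, t3, t4⟩ := site_tc_bd
  set m0 := Real.sqrt 2 * s 0 + (s 1 - s 3) with hm0
  set m1 := Real.sqrt 2 * s 1 + (s 0 + s 2) with hm1
  set m2 := Real.sqrt 2 * s 2 + (s 1 + s 3) with hm2
  set m3 := Real.sqrt 2 * s 3 + (s 2 - s 0) with hm3
  set D : Fin 4 → ℝ := fun γ => A0 s γ ^ 2 - tc ^ 2 * s γ ^ 2 with hD
  have hQ : ∑ γ, A0 s γ ^ 2 - tc ^ 2 * ∑ γ, s γ ^ 2 ≤ ∑ γ, |D γ| := by
    rw [Finset.mul_sum, ← Finset.sum_sub_distrib]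
    exact Finset.sum_le_sum fun γ _ => le_abs_self _
  have hS0 : 0 ≤ ∑ γ, |D γ| := Finset.sum_nonneg fun γ _ => abs_nonneg _
  have hμ : m0 ^ 2 + m1 ^ 2 + m2 ^ 2 + m3 ^ 2 ≤ 2 * ∑ γ, |D γ| := by
    rw [← h1]
    have := mul_le_mul_of_nonneg_right h5 (A0_Q_nonneg s)
    linarith
  have h01 : |D 0| + |D 1| ≤ ∑ γ, |D γ| := by
    rw [Fin.sum_univ_four]; linarith [abs_nonneg (D 2), abs_nonneg (D 3)]
  have a0 : A0 s 0 = m2 - tc * s 2 := by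
    simp only [A0, Matrix.cons_val_zero, hm2, tc]; ring
  have a1 : A0 s 1 = m3 - tc * s 3 := by
    simp only [A0, Matrix.cons_val_one, Matrix.cons_val_zero, hm3, tc]; ring
  have e0 : tc ^ 2 * (s 2 ^ 2 - s 0 ^ 2) = D 0 - m2 ^ 2 + 2 * tc * s 2 * m2 := by
    simp only [hD, a0]; ring
  have e1 : tc ^ 2 * (-2 * s 0 * s 2) = D 1 - m3 ^ 2 + 2 * tc * s 3 * m3 - tc ^ 2 * Real.sqrt 2 * s 2 * m0
      - tc ^ 2 * Real.sqrt 2 * s 0 * m2 + tc ^ 2 * m0 * m2 := by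
    simp only [hD, a1, hm0, hm2]
    linear_combination (tc ^ 2 * s 0 * s 2) * h
  have c1 : |2 * tc| ≤ 1 := by rw [abs_le]; constructor <;> linarith
  have c2 : |tc ^ 2 * Real.sqrt 2| ≤ 1 := by
    rw [abs_of_nonneg (by positivity)]
    linarith [mul_le_mul t2 h5 (by linarith) (by norm_num)]
  have c3 : |tc ^ 2| ≤ 1 := by rw [abs_le]; constructor <;> linarith
  have p1 := abs_le.1 (site_prod_le c1 (s 2) m2)
  have p2 := abs_le.1 (site_prod_le c1 (s 3) m3)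
  have p3 := abs_le.1 (site_prod_le c2 (s 2) m0)
  have p4 := abs_le.1 (site_prod_le c2 (s 0) m2)
  have p5 := abs_le.1 (site_prod_le c3 m0 m2)
  have d0 := abs_le.1 (le_refl |D 0|)
  have d1 := abs_le.1 (le_refl |D 1|)
  have q0 := sq_nonneg m0
  have q1 := sq_nonneg m1
  have q2 := sq_nonneg m2
  have q3 := sq_nonneg m3
  have b0 : |tc ^ 2 * (s 2 ^ 2 - s 0 ^ 2)| ≤ |D 0| + s 2 ^ 2 / 100 + 26 * m2 ^ 2 := by
    rw [e0, abs_le]; constructor <;> linarith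
  have b1 : |tc ^ 2 * (-2 * s 0 * s 2)| ≤ |D 1| + (s 0 ^ 2 + s 2 ^ 2 + s 3 ^ 2) / 100 + 26 * m3 ^ 2 + 26 * m0 ^ 2
      + 50 * m2 ^ 2 := by
    rw [e1, abs_le]; constructor <;> linarith
  have r1 := site_rot (tc ^ 2) (s 0) (s 2)
  have r2 : (s 0 ^ 2 + s 2 ^ 2) / 6 ≤ tc ^ 2 * (s 0 ^ 2 + s 2 ^ 2) := by
    linarith [mul_le_mul_of_nonneg_right t1 (by positivity : 0 ≤ s 0 ^ 2 + s 2 ^ 2)]
  have e4 : (s 1 - s 3) ^ 2 ≤ 2 * m0 ^ 2 + 4 * s 0 ^ 2 := by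
    have : s 1 - s 3 = m0 - Real.sqrt 2 * s 0 := by rw [hm0]; ring
    rw [this]; exact site_sub_sq _ _
  have e5 : (s 1 + s 3) ^ 2 ≤ 2 * m2 ^ 2 + 4 * s 2 ^ 2 := by
    have : s 1 + s 3 = m2 - Real.sqrt 2 * s 2 := by rw [hm2]; ring
    rw [this]; exact site_sub_sq _ _
  have e6 : s 1 ^ 2 + s 3 ^ 2 ≤ m0 ^ 2 + m2 ^ 2 + 2 * (s 0 ^ 2 + s 2 ^ 2) := by linarith
  show s β ^ 2 ≤ 5000 * ∑ γ, |D γ|
  linarith [sq_nonneg (s 0), sq_nonneg (s 1), sq_nonneg (s 2), sq_nonneg (s 3)]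

/-- **pointwise bound** at any site where the equation holds: `A0_crit` at all-critical sites,
`A0_coer` + `lapN_eq` + `lapN_le_grd` at sites with a frozen edge `α` (`A0 s α = 0`) -/
theorem pt_bound : ∃ C : ℝ, 0 ≤ C ∧ ∀ (E : Set Edge) (S : Finset Site) (s : Fn) (Hw : Site → ℝ) (x : Site),
    SolOn (wOf E S) {x} s → WInc (wOf E S) s Hw x → ∀ α, s (x, α) ^ 2 ≤ C * grd Hw x := by
  obtain ⟨C₁, hC₁, h₁⟩ := A0_crit
  obtain ⟨C₂, hC₂, h₂⟩ := A0_coer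
  refine ⟨C₁ + 2 * C₂, by positivity, fun E S s Hw x hs h α => ?_⟩
  have hg := grd_nonneg Hw x
  obtain ⟨t1, t2, -, -⟩ := site_tc_bd
  by_cases hc : ∀ γ, edgeOf x γ ∈ E
  · have b := h₁ (fun γ => s (x, γ)) α
    have : ∑ γ, |A0 (fun γ => s (x, γ)) γ ^ 2 - tc ^ 2 * s (x, γ) ^ 2| ≤ grd Hw x := by
      refine Finset.sum_le_sum fun γ _ => ?_
      have a1 := opA_eq (wOf E S) s x γ
      rw [hs x rfl γ] at a1
      have a2 := wOf_sq E S (edgeOf x γ)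
      rw [if_pos (hc γ)] at a2
      have a3 : A0 (fun γ => s (x, γ)) γ ^ 2 = tc ^ 2 * opp s x γ ^ 2 := by
        rw [← a2, show A0 (fun γ => s (x, γ)) γ = -(wOf E S (edgeOf x γ) * opp s x γ) by linarith]; ring
      rw [h γ, a2, a3, ← mul_sub, abs_mul, abs_mul, abs_of_nonneg (by linarith : (0 : ℝ) ≤ tc ^ 2),
        abs_of_nonneg (by linarith : (0 : ℝ) ≤ 1 - tc ^ 2)]
      exact mul_le_mul_of_nonneg_right (by linarith) (abs_nonneg _)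
    have := mul_le_mul_of_nonneg_left this hC₁
    linarith [mul_nonneg hC₂ hg]
  · push Not at hc
    obtain ⟨γ, hγ⟩ := hc
    have b := h₂ (fun γ => s (x, γ)) γ α
    have a1 := opA_eq (wOf E S) s x γ
    rw [hs x rfl γ, wOf_not_mem S hγ] at a1
    have a2 : A0 (fun γ => s (x, γ)) γ = 0 := by linarith
    have a3 := lapN_eq_sol hs h
    have a4 := A0_Q_nonneg (fun γ => s (x, γ))
    have a5 : s (x, γ) ^ 2 ≤ frz E s x := by
      have := Finset.single_le_sum (f := fun α => if edgeOf x α ∈ E then (0 : ℝ) else s (x, α) ^ 2)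
        (fun α _ => by positivity) (Finset.mem_univ γ)
      simpa [hγ, frz] using this
    have a6 := (abs_le.1 (lapN_le_grd E Hw x)).2
    have a7 := frz_nonneg E s x
    set Q := ∑ β : Fin 4, A0 (fun γ => s (x, γ)) β ^ 2 - tc ^ 2 * ∑ β : Fin 4, s (x, β) ^ 2 with hQ
    have a8 : tc ^ 2 * (Q + frz E s x) ≤ tc ^ 2 * (2 * grd Hw x) := by
      have : tc ^ 2 * lapN E Hw x ≤ tc ^ 2 * grd Hw x := mul_le_mul_of_nonneg_left a6 (by linarith)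
      have h9 : 0 ≤ Q + tc ^ 2 * frz E s x := by positivity
      have h10 : 1 / 2 * (Q + tc ^ 2 * frz E s x) ≤ (1 - tc ^ 2) * (Q + tc ^ 2 * frz E s x) :=
        mul_le_mul_of_nonneg_right (by linarith) h9
      have h11 : tc ^ 2 * Q ≤ 1 * Q := mul_le_mul_of_nonneg_right (by linarith) a4
      linarith
    have a9 : Q + frz E s x ≤ 2 * grd Hw x := le_of_mul_le_mul_left a8 (by linarith)
    rw [a2] at b
    have : C₂ * (Q + s (x, γ) ^ 2 + 0 ^ 2) ≤ C₂ * (2 * grd Hw x) := mul_le_mul_of_nonneg_left (by linarith) hC₂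
    linarith [mul_nonneg hC₁ hg]

/-- `A0_coer` with vanishing right-hand side -/
theorem site_zero {E : Set Edge} {S : Finset Site} {s : Fn} {Hw : Site → ℝ} {x : Site} (hs : SolOn (wOf E S) {x} s)
    (h : WInc (wOf E S) s Hw x) (h0 : lapN E Hw x ≤ 0) {α : Fin 4} (h1 : s (x, α) = 0)
    (h2 : wOf E S (edgeOf x α) * opp s x α = 0) (β : Fin 4) : s (x, β) = 0 := by
  obtain ⟨C₂, hC₂, h₂⟩ := A0_coer
  obtain ⟨t1, t2, -, -⟩ := site_tc_bd
  have b := h₂ (fun γ => s (x, γ)) α β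
  have a1 := opA_eq (wOf E S) s x α
  rw [hs x rfl α, h2] at a1
  have a2 : A0 (fun γ => s (x, γ)) α = 0 := by linarith
  have a3 := lapN_eq_sol hs h
  have a4 := A0_Q_nonneg (fun γ => s (x, γ))
  have a7 := frz_nonneg E s x
  set Q := ∑ β : Fin 4, A0 (fun γ => s (x, γ)) β ^ 2 - tc ^ 2 * ∑ β : Fin 4, s (x, β) ^ 2 with hQ
  have a8 : Q ≤ 0 := by
    have h9 : 0 ≤ tc ^ 2 * frz E s x := by positivity
    have : tc ^ 2 * lapN E Hw x ≤ 0 := mul_nonpos_of_nonneg_of_nonpos (by linarith) h0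
    have h10 : 1 / 2 * (Q + tc ^ 2 * frz E s x) ≤ (1 - tc ^ 2) * (Q + tc ^ 2 * frz E s x) :=
      mul_le_mul_of_nonneg_right (by linarith) (by linarith)
    linarith
  have a9 : Q = 0 := le_antisymm a8 a4
  rw [a2, h1, a9] at b
  have : s (x, β) ^ 2 ≤ 0 := by simpa using b
  exact pow_eq_zero_iff (two_ne_zero) |>.1 (le_antisymm this (sq_nonneg _))

end Crest.Agent.R165.B3
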